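import Crest.Agent.R180.CentA
/-! Large centralisers force a large algebra. -/
set_option autoImplicit false
open scoped BigOperators
namespace Crest.Agent.R180

namespace CentX

theorem prim {E L : Type} [Field E] [CharZero E] [CommRing L] [IsDomain L] [Algebra E L]
    [FiniteDimensional E L] : ∃ z : L, Algebra.adjoin E ({z} : Set L) = ⊤ := by
  letI : Field L := fieldOfFiniteDimensional E L
  obtain ⟨z, hz⟩ := Field.exists_primitive_element E L
  refine ⟨z, ?_⟩
  have h1 : IsAlgebraic E z := Algebra.IsAlgebraic.isAlgebraic z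
  rw [← IntermediateField.adjoin_simple_toSubalgebra_of_isAlgebraic h1, hz]
  rfl

theorem prim' {E D : Type} [Field E] [CharZero E] [DivisionRing D] [Algebra E D]
    [FiniteDimensional E D] (L : Subalgebra E D) (hL : ∀ a ∈ L, ∀ b ∈ L, a * b = b * a) :
    ∃ z ∈ L, ∀ d : D, z * d = d * z → ∀ w ∈ L, w * d = d * w := by
  letI : CommRing L := { (inferInstance : Ring L) with
    mul_comm := fun a b => Subtype.ext (hL a a.2 b b.2) }
  obtain ⟨z, hz⟩ := prim (E := E) (L := L)
  refine ⟨z, z.2, fun d hd w hw => ?_⟩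
  have h1 : Algebra.adjoin E ({z} : Set L) ≤
      (Subalgebra.centralizer E ({d} : Set D)).comap L.val := by
    apply Algebra.adjoin_le
    intro t ht
    rw [Set.mem_singleton_iff] at ht
    subst ht
    simp only [SetLike.mem_coe, Subalgebra.mem_comap, Subalgebra.mem_centralizer_iff,
      Set.mem_singleton_iff]
    rintro g rfl
    exact hd.symm
  have h2 : (⟨w, hw⟩ : L) ∈ Algebra.adjoin E ({z} : Set L) := by rw [hz]; trivial
  have h3 := h1 h2
  simp only [Subalgebra.mem_comap, Subalgebra.mem_centralizer_iff, Set.mem_singleton_iff] at h3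
  exact (h3 d rfl).symm

theorem adj_comm {E D : Type} [Field E] [Ring D] [Algebra E D] (s : Set D)
    (hs : ∀ a ∈ s, ∀ b ∈ s, a * b = b * a) :
    ∀ a ∈ Algebra.adjoin E s, ∀ b ∈ Algebra.adjoin E s, a * b = b * a := by
  intro a ha b hb
  have := Algebra.adjoin_le_centralizer_centralizer E s
  exact Set.centralizer_centralizer_comm_of_comm hs _ (this ha) _ (this hb)

theorem exists_max {E D : Type} [Field E] [DivisionRing D] [Algebra E D]
    [FiniteDimensional E D] (Q : Subalgebra E D → Prop) (h : ∃ L, Q L) :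
    ∃ L, Q L ∧ ∀ L', Q L' → L ≤ L' → L' = L := by
  classical
  have hb : ∀ L : Subalgebra E D, Module.finrank E L ≤ Module.finrank E D := fun L =>
    Submodule.finrank_le (Subalgebra.toSubmodule L)
  obtain ⟨L, hL, hmax⟩ : ∃ L, Q L ∧ ∀ L', Q L' → Module.finrank E L' ≤ Module.finrank E L := by
    by_contra hc
    push Not at hc
    have : ∀ n : ℕ, ∃ L, Q L ∧ n ≤ Module.finrank E L := by
      intro n
      induction n with
      | zero => obtain ⟨L, hL⟩ := h; exact ⟨L, hL, Nat.zero_le _⟩
      | succ n ih =>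
        obtain ⟨L, hL, hn⟩ := ih
        obtain ⟨L', hL', hlt⟩ := hc L hL
        exact ⟨L', hL', by omega⟩
    obtain ⟨L, -, hn⟩ := this (Module.finrank E D + 1)
    have := hb L
    omega
  refine ⟨L, hL, fun L' hL' hle => ?_⟩
  exact (Subalgebra.eq_of_le_of_finrank_le hle (hmax L' hL')).symm

end CentX

theorem big_of_cent {E D : Type} [Field E] [CharZero E] [DivisionRing D] [Algebra E D]
    [FiniteDimensional E D] {Λ : Type} [Fintype Λ] (P : Λ → D) (hP : Azu (E := E) P) (x y : D)
    (h : ∀ z : D, z * x = x * z → z * y = y * z →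
      Module.finrank E D ≤ 4 * Module.finrank E (Subalgebra.centralizer E ({z} : Set D)))
    (m : ℕ) (hm : Small x y m) : Module.finrank E D ≤ 16 * m := by
  classical
  obtain ⟨w, c, hcc, hcxy, h1, hx, hy⟩ := hm
  let Q : Subalgebra E D → Prop := fun L =>
    (∀ a ∈ L, ∀ b ∈ L, a * b = b * a) ∧ (∀ a ∈ L, a * x = x * a ∧ a * y = y * a) ∧
      ∀ a i, c a i ∈ L
  have hadj : ∀ s : Set D, (∀ a ∈ s, a * x = x * a ∧ a * y = y * a) →
      ∀ a ∈ Algebra.adjoin E s, a * x = x * a ∧ a * y = y * a := by
    intro s hs a ha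
    have hle : Algebra.adjoin E s ≤ Subalgebra.centralizer E ({x, y} : Set D) := by
      apply Algebra.adjoin_le
      intro t ht
      simp only [SetLike.mem_coe, Subalgebra.mem_centralizer_iff, Set.mem_insert_iff,
        Set.mem_singleton_iff]
      rintro g (rfl | rfl)
      · exact (hs t ht).1.symm
      · exact (hs t ht).2.symm
    have := hle ha
    rw [Subalgebra.mem_centralizer_iff] at this
    exact ⟨(this x (by simp)).symm, (this y (by simp)).symm⟩
  have hQ0 : ∃ L, Q L := by
    refine ⟨Algebra.adjoin E {t | ∃ a i, c a i = t}, ?_, ?_, ?_⟩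
    · apply CentX.adj_comm
      rintro _ ⟨a, i, rfl⟩ _ ⟨b, j, rfl⟩
      exact hcc a i b j
    · apply hadj
      rintro _ ⟨a, i, rfl⟩
      exact hcxy a i
    · intro a i
      exact Algebra.subset_adjoin ⟨a, i, rfl⟩
  obtain ⟨L, ⟨hLc, hLxy, hLm⟩, hmax⟩ := CentX.exists_max Q hQ0
  let B : Subalgebra E D := Algebra.adjoin E ((L : Set D) ∪ {x, y})
  -- (1) the dimension of `B`
  let Φ : (Fin m → L) →ₗ[E] D :=
    { toFun := fun l => ∑ j, (l j : D) * w j
      map_add' := fun a b => by simp [add_mul, Finset.sum_add_distrib]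
      map_smul' := fun e a => by simp [Finset.smul_sum] }
  have hΦ : ∀ l, Φ l = ∑ j, (l j : D) * w j := fun l => rfl
  have hstab : ∀ (t : D) (o : Option (Bool × Fin m) → Prop), (∀ a ∈ L, a * t = t * a) →
      (∀ i, ∃ a, t * w i = ∑ j, c a j * w j) →
      ∀ v ∈ LinearMap.range Φ, t * v ∈ LinearMap.range Φ := by
    intro t _ ht hw v hv
    obtain ⟨l, rfl⟩ := hv
    rw [hΦ, Finset.mul_sum]
    refine Submodule.sum_mem _ fun i _ => ?_
    obtain ⟨a, ha⟩ := hw i
    refine ⟨fun j => l i * ⟨c a j, hLm a j⟩, ?_⟩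
    rw [hΦ, ← mul_assoc, ← ht _ (l i).2, mul_assoc, ha, Finset.mul_sum]
    simp [mul_assoc]
  have hB : ∀ b ∈ B, ∀ v ∈ LinearMap.range Φ, b * v ∈ LinearMap.range Φ := by
    intro b hb
    induction hb using Algebra.adjoin_induction with
    | mem t ht =>
      rcases ht with ht | rfl | rfl
      · rintro _ ⟨l, rfl⟩
        refine ⟨fun j => ⟨t, ht⟩ * l j, ?_⟩
        rw [hΦ, hΦ, Finset.mul_sum]
        simp [mul_assoc]
      · exact hstab _ (fun _ => True) (fun a ha => (hLxy a ha).1) (fun i => ⟨_, hx i⟩)
      · exact hstab _ (fun _ => True) (fun a ha => (hLxy a ha).2) (fun i => ⟨_, hy i⟩)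
    | algebraMap r =>
      intro v hv
      rw [← Algebra.smul_def]
      exact Submodule.smul_mem _ _ hv
    | add a b _ _ iha ihb =>
      intro v hv
      rw [add_mul]
      exact Submodule.add_mem _ (iha v hv) (ihb v hv)
    | mul a b _ _ iha ihb =>
      intro v hv
      rw [mul_assoc]
      exact iha _ (ihb v hv)
  have hone : (1 : D) ∈ LinearMap.range Φ := ⟨fun j => ⟨c none j, hLm none j⟩, by
    rw [hΦ]; exact h1.symm⟩
  have hBle : Subalgebra.toSubmodule B ≤ LinearMap.range Φ := by
    intro b hb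
    have := hB b hb 1 hone
    rwa [mul_one] at this
  have hBdim : Module.finrank E B ≤ m * Module.finrank E L := by
    have e1 : Module.finrank E B ≤ Module.finrank E (LinearMap.range Φ) :=
      Submodule.finrank_mono hBle
    have e2 : Module.finrank E (LinearMap.range Φ) ≤ Module.finrank E (Fin m → L) :=
      LinearMap.finrank_range_le Φ
    have e3 : Module.finrank E (Fin m → L) = m * Module.finrank E L := by
      rw [Module.finrank_pi_fintype]; simp
    omega
  -- (2) the centraliser of `B`
  have hCB : Subalgebra.centralizer E (B : Set D) ≤ L := by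
    intro z hz
    rw [Subalgebra.mem_centralizer_iff] at hz
    have hzL : ∀ a ∈ L, a * z = z * a := fun a ha =>
      hz a (Algebra.subset_adjoin (Or.inl ha))
    have hzx : x * z = z * x := hz x (Algebra.subset_adjoin (Or.inr (by simp)))
    have hzy : y * z = z * y := hz y (Algebra.subset_adjoin (Or.inr (by simp)))
    have hle : L ≤ Algebra.adjoin E ((L : Set D) ∪ {z}) := fun a ha =>
      Algebra.subset_adjoin (Or.inl ha)
    have hQ' : Q (Algebra.adjoin E ((L : Set D) ∪ {z})) := by
      refine ⟨?_, ?_, fun a i => hle (hLm a i)⟩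
      · apply CentX.adj_comm
        rintro a (ha | rfl) b (hb | rfl)
        · exact hLc a ha b hb
        · exact hzL a ha
        · exact (hzL b hb).symm
        · rfl
      · apply hadj
        rintro a (ha | rfl)
        · exact hLxy a ha
        · exact ⟨hzx.symm, hzy.symm⟩
    rw [← hmax _ hQ' hle]
    exact Algebra.subset_adjoin (Or.inr rfl)
  have hCBdim : Module.finrank E (Subalgebra.centralizer E (B : Set D)) ≤ Module.finrank E L :=
    Submodule.finrank_mono (show Subalgebra.toSubmodule (Subalgebra.centralizer E (B : Set D)) ≤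
      Subalgebra.toSubmodule L from hCB)
  have hN : Module.finrank E D ≤ Module.finrank E L * (m * Module.finrank E L) := by
    rw [← cent_formula P hP B]
    exact Nat.mul_le_mul hCBdim hBdim
  -- (3) `L` is small
  obtain ⟨z, hzL, hz⟩ := CentX.prim' L hLc
  have hCz : Subalgebra.centralizer E ({z} : Set D) = Subalgebra.centralizer E (L : Set D) := by
    ext d
    simp only [Subalgebra.mem_centralizer_iff, Set.mem_singleton_iff, SetLike.mem_coe]
    constructor
    · intro hd g hg
      exact hz d (hd z rfl) g hg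
    · rintro hd g rfl
      exact hd _ hzL
  have h4 := h z (hLxy z hzL).1 (hLxy z hzL).2
  have hf := cent_formula P hP L
  rw [hCz] at h4
  have hpos : 0 < Module.finrank E (Subalgebra.centralizer E (L : Set D)) := Module.finrank_pos
  have hL4 : Module.finrank E L ≤ 4 := by
    rw [← hf, mul_comm 4] at h4
    exact Nat.le_of_mul_le_mul_left h4 hpos
  calc Module.finrank E D ≤ Module.finrank E L * (m * Module.finrank E L) := hN
    _ ≤ 4 * (m * 4) := Nat.mul_le_mul hL4 (Nat.mul_le_mul_left _ hL4)
    _ = 16 * m := by ring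

end Crest.Agent.R180
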