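import Crest.Agent.R180.Defs
/-! The centraliser formula. -/
set_option autoImplicit false
open scoped BigOperators
namespace Crest.Agent.R180

/-- `D ⊗ Dᵒᵖ = End D` in coordinates -/
def Azu {E D : Type} [Field E] [Ring D] [Algebra E D] {Λ : Type} [Fintype Λ] (P : Λ → D) : Prop :=
  Fintype.card Λ = Module.finrank E D ∧
    ∀ c : Λ → D, (∀ d : D, ∑ χ, c χ * d * P χ = 0) → c = 0

theorem cent_formula {E D : Type} [Field E] [DivisionRing D] [Algebra E D] [FiniteDimensional E D]
    {Λ : Type} [Fintype Λ] (P : Λ → D) (hP : Azu (E := E) P) (B : Subalgebra E D) :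
    Module.finrank E (Subalgebra.centralizer E (B : Set D)) * Module.finrank E B =
      Module.finrank E D := by
  classical
  haveI : Module.Free B D := by
    letI := divisionRingOfFiniteDimensional E B
    exact Module.Free.of_divisionRing B D
  haveI : StrongRankCondition B := by
    letI := divisionRingOfFiniteDimensional E B
    exact (inferInstance : StrongRankCondition B)
  haveI : Module.Finite B D := Module.Finite.of_restrictScalars_finite E B D
  let Θ : (Λ → D) →ₗ[E] (D →ₗ[E] D) :=
    { toFun := fun c => ∑ χ, (LinearMap.mulRight E (P χ)).comp (LinearMap.mulLeft E (c χ))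
      map_add' := fun c c' => by ext d; simp [add_mul, Finset.sum_add_distrib]
      map_smul' := fun a c => by ext d; simp [Finset.smul_sum] }
  have hΘ : ∀ c d, Θ c d = ∑ χ, c χ * d * P χ := fun c d => by simp [Θ]
  have hs : Function.Surjective Θ := by
    refine (LinearMap.injective_iff_surjective_of_finrank_eq_finrank ?_).1
      ((injective_iff_map_eq_zero Θ).2 fun c hc => hP.2 c fun d => by rw [← hΘ, hc]; rfl)
    rw [Module.finrank_linearMap, Module.finrank_pi_fintype, Finset.sum_const, Finset.card_univ,
      hP.1, smul_eq_mul]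
  let Ψ : (Λ → Subalgebra.centralizer E (B : Set D)) →ₗ[E] (D →ₗ[B] D) :=
    { toFun := fun c =>
        { toFun := fun d => ∑ χ, c χ * d * P χ
          map_add' := fun d d' => by simp [add_mul, mul_add, Finset.sum_add_distrib]
          map_smul' := fun b d => by
            simp only [Subalgebra.smul_def, smul_eq_mul, RingHom.id_apply, Finset.mul_sum,
              ← mul_assoc, (c _).2 b b.2] }
      map_add' := fun c c' => by ext d; simp [add_mul, Finset.sum_add_distrib]
      map_smul' := fun a c => by ext d; simp [Finset.smul_sum] }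
  have hb : Function.Bijective Ψ := by
    refine ⟨(injective_iff_map_eq_zero Ψ).2 fun c hc => ?_, fun φ => ?_⟩
    · have := hP.2 (fun χ => c χ) fun d => LinearMap.congr_fun hc d
      exact funext fun χ => Subtype.ext (congrFun this χ)
    · obtain ⟨c, hc⟩ := hs (φ.restrictScalars E)
      have h1 : ∀ d, ∑ χ, c χ * d * P χ = φ d := fun d => by rw [← hΘ, hc]; rfl
      refine ⟨fun χ => ⟨c χ, fun b hb => ?_⟩, LinearMap.ext h1⟩
      refine sub_eq_zero.1 (congrFun (hP.2 (fun χ => b * c χ - c χ * b) fun d => ?_) χ)
      have h2 : φ (b * d) = b * φ d := φ.map_smul ⟨b, hb⟩ d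
      rw [← h1, ← h1, Finset.mul_sum] at h2
      simp only [sub_mul, Finset.sum_sub_distrib, mul_assoc] at h2 ⊢
      rw [h2, sub_self]
  have h1 := (LinearEquiv.ofBijective Ψ hb).finrank_eq
  have h2 := (Module.Basis.constr (M' := D) (Module.finBasis B D) E).finrank_eq
  rw [← h2, Module.finrank_pi_fintype,
    Module.finrank_pi_fintype, Finset.sum_const, Finset.sum_const, Finset.card_univ,
    Finset.card_univ, hP.1, Fintype.card_fin, smul_eq_mul, smul_eq_mul, mul_comm] at h1
  rw [Nat.eq_of_mul_eq_mul_right Module.finrank_pos h1, mul_comm, Module.finrank_mul_finrank]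

end Crest.Agent.R180
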