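import Mathlib

/-! Row 180 (Kurosh problem for division rings): definitions. -/

set_option autoImplicit false
open scoped BigOperators

namespace Crest.Agent.R180

/-! ## K-polynomials -/
section KPoly
variable {κ : Type} [Fintype κ] [DecidableEq κ]

/-- difference operator `(1 - t^γ) K` -/
def Dl (γ : κ → ℤ) (K : (κ → ℤ) → ℤ) : (κ → ℤ) → ℤ := fun g => K g - K (g - γ)

/-- `∏_{i ∈ s} (1 - t^{δ i}) K` -/
def DF {ι : Type} (s : Finset ι) (δ : ι → κ → ℤ) (K : (κ → ℤ) → ℤ) : (κ → ℤ) → ℤ :=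
  fun g => ∑ t ∈ s.powerset, (-1) ^ t.card * K (g - ∑ i ∈ t, δ i)

/-- the class of functions produced by the Hilbert–Serre induction -/
inductive Gen {ι : Type} (s : Finset ι) (δ : ι → κ → ℤ) : ((κ → ℤ) → ℤ) → Prop
  | base (K : (κ → ℤ) → ℤ) : (Function.support K).Finite → (∀ g, 0 ≤ K g) → Gen s δ K
  | add (K L : (κ → ℤ) → ℤ) : Gen s δ K → Gen s δ L → Gen s δ (K + L)
  | diff (K : (κ → ℤ) → ℤ) (i : ι) : i ∈ s → Gen s δ K → Gen s δ (Dl (δ i) K)

/-- coefficient ring `ℤ[τ]` -/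
abbrev OO (κ : Type) := MvPolynomial κ ℤ

/-- the unit `1 + τ_l s` -/
noncomputable def un (l : κ) : (PowerSeries (OO κ))ˣ :=
  Units.mkOfMulEqOne (1 + PowerSeries.C (MvPolynomial.X l) * PowerSeries.X)
    (PowerSeries.invOfUnit (1 + PowerSeries.C (MvPolynomial.X l) * PowerSeries.X) 1)
    (PowerSeries.mul_invOfUnit _ _ (by simp))

/-- `t^g ↦ ∏ (1 + τ_l s)^{g l}` -/
noncomputable def phi (g : κ → ℤ) : PowerSeries (OO κ) := ((∏ l, un l ^ g l : (PowerSeries (OO κ))ˣ) : _)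

/-- the linear form of a degree -/
noncomputable def lin (g : κ → ℤ) : OO κ := ∑ l, g l • MvPolynomial.X l

noncomputable def PhiK (K : (κ → ℤ) → ℤ) : PowerSeries (OO κ) := ∑ᶠ g, K g • phi g

def OrdGe (p : PowerSeries (OO κ)) (o : ℕ) : Prop := ∀ i < o, PowerSeries.coeff i p = 0

/-- weights are nonnegative and nonzero -/
def PosW {ι : Type} (δ : ι → κ → ℤ) : Prop := ∀ i, (∀ l, 0 ≤ δ i l) ∧ δ i ≠ 0

/-- reduction mod 2 killing the variables in `T` -/
noncomputable def sig (T : Finset κ) : OO κ →+* MvPolynomial κ (ZMod 2) :=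
  MvPolynomial.eval₂Hom (Int.castRingHom _) (fun l => if l ∈ T then 0 else MvPolynomial.X l)

end KPoly

/-! ## Families of subspaces -/
section Fam
variable {κ : Type} [Fintype κ] [DecidableEq κ] {V : Type} [AddCommGroup V] [Module ℚ V]

/-- Hilbert function of the pair `U ≤ W` -/
noncomputable def hf (U W : (κ → ℤ) → Submodule ℚ V) : (κ → ℤ) → ℤ :=
  fun g => (Module.finrank ℚ (W g) : ℤ) - Module.finrank ℚ (U g)

def Stab (Z : V →ₗ[ℚ] V) (γ : κ → ℤ) (U : (κ → ℤ) → Submodule ℚ V) : Prop :=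
  ∀ g, ∀ v ∈ U g, Z v ∈ U (g + γ)

/-- ascending chain condition between `U` and `W` for families stable under `Z i`, `i ∈ s` -/
def Acc {ι : Type} (s : Finset ι) (δ : ι → κ → ℤ) (Z : ι → V →ₗ[ℚ] V)
    (U W : (κ → ℤ) → Submodule ℚ V) : Prop :=
  ∀ T : ℕ → (κ → ℤ) → Submodule ℚ V, Monotone T → (∀ n, U ≤ T n ∧ T n ≤ W) →
    (∀ n, ∀ i ∈ s, Stab (Z i) (δ i) (T n)) → ∃ n, ∀ m, n ≤ m → T m = T n

end Fam

/-! ## Graded modules over a weighted polynomial ring -/
section Gr
variable {κ : Type} [Fintype κ] [DecidableEq κ] {ι : Type} [Fintype ι] [DecidableEq ι]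

abbrev SS (ι : Type) := MvPolynomial ι ℚ

/-- a grading of an `SS ι`-module with finite-dimensional pieces -/
structure Gr (δ : ι → κ → ℤ) (V : Type) [AddCommGroup V] [Module ℚ V] [Module (SS ι) V] where
  part : (κ → ℤ) → Submodule ℚ V
  comp : (κ → ℤ) → V →ₗ[ℚ] V
  comp_mem : ∀ g v, comp g v ∈ part g
  comp_of_mem : ∀ g v, v ∈ part g → comp g v = v
  comp_of_ne : ∀ g g' v, v ∈ part g → g' ≠ g → comp g' v = 0
  fin_supp : ∀ v, (Function.support fun g => comp g v).Finite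
  sum_comp : ∀ v, ∑ᶠ g, comp g v = v
  fd : ∀ g, FiniteDimensional ℚ (part g)
  smul_mem : ∀ (F : SS ι) γ g v, MvPolynomial.IsWeightedHomogeneous δ F γ → v ∈ part g →
    F • v ∈ part (g + γ)

variable {δ : ι → κ → ℤ} {V : Type} [AddCommGroup V] [Module ℚ V] [Module (SS ι) V]
  [IsScalarTower ℚ (SS ι) V]

def Gr.Hom (Γ : Gr δ V) (N : Submodule (SS ι) V) : Prop := ∀ v ∈ N, ∀ g, Γ.comp g v ∈ N

noncomputable def Gr.fam (Γ : Gr δ V) (N : Submodule (SS ι) V) : (κ → ℤ) → Submodule ℚ V :=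
  fun g => N.restrictScalars ℚ ⊓ Γ.part g

/-- Hilbert function of `N' / N` -/
noncomputable def Gr.h (Γ : Gr δ V) (N N' : Submodule (SS ι) V) : (κ → ℤ) → ℤ :=
  hf (Γ.fam N) (Γ.fam N')

/-- multiplication by a variable as a `ℚ`-linear operator -/
noncomputable def mulX (V : Type) [AddCommGroup V] [Module ℚ V] [Module (SS ι) V]
    [IsScalarTower ℚ (SS ι) V] (i : ι) : V →ₗ[ℚ] V where
  toFun v := (MvPolynomial.X i : SS ι) • v
  map_add' a b := smul_add _ a b
  map_smul' c a := by simp [smul_comm (MvPolynomial.X i : SS ι) c a]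

end Gr

/-! ## Generic multiquaternion algebras -/
section Tw

abbrev Kap (r : ℕ) := Fin r × Bool
abbrev Lam (r : ℕ) := Kap r → ZMod 2

/-- integer lift of a parity vector -/
def lift {r : ℕ} (χ : Lam r) : Kap r → ℤ := fun l => ((χ l).val : ℤ)

variable {r : ℕ} {R : Type} [CommRing R]

/-- the cocycle: sign times carry -/
def gam (u : Kap r → R) (χ ψ : Lam r) : R :=
  (∏ l : Fin r, if χ (l, true) = 1 ∧ ψ (l, false) = 1 then (-1 : R) else 1) *
    ∏ l : Kap r, if χ l = 1 ∧ ψ l = 1 then u l else 1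

/-- the twisted group algebra `(u₁,u₂) ⊗ ⋯ ⊗ (u_{2r-1},u_{2r})` -/
def Tw (_u : Kap r → R) : Type := Lam r → R

instance (u : Kap r → R) : AddCommGroup (Tw u) := inferInstanceAs (AddCommGroup (Lam r → R))
instance (u : Kap r → R) {A : Type} [Semiring A] [Module A R] : Module A (Tw u) :=
  inferInstanceAs (Module A (Lam r → R))
instance (u : Kap r → R) : Mul (Tw u) :=
  ⟨fun a b => fun ξ => ∑ χ : Lam r, gam u χ (ξ - χ) * a χ * b (ξ - χ)⟩
/-- basis elements -/
def PP (u : Kap r → R) (χ : Lam r) : Tw u := Pi.single (M := fun _ => R) χ 1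
instance (u : Kap r → R) : One (Tw u) := ⟨PP u 0⟩

end Tw

/-! ## Trace terms and the final data -/

inductive Term : Type
  | X | Y | one
  | neg (t : Term) | add (t s : Term) | mul (t s : Term) | tr (t : Term)
  deriving Countable

noncomputable def Term.ev {E D : Type} [CommRing E] [Ring D] [Algebra E D] (τ : D →ₗ[E] E)
    (x y : D) : Term → D
  | .X => x
  | .Y => y
  | .one => 1
  | .neg t => - t.ev τ x y
  | .add t s => t.ev τ x y + s.ev τ x y
  | .mul t s => t.ev τ x y * s.ev τ x y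
  | .tr t => algebraMap E D (τ (t.ev τ x y))

/-- `1` lies in an `m`-generated left `Z`-module stable under `x, y`, `Z` commuting with `x, y` -/
def Small {D : Type} [Ring D] (x y : D) (m : ℕ) : Prop :=
  ∃ (w : Fin m → D) (c : Option (Bool × Fin m) → Fin m → D),
    (∀ a i b j, c a i * c b j = c b j * c a i) ∧
    (∀ a i, c a i * x = x * c a i ∧ c a i * y = y * c a i) ∧
    1 = ∑ j, c none j * w j ∧
    (∀ i, x * w i = ∑ j, c (some (false, i)) j * w j) ∧
    (∀ i, y * w i = ∑ j, c (some (true, i)) j * w j)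

/-- a division algebra with a normalised functional and two elements -/
structure Model where
  E : Type
  D : Type
  [fE : Field E]
  [cE : CharZero E]
  [dD : DivisionRing D]
  [aD : Algebra E D]
  τ : D →ₗ[E] E
  τ_one : τ 1 = 1
  x : D
  y : D

attribute [instance] Model.fE Model.cE Model.dD Model.aD

/-- what level `r` has to deliver -/
def Model.Level (M : Model) (f : ℕ → Term) (r : ℕ) : Prop :=
  (∀ i, i + 2 ≤ r → ∃ p : Polynomial M.E, p ≠ 0 ∧ p.natDegree ≤ 2 ^ (i + 2) ∧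
      Polynomial.aeval ((f i).ev M.τ M.x M.y) p = 0) ∧
    ∀ m, Small M.x M.y m → 4 ^ r ≤ 16 * m

end Crest.Agent.R180
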