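import Crest.Agent.R180.IdC
/-! Localisation at the fixed locus. -/
set_option autoImplicit false
open scoped BigOperators
namespace Crest.Agent.R180
variable {κ : Type} [Fintype κ] [DecidableEq κ] {ι : Type} [Fintype ι] [DecidableEq ι]
  {δ : ι → κ → ℤ}

namespace FixX

omit [Fintype ι] in
theorem ord_zero (p : PowerSeries (OO κ)) : OrdGe p 0 := fun i hi => absurd hi (Nat.not_lt_zero i)

omit [Fintype ι] in
/-- peel off the factors `1 - t^{δ i}` -/
theorem peel (hδ : PosW δ) {O' : Type} [CommRing O'] (σ : OO κ →+* O') (t : Finset ι)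
    (P : PowerSeries (OO κ)) : ∀ o : ℕ, OrdGe ((∏ i ∈ t, (1 - phi (δ i))) * P) o →
      σ (PowerSeries.coeff o ((∏ i ∈ t, (1 - phi (δ i))) * P)) ≠ 0 →
      ∃ o', OrdGe P o' ∧ σ (PowerSeries.coeff o' P) ≠ 0 := by
  induction t using Finset.induction_on with
  | empty => intro o h1 h2; exact ⟨o, by simpa using h1, by simpa using h2⟩
  | insert i t hi ih =>
    intro o h1 h2
    rw [Finset.prod_insert hi, mul_assoc] at h1 h2
    cases o with
    | zero =>
      exfalso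
      apply h2
      rw [((ord_zero _).one_sub (δ i)).1 0 (by omega), map_zero]
    | succ o =>
      have h3 := OrdGe.of_one_sub (lin_ne_zero (hδ i).2) h1
      refine ih o h3 ?_
      intro h4
      apply h2
      rw [(h3.one_sub (δ i)).2, map_mul, h4, mul_zero]

end FixX

/-- a good prime vanishes on the fixed locus -/
theorem good_le_varI (hδ : PosW δ) {O' : Type} [CommRing O'] [IsDomain O'] (σ : OO κ →+* O')
    (t : Finset ι) (ht : ∀ i, i ∈ t ↔ σ (lin (δ i)) ≠ 0)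
    (p : Ideal (SS ι)) (hI : (grS hδ).Hom p) (hp : p.IsPrime) (o : ℕ) (hg : Good hδ σ p o) :
    p ≤ varI t := by
  obtain ⟨q, o', hpq, hXq, hq, -, -, hgq⟩ := cut_many hδ σ t (fun i => (MvPolynomial.X i : SS ι)) δ
    (fun i _ => MvPolynomial.isWeightedHomogeneous_X ℚ δ i) (fun i hi => (ht i).1 hi) p hI hp o hg
  refine hpq.trans ?_
  have hvq : varI t ≤ q := by
    refine Ideal.span_le.2 ?_
    rintro _ ⟨i, hi, rfl⟩
    exact hXq i hi
  have hns : ∀ i, i ∉ tᶜ → i ∈ t := fun i hi => by simpa using hi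
  have hgen : ∀ I : Ideal (SS ι), varI t ≤ I → Gen tᶜ δ (DF tᶜ δ ((grS hδ).h I ⊤)) := by
    intro I hle
    refine Gr.gen (grS hδ) le_top tᶜ ?_
    intro i hi v _
    exact Ideal.mul_mem_right v I (hle ((X_mem_varI t i).2 (hns i hi)))
  have hKI : KI hδ q = (∏ i ∈ t, (1 - phi (δ i))) * PhiK (DF tᶜ δ ((grS hδ).h q ⊤)) := by
    unfold KI
    rw [← Finset.union_compl t, DF_union t tᶜ disjoint_compl_right,
      PhiK_DF (hgen q hvq).finite]
  obtain ⟨h1, h2⟩ := hgq
  rw [hKI] at h1 h2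
  obtain ⟨o'', h3, h4⟩ := FixX.peel hδ σ t _ o' h1 h2
  have hσ : ∀ i ∈ tᶜ, σ (lin (δ i)) = 0 := by
    intro i hi
    by_contra hne
    exact (Finset.mem_compl.1 hi) ((ht i).2 hne)
  have h0 : PowerSeries.coeff 0 (PhiK (DF tᶜ δ ((grS hδ).h q ⊤))) ≠ 0 := by
    cases o'' with
    | zero => intro h; apply h4; rw [h, map_zero]
    | succ n => exact absurd (Gen.sigma σ hδ hσ (hgen q hvq) h3) h4
  intro G hG
  by_contra hGn
  have hex : ∃ γ, (grS hδ).comp γ G ∉ varI t := by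
    by_contra hall
    push Not at hall
    apply hGn
    rw [← (grS hδ).sum_comp G]
    exact finsum_induction (fun x => x ∈ varI t) (zero_mem _) (fun _ _ a b => add_mem a b) hall
  obtain ⟨γ, hγ⟩ := hex
  have hF : MvPolynomial.IsWeightedHomogeneous δ ((grS hδ).comp γ G) γ := (grS hδ).comp_mem γ G
  have hcut := h_cut hδ (varI t) (varI_hom hδ t) (varI_prime t) _ γ hF hγ
  have hle : varI t ⊔ Ideal.span {(grS hδ).comp γ G} ≤ q := by
    refine sup_le hvq (Ideal.span_le.2 ?_)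
    rintro _ rfl
    exact hq G hG γ
  have hord : OrdGe (PhiK (DF tᶜ δ ((grS hδ).h (varI t ⊔ Ideal.span {(grS hδ).comp γ G}) ⊤))) 1 := by
    rw [hcut, DF_Dl, PhiK_Dl (hgen _ le_rfl).finite]
    exact ((FixX.ord_zero _).one_sub γ).1
  have := ord_mono hδ tᶜ hle
    (fun i hi => Ideal.mem_sup_left ((X_mem_varI t i).2 (hns i hi))) hord
  exact h0 (this 0 (by omega))

theorem good_le_ker (hδ : PosW δ) {O' : Type} [CommRing O'] [IsDomain O'] (σ : OO κ →+* O')
    (p : Ideal (SS ι)) (hI : (grS hδ).Hom p) (hp : p.IsPrime) (o : ℕ) (hg : Good hδ σ p o)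
    (pt : ι → ℚ) (hpt : ∀ i, σ (lin (δ i)) ≠ 0 → pt i = 0) :
    ∀ F ∈ p, MvPolynomial.aeval pt F = 0 := by
  classical
  have h := good_le_varI hδ σ (Finset.univ.filter fun i => σ (lin (δ i)) ≠ 0) (by simp) p hI hp o hg
  have h2 : varI (Finset.univ.filter fun i => σ (lin (δ i)) ≠ 0) ≤
      RingHom.ker (MvPolynomial.aeval (R := ℚ) pt : SS ι →ₐ[ℚ] ℚ) := by
    refine Ideal.span_le.2 ?_
    rintro _ ⟨i, hi, rfl⟩
    have hi' : σ (lin (δ i)) ≠ 0 := by simpa using hi
    simp [RingHom.mem_ker, hpt i hi']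
  intro F hF
  exact h2 (h hF)

end Crest.Agent.R180
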