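import Crest.Agent.R180.PtA
/-! Nondegeneracy at the special point. -/
set_option autoImplicit false
open scoped BigOperators
namespace Crest.Agent.R180
variable {r : ℕ}

namespace PtX

/-- elements supported on the isotropic subgroup -/
def Asub (r s : ℕ) : Submodule ℚ (Tw (u1 r)) where
  carrier := {a | ∀ χ : Lam r, a χ ≠ 0 → ∀ l, l ∉ Tset r s → χ l = 0}
  add_mem' := by
    intro a b ha hb χ h
    by_cases h1 : a χ = 0
    · refine hb χ ?_
      intro h2
      apply h
      rw [Tw.add_apply, h1, h2, add_zero]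
    · exact ha χ h1
  zero_mem' := by
    intro χ h
    exact absurd (Tw.zero_apply _ χ) h
  smul_mem' := by
    intro c a ha χ h
    refine ha χ ?_
    intro h2
    apply h
    rw [Tw.smul_apply, h2, mul_zero]

theorem mem_Asub {s : ℕ} {a : Tw (u1 r)} :
    a ∈ Asub r s ↔ ∀ χ : Lam r, a χ ≠ 0 → ∀ l, l ∉ Tset r s → χ l = 0 := Iff.rfl

theorem mul_mem {s : ℕ} {a b : Tw (u1 r)} (ha : a ∈ Asub r s) (hb : b ∈ Asub r s) :
    a * b ∈ Asub r s := by
  intro ξ h l hl
  rw [Tw.mul_apply] at h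
  obtain ⟨χ, -, hχ⟩ := Finset.exists_ne_zero_of_sum_ne_zero h
  have h1 : a χ ≠ 0 := by
    intro h0
    apply hχ
    rw [h0, mul_zero, zero_mul]
  have h2 : b (ξ - χ) ≠ 0 := by
    intro h0
    apply hχ
    rw [h0, mul_zero]
  have e1 := ha χ h1 l hl
  have e2 := hb (ξ - χ) h2 l hl
  rw [Pi.sub_apply, e1, sub_zero] at e2
  exact e2

theorem PP_mem {s : ℕ} (χ : Lam r) (h : ∀ l, l ∉ Tset r s → χ l = 0) :
    PP (u1 r) χ ∈ Asub r s := by
  intro ξ hξ
  rw [PP_apply] at hξ
  by_cases he : ξ = χ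
  · rw [he]; exact h
  · rw [if_neg he] at hξ
    exact absurd rfl hξ

theorem pow_mem {s : ℕ} (k : ℕ) : a0 r s ^ k ∈ Asub r s := by
  induction k with
  | zero =>
    rw [pow_zero, Tw.one_def]
    exact PP_mem 0 (fun _ _ => rfl)
  | succ k ih =>
    rw [pow_succ]
    exact mul_mem ih (fun χ h => a0_supp h)

theorem card_Tset (s : ℕ) : (Tset r s).card ≤ s := by
  have h : (Tset r s).card ≤ (Finset.range s).card := by
    refine Finset.card_le_card_of_injOn (fun l => (l.1 : ℕ)) ?_ ?_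
    · intro l hl
      have := (Finset.mem_filter.1 (Finset.mem_coe.1 hl)).2.1
      exact Finset.mem_coe.2 (Finset.mem_range.2 this)
    · intro l hl l' hl' he
      have h1 := (Finset.mem_filter.1 (Finset.mem_coe.1 hl)).2.2
      have h2 := (Finset.mem_filter.1 (Finset.mem_coe.1 hl')).2.2
      exact Prod.ext (Fin.ext he) (h1.trans h2.symm)
  rwa [Finset.card_range] at h

/-- extension by zero -/
def ext0 (s : ℕ) (c : Tset r s → ZMod 2) : Lam r :=
  fun l => if h : l ∈ Tset r s then c ⟨l, h⟩ else 0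

theorem Asub_le (s : ℕ) :
    Asub r s ≤ Submodule.span ℚ (Set.range fun c : Tset r s → ZMod 2 => PP (u1 r) (ext0 s c)) := by
  intro a ha
  rw [Tw.eq_sum (u1 r) a]
  refine Submodule.sum_mem _ fun χ _ => ?_
  by_cases h : a χ = 0
  · rw [h, zero_smul]
    exact Submodule.zero_mem _
  · refine Submodule.smul_mem _ _ (Submodule.subset_span ⟨fun l => χ l.1, ?_⟩)
    show PP (u1 r) (ext0 s fun l => χ l.1) = PP (u1 r) χ
    congr 1
    funext l
    unfold ext0
    by_cases hl : l ∈ Tset r s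
    · rw [dif_pos hl]
    · rw [dif_neg hl, ha χ h l hl]

theorem finrank_Asub (s : ℕ) : Module.finrank ℚ (Asub r s) ≤ 2 ^ s := by
  refine (Submodule.finrank_mono (Asub_le s)).trans ?_
  refine (finrank_range_le_card _).trans ?_
  rw [Fintype.card_fun, ZMod.card, Fintype.card_coe]
  exact Nat.pow_le_pow_right (by norm_num) (card_Tset s)

theorem span_eq {s : ℕ} (hs : s ≤ r) :
    Submodule.span ℚ (Set.range fun k : Fin (2 ^ s) => a0 r s ^ (k : ℕ)) = Asub r s := by
  apply Submodule.eq_of_le_of_finrank_le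
  · rw [Submodule.span_le]
    rintro _ ⟨k, rfl⟩
    exact pow_mem k
  · rw [finrank_span_eq_card (a0_pow_indep hs), Fintype.card_fin]
    exact finrank_Asub s

theorem gam_ne (χ ψ : Lam r) : gam (u1 r) χ ψ ≠ 0 := by
  unfold gam
  refine mul_ne_zero (Finset.prod_ne_zero_iff.2 fun l _ => ?_)
    (Finset.prod_ne_zero_iff.2 fun l _ => ?_)
  · split_ifs <;> norm_num
  · unfold u1
    split_ifs <;> norm_num

theorem zero_sub' (χ : Lam r) : (0 : Lam r) - χ = χ := by
  funext l
  rw [Pi.sub_apply, Pi.zero_apply, zero_sub, CharTwo.neg_eq]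

theorem tau_mul_PP (b : Tw (u1 r)) (χ : Lam r) :
    tau (u1 r) (b * PP (u1 r) χ) = gam (u1 r) χ χ * b χ := by
  show (b * PP (u1 r) χ) 0 = _
  rw [Tw.mul_PP_apply, zero_sub']

theorem eq_zero_of_tau (b : Tw (u1 r)) (χ : Lam r) (h : tau (u1 r) (b * PP (u1 r) χ) = 0) :
    b χ = 0 := by
  rw [tau_mul_PP] at h
  exact (mul_eq_zero.1 h).resolve_left (gam_ne χ χ)

/-- linear extension from the powers -/
theorem tau_span {s : ℕ} (b d : Tw (u1 r))
    (h : ∀ k : Fin (2 ^ s), tau (u1 r) (b * a0 r s ^ (k : ℕ) * d) = 0) (c : Tw (u1 r))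
    (hc : c ∈ Submodule.span ℚ (Set.range fun k : Fin (2 ^ s) => a0 r s ^ (k : ℕ))) :
    tau (u1 r) (b * c * d) = 0 := by
  induction hc using Submodule.span_induction with
  | mem x hx =>
    obtain ⟨k, rfl⟩ := hx
    exact h k
  | zero => rw [mul_zero, zero_mul, map_zero]
  | add x y _ _ hx hy => rw [mul_add, add_mul, map_add, hx, hy, add_zero]
  | smul t x _ hx => rw [mul_smul_comm, smul_mul_assoc, map_smul, hx, smul_zero]

theorem omg_single (l : Fin r) (ψ : Lam r) (h : ψ (l, true) = 1) :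
    omg (Pi.single (l, false) 1 : Lam r) ψ = -1 := by
  unfold omg
  rw [Finset.prod_eq_single l]
  · have e1 : (Pi.single (l, false) 1 : Lam r) (l, true) = 0 := by
      rw [Pi.single_eq_of_ne]
      simp
    have e2 : (Pi.single (l, false) 1 : Lam r) (l, false) = 1 := by
      rw [Pi.single_eq_same]
    rw [e1, e2, if_neg (by simp), if_pos ⟨h, rfl⟩]
    norm_num
  · intro k _ hk
    have e1 : (Pi.single (l, false) 1 : Lam r) (k, true) = 0 := by
      rw [Pi.single_eq_of_ne]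
      simp
    have e2 : (Pi.single (l, false) 1 : Lam r) (k, false) = 0 := by
      rw [Pi.single_eq_of_ne]
      simp [hk]
    rw [e1, e2, if_neg (by simp), if_neg (by simp)]
    norm_num
  · intro h'
    exact absurd (Finset.mem_univ _) h'

theorem zm2 (a : ZMod 2) (h : a ≠ 1) : a = 0 := by
  revert a
  decide

end PtX

theorem a0_pow_supp {s : ℕ} (k : ℕ) {χ : Lam r} (h : (a0 r s ^ k) χ ≠ 0) :
    ∀ l, l ∉ Tset r s → χ l = 0 :=
  PtX.pow_mem k χ h
/-- the powers span the group algebra of `A` -/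
theorem PP_mem_span {s : ℕ} (hs : s ≤ r) (χ : Lam r) (h : ∀ l, l ∉ Tset r s → χ l = 0) :
    PP (u1 r) χ ∈ Submodule.span ℚ (Set.range fun k : Fin (2 ^ s) => a0 r s ^ (k : ℕ)) := by
  rw [PtX.span_eq hs]
  exact PtX.PP_mem χ h
theorem gram_a0_ne {s : ℕ} (hs : s ≤ r) :
    (Matrix.of fun k l : Fin (2 ^ s) => tau (u1 r) (a0 r s ^ ((k : ℕ) + l))).det ≠ 0 := by
  intro hdet
  obtain ⟨v, hv0, hv⟩ := Matrix.exists_mulVec_eq_zero_iff.2 hdet
  set b : Tw (u1 r) := ∑ l : Fin (2 ^ s), v l • a0 r s ^ (l : ℕ) with hb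
  have hbA : b ∈ PtX.Asub r s :=
    Submodule.sum_mem _ fun l _ => Submodule.smul_mem _ _ (PtX.pow_mem _)
  have hk : ∀ k : Fin (2 ^ s), tau (u1 r) (b * a0 r s ^ (k : ℕ) * 1) = 0 := by
    intro k
    have h1 := congrFun hv k
    rw [Pi.zero_apply] at h1
    rw [mul_one, hb, Finset.sum_mul, map_sum, ← h1]
    unfold Matrix.mulVec dotProduct
    refine Finset.sum_congr rfl fun l _ => ?_
    show _ = tau (u1 r) (a0 r s ^ ((k : ℕ) + l)) * v l
    rw [smul_mul_assoc, map_smul, ← pow_add, smul_eq_mul, mul_comm, add_comm]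
  have hb0 : b = 0 := by
    funext χ
    by_contra hχ
    have h1 := PtX.tau_span b 1 hk _ (PP_mem_span hs χ (hbA χ hχ))
    rw [mul_one] at h1
    exact hχ (PtX.eq_zero_of_tau b χ h1)
  apply hv0
  funext l
  exact Fintype.linearIndependent_iff.1 (a0_pow_indep hs) v hb0 l
theorem theta_inj {s : ℕ} (hs : s ≤ r) (ρ : Tw (u1 r)) (h1 : a0 r s * ρ = ρ * a0 r s)
    (h2 : ∀ k : Fin (2 ^ s), tau (u1 r) (ρ * a0 r s ^ (k : ℕ)) = 0)
    (h3 : ∀ k : Fin (2 ^ s), ∀ φ ∈ Fset r s,
      tau (u1 r) (ρ * a0 r s ^ (k : ℕ) * PP (u1 r) φ) = 0) : ρ = 0 := by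
  have hcomm : ∀ c ∈ Submodule.span ℚ (Set.range fun k : Fin (2 ^ s) => a0 r s ^ (k : ℕ)),
      c * ρ = ρ * c := by
    intro c hc
    induction hc using Submodule.span_induction with
    | mem x hx =>
      obtain ⟨k, rfl⟩ := hx
      exact (Commute.pow_left (show Commute (a0 r s) ρ from h1) k)
    | zero => rw [mul_zero, zero_mul]
    | add x y _ _ hx hy => rw [mul_add, add_mul, hx, hy]
    | smul t x _ hx => rw [mul_smul_comm, smul_mul_assoc, hx]
  funext ψ
  show ρ ψ = 0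
  by_cases hψ : ∃ l : Fin r, (l : ℕ) < s ∧ ψ (l, true) = 1
  · obtain ⟨l, hl, hψl⟩ := hψ
    set e : Lam r := Pi.single (l, false) 1 with he
    have hmem : ∀ k, k ∉ Tset r s → e k = 0 := by
      intro k hk
      rw [he, Pi.single_eq_of_ne]
      rintro rfl
      exact hk (Finset.mem_filter.2 ⟨Finset.mem_univ _, hl, rfl⟩)
    have hc := congrFun (hcomm _ (PP_mem_span hs e hmem)) (ψ + e)
    rw [Tw.PP_mul_apply, Tw.mul_PP_apply, add_sub_cancel_right, gam_comm, he,
      PtX.omg_single l ψ hψl, ← he] at hc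
    have hg := PtX.gam_ne ψ e
    have h0 : gam (u1 r) ψ e * ρ ψ = 0 := by
      push_cast at hc
      linarith
    exact (mul_eq_zero.1 h0).resolve_left hg
  · push Not at hψ
    set χ : Lam r := fun l => if l ∈ Tset r s then ψ l else 0 with hχ
    set φ : Lam r := fun l => if l ∈ Tset r s then 0 else ψ l with hφ
    have hsum : χ + φ = ψ := by
      funext l
      rw [Pi.add_apply, hχ, hφ]
      by_cases hl : l ∈ Tset r s
      · simp [hl]
      · simp [hl]
    have hχs : ∀ l, l ∉ Tset r s → χ l = 0 := by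
      intro l hl
      rw [hχ]
      simp [hl]
    have hk : ∀ k : Fin (2 ^ s), tau (u1 r) (ρ * a0 r s ^ (k : ℕ) * PP (u1 r) φ) = 0 := by
      intro k
      by_cases h0 : φ = 0
      · rw [h0, ← Tw.one_def, mul_one]
        exact h2 k
      · refine h3 k φ (Finset.mem_filter.2 ⟨Finset.mem_univ _, h0, ?_⟩)
        rintro ⟨l, b⟩ hl
        rw [hφ]
        cases b with
        | false =>
          have : (l, false) ∈ Tset r s := Finset.mem_filter.2 ⟨Finset.mem_univ _, hl, rfl⟩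
          simp [this]
        | true =>
          have := PtX.zm2 _ (hψ l hl)
          simp [this]
    have h4 := PtX.tau_span ρ (PP (u1 r) φ) hk _ (PP_mem_span hs χ hχs)
    rw [mul_assoc, PP_mul, hsum, mul_smul_comm, map_smul, smul_eq_mul] at h4
    exact PtX.eq_zero_of_tau ρ ψ ((mul_eq_zero.1 h4).resolve_left (PtX.gam_ne χ φ))

end Crest.Agent.R180
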