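import Crest.Agent.R180.DepA
import Crest.Agent.R180.Pt
import Crest.Agent.R180.Fix
/-! One degree constraint costs `4^r / e` odd equations. -/
set_option autoImplicit false
open scoped BigOperators
namespace Crest.Agent.R180
variable {r : ℕ}

/-- injectivity of a matrix specialises upwards -/
theorem inj_of_spec {A : Type} [CommRing A] [IsDomain A] [Algebra ℚ A] (ev : A →ₐ[ℚ] ℚ)
    {m n : Type} [Fintype m] [Fintype n] [DecidableEq n] (Θ : Matrix m n A)
    (h : ∀ v : n → ℚ, (Θ.map ev).mulVec v = 0 → v = 0) (w : n → A) (hw : Θ.mulVec w = 0) :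
    w = 0 := by
  classical
  have hker : LinearMap.ker (Matrix.toLin' (Θ.map ev)) = ⊥ := by
    rw [LinearMap.ker_eq_bot']
    intro v hv
    exact h v (by rwa [Matrix.toLin'_apply] at hv)
  obtain ⟨g, hg⟩ := LinearMap.exists_leftInverse_of_injective _ hker
  have hB : LinearMap.toMatrix' g * Θ.map ev = 1 := by
    have := congrArg LinearMap.toMatrix' hg
    rwa [LinearMap.toMatrix'_comp, LinearMap.toMatrix'_id, LinearMap.toMatrix'_toLin'] at this
  set B : Matrix n m ℚ := LinearMap.toMatrix' g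
  have hdet : (B.map (algebraMap ℚ A) * Θ).det ≠ 0 := by
    intro h0
    have h1 : (ev : A →+* ℚ) (B.map (algebraMap ℚ A) * Θ).det = 1 := by
      rw [RingHom.map_det, RingHom.mapMatrix_apply, Matrix.map_mul]
      have h2 : (B.map (algebraMap ℚ A)).map (ev : A →+* ℚ) = B := by
        ext i j
        simp
      rw [h2]
      have h3 : Θ.map (ev : A →+* ℚ) = Θ.map ev := rfl
      rw [h3, hB, Matrix.det_one]
    rw [h0, map_zero] at h1
    exact zero_ne_one h1
  refine Matrix.eq_zero_of_mulVec_eq_zero hdet ?_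
  rw [← Matrix.mulVec_mulVec, hw, Matrix.mulVec_zero]

namespace DepX

/-- the rows of the linear system -/
abbrev Row (r s : ℕ) : Type :=
  Lam r ⊕ (Fin (2 ^ s) ⊕ (Fin (2 ^ s) × {φ : Lam r // φ ∈ Fset r s}))

/-- the linear conditions -/
noncomputable def cnd {R : Type} [CommRing R] {u : Kap r → R} (s : ℕ) (a : Tw u) (i : Row r s)
    (ρ : Tw u) : R :=
  match i with
  | Sum.inl ξ => (a * ρ - ρ * a) ξ
  | Sum.inr (Sum.inl k) => tau u (ρ * a ^ (k : ℕ))
  | Sum.inr (Sum.inr (k, φ)) => tau u (ρ * a ^ (k : ℕ) * PP u φ.1)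

noncomputable def condL {R : Type} [CommRing R] {u : Kap r → R} (s : ℕ) (a : Tw u) (i : Row r s) :
    Tw u →ₗ[R] R where
  toFun := cnd s a i
  map_add' ρ ρ' := by
    rcases i with ξ | k | ⟨k, φ⟩
    · simp only [cnd, mul_add, add_mul, Tw.sub_apply, Tw.add_apply]; ring
    · simp only [cnd, add_mul, map_add]
    · simp only [cnd, add_mul, map_add]
  map_smul' c ρ := by
    rcases i with ξ | k | ⟨k, φ⟩
    · simp only [cnd, mul_smul_comm, smul_mul_assoc, Tw.sub_apply, Tw.smul_apply, RingHom.id_apply,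
        smul_eq_mul]; ring
    · simp only [cnd, smul_mul_assoc, map_smul, RingHom.id_apply]
    · simp only [cnd, smul_mul_assoc, map_smul, RingHom.id_apply]

noncomputable def Th {R : Type} [CommRing R] {u : Kap r → R} (s : ℕ) (a : Tw u) :
    Matrix (Row r s) (Lam r) R := Matrix.of fun i ψ => cnd s a i (PP u ψ)

theorem Th_mulVec {R : Type} [CommRing R] {u : Kap r → R} (s : ℕ) (a : Tw u) (ρ : Tw u)
    (i : Row r s) : (Th s a).mulVec ρ i = cnd s a i ρ := by
  have h : cnd s a i ρ = condL s a i (∑ χ, ρ χ • PP u χ) := by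
    rw [← Tw.eq_sum u ρ]; rfl
  rw [h, map_sum]
  simp only [Matrix.mulVec, dotProduct, Th, Matrix.of_apply, map_smul, smul_eq_mul]
  exact Finset.sum_congr rfl fun χ _ => mul_comm _ _

theorem cond_map {R R' : Type} [CommRing R] [CommRing R'] (f : R →+* R') (u : Kap r → R)
    (u' : Kap r → R') (h : ∀ l, f (u l) = u' l) (s : ℕ) (a ρ : Tw u) (i : Row r s) :
    f (cnd s a i ρ) = cnd s (Tw.map f u u' h a) i (Tw.map f u u' h ρ) := by
  rcases i with ξ | k | ⟨k, φ⟩
  · simp only [cnd]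
    rw [← map_mul, ← map_mul, ← map_sub]; rfl
  · simp only [cnd]
    rw [← map_pow, ← map_mul]; rfl
  · simp only [cnd]
    rw [← Tw.map_PP f u u' h, ← map_pow, ← map_mul, ← map_mul]; rfl

end DepX
open DepX

theorem RR_eq_zero {A : Type} [CommRing A] [IsDomain A] [Algebra ℚ A] (ev : A →ₐ[ℚ] ℚ)
    (u : Kap r → A) (hu : ∀ l, (ev : A →+* ℚ) (u l) = u1 r l) {s : ℕ} (hs : s ≤ r) (a : Tw u)
    (ha : Tw.map (ev : A →+* ℚ) u (u1 r) hu a = a0 r s)
    (heq : ∀ k : Fin (2 ^ s), ∀ φ ∈ Fset r s, eqn a (2 ^ s) k φ = 0) :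
    RR a (2 ^ s) = 0 ∧ (gram a (2 ^ s)).det ≠ 0 := by
  classical
  constructor
  · have hmap : (Th s a).map ev = Th s (a0 r s) := by
      ext i ψ
      simp only [Th, Matrix.map_apply, Matrix.of_apply]
      have := cond_map (ev : A →+* ℚ) u (u1 r) hu s a (PP u ψ) i
      rw [ha, Tw.map_PP] at this
      exact this
    refine inj_of_spec ev (Th s a) ?_ (RR a (2 ^ s)) ?_
    · intro v hv
      rw [hmap] at hv
      have hc : ∀ i, cnd s (a0 r s) i (show Tw (u1 r) from v) = 0 := fun i => by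
        rw [← Th_mulVec]; exact congrFun hv i
      refine theta_inj hs (show Tw (u1 r) from v) ?_ (fun k => hc (Sum.inr (Sum.inl k)))
        (fun k φ hφ => hc (Sum.inr (Sum.inr (k, ⟨φ, hφ⟩))))
      rw [← sub_eq_zero]
      funext ξ
      exact hc (Sum.inl ξ)
    · funext i
      rw [Th_mulVec]
      rcases i with ξ | k | ⟨k, φ⟩
      · simp only [cnd]
        rw [RR_comm, sub_self]; rfl
      · exact tau_RR a _ k
      · exact heq k φ.1 φ.2
  · intro h0
    have h1 := gram_map (ev : A →+* ℚ) u (u1 r) hu a (2 ^ s)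
    rw [h0, map_zero, ha] at h1
    exact gram_a0_ne hs h1.symm

end Crest.Agent.R180
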