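import Crest.Agent.R180.TwG
/-! The residual `R(a)` and the equations. -/
set_option autoImplicit false
open scoped BigOperators
namespace Crest.Agent.R180

namespace DepAX

theorem exists_left_ker {E : Type} [Field E] {J : Type} {n : ℕ} (M : Fin n → J → E)
    (h : ∀ sel : Fin n → J, (Matrix.of fun k j : Fin n => M k (sel j)).det = 0) :
    ∃ c : Fin n → E, c ≠ 0 ∧ ∀ j, ∑ k, c k * M k j = 0 := by
  classical
  let col : J → (Fin n → E) := fun j k => M k j
  by_cases htop : Submodule.span E (Set.range col) = ⊤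
  · exfalso
    obtain ⟨b, hb, hspan, hli⟩ := exists_linearIndependent E (Set.range col)
    rw [htop] at hspan
    let B : Module.Basis b E (Fin n → E) := Module.Basis.mk hli (by
      rw [Subtype.range_coe_subtype, Set.setOf_mem_eq, hspan])
    haveI : Finite b := Module.Finite.finite_basis B
    haveI : Fintype b := Fintype.ofFinite b
    have hcard : Fintype.card b = n := by
      rw [← Module.finrank_eq_card_basis B, Module.finrank_fin_fun]
    let ε : Fin n ≃ b := (Fintype.equivFinOfCardEq hcard).symm
    have hch : ∀ k : Fin n, ∃ j, col j = (ε k : Fin n → E) := fun k => hb (ε k).2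
    choose sel hsel using hch
    have hli2 : LinearIndependent E (fun k : Fin n => (ε k : Fin n → E)) :=
      hli.comp ε ε.injective
    obtain ⟨v, hv0, hv⟩ := Matrix.exists_mulVec_eq_zero_iff.2 (h sel)
    apply hv0
    funext k
    refine Fintype.linearIndependent_iff.1 hli2 v ?_ k
    funext i
    have := congrFun hv i
    simp only [Matrix.mulVec, dotProduct, Matrix.of_apply, Pi.zero_apply] at this
    rw [Finset.sum_apply, Pi.zero_apply, ← this]
    refine Finset.sum_congr rfl fun j _ => ?_
    rw [← hsel j, Pi.smul_apply, smul_eq_mul, mul_comm]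
  · obtain ⟨φ, hφ0, hφ⟩ := Submodule.exists_le_ker_of_lt_top _ (lt_top_iff_ne_top.2 htop)
    refine ⟨fun k => φ (fun j => if k = j then 1 else 0), ?_, fun j => ?_⟩
    · intro h0
      apply hφ0
      refine LinearMap.ext fun v => ?_
      rw [LinearMap.pi_apply_eq_sum_univ φ v]
      refine Finset.sum_eq_zero fun k _ => ?_
      have : φ (fun j => if k = j then 1 else 0) = 0 := congrFun h0 k
      rw [this, smul_zero]
    · have : φ (col j) = 0 := hφ (Submodule.subset_span ⟨j, rfl⟩)
      rw [LinearMap.pi_apply_eq_sum_univ φ (col j)] at this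
      refine Eq.trans (Finset.sum_congr rfl fun k _ => ?_) this
      rw [smul_eq_mul, mul_comm]

theorem tau_map {r : ℕ} {R : Type} [CommRing R] {R' : Type} [CommRing R'] (f : R →+* R')
    (u : Kap r → R) (u' : Kap r → R') (h : ∀ l, f (u l) = u' l) (a : Tw u) :
    f (tau u a) = tau u' (Tw.map f u u' h a) := rfl

end DepAX
variable {r : ℕ} {R : Type} [CommRing R]

noncomputable def gram {u : Kap r → R} (a : Tw u) (e : ℕ) : Matrix (Fin e) (Fin e) R :=
  Matrix.of fun k l => tau u (a ^ ((k : ℕ) + l))

noncomputable def RR {u : Kap r → R} (a : Tw u) (e : ℕ) : Tw u :=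
  (gram a e).det • a ^ e -
    ∑ k : Fin e, Matrix.cramer (gram a e) (fun l => tau u (a ^ ((l : ℕ) + e))) k • a ^ (k : ℕ)

noncomputable def eqn {u : Kap r → R} (a : Tw u) (e k : ℕ) (φ : Lam r) : R :=
  tau u (RR a e * a ^ k * PP u φ)

/-- the minors expressing that `1, a, …, a^e` are dependent -/
noncomputable def minor {u : Kap r → R} (a : Tw u) (e : ℕ) (sel : Fin (e + 1) → Lam r) : R :=
  (Matrix.of fun k j : Fin (e + 1) => (a ^ (k : ℕ)) (sel j)).det

theorem RR_comm {u : Kap r → R} (a : Tw u) (e : ℕ) : a * RR a e = RR a e * a := by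
  unfold RR
  rw [mul_sub, sub_mul, Finset.mul_sum, Finset.sum_mul]
  simp only [mul_smul_comm, smul_mul_assoc, ← pow_succ, ← pow_succ']
theorem tau_RR {u : Kap r → R} (a : Tw u) (e : ℕ) (k : Fin e) :
    tau u (RR a e * a ^ (k : ℕ)) = 0 := by
  unfold RR
  rw [sub_mul, Finset.sum_mul, map_sub, map_sum]
  simp only [smul_mul_assoc, map_smul, ← pow_add, smul_eq_mul]
  have h1 := congrFun (Matrix.mulVec_cramer (gram a e) (fun l => tau u (a ^ ((l : ℕ) + e)))) k
  simp only [Matrix.mulVec, dotProduct, Pi.smul_apply, smul_eq_mul] at h1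
  rw [add_comm e k, ← h1, sub_eq_zero]
  refine Finset.sum_congr rfl fun l _ => ?_
  rw [mul_comm, add_comm (l : ℕ) k]
  rfl
theorem gram_map {R' : Type} [CommRing R'] (f : R →+* R') (u : Kap r → R) (u' : Kap r → R')
    (h : ∀ l, f (u l) = u' l) (a : Tw u) (e : ℕ) :
    f (gram a e).det = (gram (Tw.map f u u' h a) e).det := by
  rw [RingHom.map_det]
  congr 1
  ext k l
  simp only [RingHom.mapMatrix_apply, Matrix.map_apply, gram, Matrix.of_apply]
  rw [DepAX.tau_map f u u' h, map_pow]
theorem eqn_map {R' : Type} [CommRing R'] (f : R →+* R') (u : Kap r → R) (u' : Kap r → R')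
    (h : ∀ l, f (u l) = u' l) (a : Tw u) (e k : ℕ) (φ : Lam r) :
    f (eqn a e k φ) = eqn (Tw.map f u u' h a) e k φ := by
  have hg : (gram a e).map f = gram (Tw.map f u u' h a) e := by
    ext k l
    simp only [Matrix.map_apply, gram, Matrix.of_apply]
    rw [DepAX.tau_map f u u' h, map_pow]
  have hR : Tw.map f u u' h (RR a e) = RR (Tw.map f u u' h a) e := by
    unfold RR
    rw [map_sub, map_sum, Tw.map_smul, map_pow, gram_map f u u' h]
    congr 1
    refine Finset.sum_congr rfl fun l _ => ?_
    rw [Tw.map_smul, map_pow, Matrix.cramer_apply, Matrix.cramer_apply, RingHom.map_det,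
      RingHom.mapMatrix_apply, Matrix.map_updateCol, hg]
    congr 3
    funext i
    simp only [Function.comp_apply]
    rw [DepAX.tau_map f u u' h, map_pow]
  unfold eqn
  rw [DepAX.tau_map f u u' h, (Tw.map f u u' h).map_mul, (Tw.map f u u' h).map_mul, map_pow, hR,
    Tw.map_PP]
theorem minor_map {R' : Type} [CommRing R'] (f : R →+* R') (u : Kap r → R) (u' : Kap r → R')
    (h : ∀ l, f (u l) = u' l) (a : Tw u) (e : ℕ) (sel : Fin (e + 1) → Lam r) :
    f (minor a e sel) = minor (Tw.map f u u' h a) e sel := by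
  unfold minor
  rw [RingHom.map_det]
  congr 1
  ext k l
  simp only [RingHom.mapMatrix_apply, Matrix.map_apply, Matrix.of_apply]
  rw [← map_pow, Tw.map_apply]
theorem minor_eq_zero [IsDomain R] {u : Kap r → R} (a : Tw u) (e : ℕ) (h : RR a e = 0)
    (hd : (gram a e).det ≠ 0) (sel : Fin (e + 1) → Lam r) : minor a e sel = 0 := by
  unfold minor
  refine Matrix.exists_vecMul_eq_zero_iff.1
    ⟨Fin.snoc (α := fun _ => R)
      (fun k => - Matrix.cramer (gram a e) (fun l => tau u (a ^ ((l : ℕ) + e))) k)
      (gram a e).det, ?_, ?_⟩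
  · intro h0
    apply hd
    have := congrFun h0 (Fin.last e)
    simpa using this
  · funext j
    have h1 : RR a e (sel j) = 0 := by rw [h]; rfl
    unfold RR at h1
    rw [Tw.sub_apply, Tw.sum_apply, Tw.smul_apply] at h1
    simp only [Tw.smul_apply] at h1
    simp only [Matrix.vecMul, dotProduct, Matrix.of_apply, Pi.zero_apply]
    rw [Fin.sum_univ_castSucc]
    simp only [Fin.snoc_castSucc, Fin.snoc_last, Fin.val_castSucc, Fin.val_last, neg_mul,
      Finset.sum_neg_distrib]
    rw [← h1]
    ring
theorem poly_of_minor {E : Type} [Field E] {u : Kap r → E} (a : Tw u) (e : ℕ)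
    (h : ∀ sel, minor a e sel = 0) :
    ∃ p : Polynomial E, p ≠ 0 ∧ p.natDegree ≤ e ∧ Polynomial.aeval a p = 0 := by
  classical
  obtain ⟨c, hc0, hc⟩ := DepAX.exists_left_ker (fun (k : Fin (e + 1)) (χ : Lam r) => (a ^ (k : ℕ)) χ) h
  refine ⟨∑ k : Fin (e + 1), Polynomial.C (c k) * Polynomial.X ^ (k : ℕ), ?_, ?_, ?_⟩
  · intro h0
    apply hc0
    funext k
    have := congrArg (fun p => Polynomial.coeff p k) h0
    simp only [Polynomial.finsetSum_coeff, Polynomial.coeff_C_mul_X_pow, Polynomial.coeff_zero] at this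
    rw [Finset.sum_eq_single k] at this
    · simpa using this
    · intro l _ hl
      rw [if_neg]
      intro he
      exact hl (Fin.ext he.symm)
    · intro hn; exact absurd (Finset.mem_univ k) hn
  · refine Polynomial.natDegree_sum_le_of_forall_le _ _ fun k _ => ?_
    exact (Polynomial.natDegree_C_mul_X_pow_le _ _).trans (Nat.lt_succ_iff.1 k.2)
  · rw [map_sum]
    funext χ
    rw [Tw.sum_apply, Tw.zero_apply, ← hc χ]
    refine Finset.sum_congr rfl fun k _ => ?_
    rw [map_mul, map_pow, Polynomial.aeval_C, Polynomial.aeval_X, ← Algebra.smul_def, Tw.smul_apply]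
theorem eqn_hom {ι : Type} [Fintype ι] [DecidableEq ι] {δ : ι → Kap r → ℤ} {uu : Kap r → ι}
    (hu : UDeg δ uu) {g : Kap r → ℤ} {a : Tw (uS uu)} (ha : THom δ uu g a) (e k : ℕ) (φ : Lam r) :
    ∃ n : ℕ, MvPolynomial.IsWeightedHomogeneous δ (eqn a e k φ) (n • g + lift φ) := by
  classical
  have hpow : ∀ m : ℕ, MvPolynomial.IsWeightedHomogeneous δ (tau (uS uu) (a ^ m)) (m • g) :=
    fun m => (ha.pow hu m).tau
  set s : ℕ := ∑ i : Fin e, (i : ℕ) with hs
  have hsum : ∑ i : Fin e, (i : ℕ) • g = s • g := by rw [hs, Finset.sum_smul]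
  have hdet : MvPolynomial.IsWeightedHomogeneous δ (gram a e).det ((s + s) • g) := by
    have := det_hom (δ := δ) (gram a e) (fun i => (i : ℕ) • g) (fun j => (j : ℕ) • g)
      (fun i j => by
        have := hpow ((i : ℕ) + j)
        rw [add_smul] at this
        exact this)
    rwa [hsum, ← add_smul] at this
  have hR : THom δ uu ((s + s + e) • g) (RR a e) := by
    unfold RR
    refine THom.sub ?_ (THom.sum _ fun l _ => ?_)
    · have := THom.smul hdet (ha.pow hu e)
      rwa [← add_smul, add_comm e] at this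
    · have h1 := det_hom (δ := δ)
        ((gram a e).updateCol l (fun i => tau (uS uu) (a ^ ((i : ℕ) + e))))
        (fun i => (i : ℕ) • g) (Function.update (fun j => (j : ℕ) • g) l (e • g))
        (fun i j => by
          by_cases hj : j = l
          · subst hj
            rw [Matrix.updateCol_self, Function.update_self, ← add_smul]
            exact hpow _
          · rw [Matrix.updateCol_ne hj, Function.update_of_ne hj, ← add_smul]
            exact hpow _)
      have h2 := THom.smul h1 (ha.pow hu l)
      rw [Matrix.cramer_apply]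
      have h3 : (l : ℕ) • g + (∑ i : Fin e, (i : ℕ) • g +
          ∑ j : Fin e, Function.update (fun j : Fin e => (j : ℕ) • g) l (e • g) j) =
          (s + s + e) • g := by
        rw [Finset.sum_update_of_mem (Finset.mem_univ l), add_smul, add_smul, ← hsum]
        have h4 := Finset.add_sum_erase Finset.univ (fun j : Fin e => (j : ℕ) • g)
          (Finset.mem_univ l)
        rw [Finset.sdiff_singleton_eq_erase]
        conv_rhs => rw [← h4]
        rw [← h4]
        abel
      rwa [h3] at h2
  refine ⟨s + s + e + k, ?_⟩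
  have := ((hR.mul hu (ha.pow hu k)).mul hu (THom.PP φ)).tau
  rw [← add_smul] at this
  exact this

end Crest.Agent.R180
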