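import Crest.Agent.R180.DimA
/-! The dimension bound. -/
set_option autoImplicit false
open scoped BigOperators
namespace Crest.Agent.R180
variable {κ : Type} [Fintype κ] [DecidableEq κ] {ι : Type} [Fintype ι] [DecidableEq ι]
  {δ : ι → κ → ℤ}

theorem card_le_of_algInd {E : Type} [Field E] [Algebra ℚ E] (n : ℕ) (y : Fin n → E)
    (hy : AlgebraicIndependent ℚ y) (B : Finset E)
    (hB : ∀ i, y i ∈ IntermediateField.adjoin ℚ (B : Set E)) : n ≤ B.card := by
  have hind : (AlgebraicIndependent.matroid ℚ E).Indep (Set.range y) :=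
    AlgebraicIndependent.matroid_indep_iff.2 hy.to_subtype_range
  have hsub : Set.range y ⊆ (AlgebraicIndependent.matroid ℚ E).closure (B : Set E) := by
    rintro _ ⟨i, rfl⟩
    rw [AlgebraicIndependent.matroid_closure_eq]
    obtain ⟨r, hr, s, hs, h⟩ := IntermediateField.mem_adjoin_iff_div.1 (hB i)
    have h1 : IsAlgebraic (Algebra.adjoin ℚ (B : Set E)) r :=
      isAlgebraic_algebraMap (⟨r, hr⟩ : Algebra.adjoin ℚ (B : Set E))
    have h2 : IsAlgebraic (Algebra.adjoin ℚ (B : Set E)) s :=
      isAlgebraic_algebraMap (⟨s, hs⟩ : Algebra.adjoin ℚ (B : Set E))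
    have h3 : IsAlgebraic (Algebra.adjoin ℚ (B : Set E)) (y i) := by
      rw [h, div_eq_mul_inv]
      exact h1.mul h2.inv
    exact h3
  have h1 := hind.encard_le_eRk_of_subset hsub
  rw [Matroid.eRk_closure_eq] at h1
  have h2 := h1.trans ((AlgebraicIndependent.matroid ℚ E).eRk_le_encard _)
  rw [Set.encard_coe_eq_coe_finsetCard] at h2
  simpa using hy.injective.encard_range.trans h2

/-- a solution of a linear system over a subfield needs only `dim ker` new parameters -/
theorem exists_params {E : Type} [Field E] (E₀ : Subfield E) {m n : Type} [Fintype m] [Fintype n]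
    [DecidableEq n] (A : Matrix m n E) (hA : ∀ i j, A i j ∈ E₀) (x : n → E) (hx : A.mulVec x = 0) :
    ∃ B : Finset E, B.card ≤ Module.finrank E (LinearMap.ker A.mulVecLin) ∧
      ∀ F : Subfield E, E₀ ≤ F → (∀ b ∈ B, b ∈ F) → ∀ j, x j ∈ F := by
  classical
  let A₀ : Matrix m n E₀ := fun i j => ⟨A i j, hA i j⟩
  let W : Submodule E₀ (n → E₀) := LinearMap.ker A₀.mulVecLin
  let w := Module.finBasis E₀ W
  let v : Fin (Module.finrank E₀ W) → n → E₀ := fun k => (w k : n → E₀)
  have hv : LinearIndependent E₀ v := w.linearIndependent.map' W.subtype W.ker_subtype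
  have hv' : LinearIndependent E (fun k => algebraMap E₀ E ∘ v k) :=
    linearIndependent_algebraMap_comp_iff.2 hv
  have hmem : ∀ k, algebraMap E₀ E ∘ v k ∈ LinearMap.ker A.mulVecLin := by
    intro k
    have h0 : A₀.mulVec (v k) = 0 := (w k).2
    rw [LinearMap.mem_ker, Matrix.mulVecLin_apply]
    funext i
    have h1 := congrArg (algebraMap E₀ E) (congrFun h0 i)
    simp only [Matrix.mulVec, dotProduct, map_sum, map_mul, Pi.zero_apply, map_zero] at h1
    exact h1
  have hcard : Module.finrank E₀ W ≤ Module.finrank E (LinearMap.ker A.mulVecLin) := by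
    have h1 : LinearIndependent E
        (fun k => (⟨algebraMap E₀ E ∘ v k, hmem k⟩ : LinearMap.ker A.mulVecLin)) :=
      LinearIndependent.of_comp (LinearMap.ker A.mulVecLin).subtype hv'
    simpa using h1.fintype_card_le_finrank
  obtain ⟨π, hπ⟩ := LinearMap.exists_leftInverse_of_injective W.subtype W.ker_subtype
  let G : Fin (Module.finrank E₀ W) → n → E₀ := fun k l => w.repr (π (Pi.single l 1)) k
  have key : ∀ y : n → E₀, y ∈ W → ∀ j, y j = ∑ k, v k j * ∑ l, G k l * y l := by
    intro y hy j
    have h1 : π y = ⟨y, hy⟩ := LinearMap.congr_fun hπ ⟨y, hy⟩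
    have h2 : ∀ k, w.repr ⟨y, hy⟩ k = ∑ l, G k l * y l := by
      intro k
      rw [← h1]
      conv_lhs => rw [pi_eq_sum_univ' y]
      simp only [map_sum, map_smul, Finsupp.coe_finsetSum, Finset.sum_apply, Finsupp.coe_smul,
        Pi.smul_apply, smul_eq_mul, G]
      exact Finset.sum_congr rfl fun l _ => mul_comm _ _
    have h3 := congrArg (fun z : W => (z : n → E₀) j) (w.sum_repr ⟨y, hy⟩)
    simp only [Submodule.coe_sum, Finset.sum_apply, Submodule.coe_smul, Pi.smul_apply,
      smul_eq_mul] at h3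
    rw [← h3]
    exact Finset.sum_congr rfl fun k _ => by rw [h2 k, mul_comm]
  let ξ : Fin (Module.finrank E₀ W) → E := fun k => ∑ l, G k l • x l
  have hxj : ∀ j, x j = ∑ k, v k j • ξ k := by
    intro j
    let b := Module.Basis.ofVectorSpace E₀ E
    refine b.ext_elem fun s => ?_
    have hy : (fun l => b.repr (x l) s) ∈ W := by
      show A₀.mulVec _ = 0
      funext i
      have h1 : ∑ l, A₀ i l • x l = 0 := congrFun hx i
      have h2 := congrArg (fun z => b.repr z s) h1
      simpa [Matrix.mulVec, dotProduct] using h2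
    rw [key _ hy j]
    simp [ξ]
  refine ⟨Finset.univ.image ξ, (Finset.card_image_le.trans (by simp)).trans hcard, ?_⟩
  intro F hF hB j
  rw [hxj j]
  exact F.sum_mem fun k _ =>
    F.mul_mem (hF (v k j).2) (hB _ (Finset.mem_image_of_mem ξ (Finset.mem_univ k)))

end Crest.Agent.R180
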