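import Crest.Agent.R180.IdB
/-! The dimension bound. -/
set_option autoImplicit false
open scoped BigOperators
namespace Crest.Agent.R180
variable {κ : Type} [Fintype κ] [DecidableEq κ] {ι : Type} [Fintype ι] [DecidableEq ι]
  {δ : ι → κ → ℤ}

namespace DimA

theorem aeval_mk {S : Type} [CommRing S] [Algebra ℚ S] (q : Ideal S) {α : Type} (y : α → S)
    (P : MvPolynomial α ℚ) :
    MvPolynomial.aeval (fun i => Ideal.Quotient.mk q (y i)) P =
      Ideal.Quotient.mk q (MvPolynomial.aeval y P) := by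
  have h : (MvPolynomial.aeval (fun i => Ideal.Quotient.mk q (y i)) : MvPolynomial α ℚ →ₐ[ℚ] _) =
      (Ideal.Quotient.mkₐ ℚ q).comp (MvPolynomial.aeval y) := by
    ext i
    simp
  rw [h]
  simp

theorem poly_zero {S : Type} [CommRing S] [Algebra ℚ S] (p q : Ideal S) [hp : p.IsPrime]
    (hpq : p ≤ q) (v : S) (hvq : v ∈ q) (hvp : v ∉ p) {A : Type} [CommRing A] (φ : A →+* S)
    (hφ : ∀ a, φ a ∈ q → a = 0) (d : ℕ) :
    ∀ Q : Polynomial A, Q.natDegree ≤ d → Polynomial.eval₂ φ v Q ∈ p → Q = 0 := by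
  induction d with
  | zero =>
    intro Q hQ hm
    rw [Polynomial.eq_C_of_natDegree_le_zero hQ] at hm ⊢
    rw [Polynomial.eval₂_C] at hm
    rw [hφ _ (hpq hm), map_zero]
  | succ d ih =>
    intro Q hQ hm
    have hQe : Q = Polynomial.divX Q * Polynomial.X + Polynomial.C (Q.coeff 0) :=
      (Polynomial.divX_mul_X_add Q).symm
    have hev : Polynomial.eval₂ φ v Q =
        Polynomial.eval₂ φ v (Polynomial.divX Q) * v + φ (Q.coeff 0) := by
      conv_lhs => rw [hQe]
      rw [Polynomial.eval₂_add, Polynomial.eval₂_mul_X, Polynomial.eval₂_C]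
    have h0 : Q.coeff 0 = 0 := by
      apply hφ
      have h1 : Polynomial.eval₂ φ v (Polynomial.divX Q) * v ∈ q := q.mul_mem_left _ hvq
      have h2 := q.sub_mem (hpq hm) h1
      rw [hev, add_sub_cancel_left] at h2
      exact h2
    rw [hev, h0, map_zero, add_zero] at hm
    have h3 : Polynomial.eval₂ φ v (Polynomial.divX Q) ∈ p := (hp.mem_or_mem hm).resolve_right hvp
    have h4 : Polynomial.divX Q = 0 := by
      apply ih _ _ h3
      rw [Polynomial.natDegree_divX_eq_natDegree_tsub_one]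
      omega
    rw [hQe, h4, h0]
    simp

theorem ordGe_prod (s : Finset ι) (δ : ι → κ → ℤ) (p : PowerSeries (OO κ)) :
    OrdGe ((∏ i ∈ s, (1 - phi (δ i))) * p) s.card := by
  induction s using Finset.induction_on with
  | empty => intro i hi; simp at hi
  | insert a s ha ih =>
    rw [Finset.prod_insert ha, Finset.card_insert_of_notMem ha, mul_assoc]
    exact (OrdGe.one_sub ih (δ a)).1

end DimA

theorem algInd_cons {S : Type} [CommRing S] [Algebra ℚ S] (p q : Ideal S) [p.IsPrime]
    (hpq : p ≤ q) (v : S) (hvq : v ∈ q) (hvp : v ∉ p) (n : ℕ) (y : Fin n → S)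
    (hy : AlgebraicIndependent ℚ (fun i => Ideal.Quotient.mk q (y i))) :
    ∃ y' : Fin (n + 1) → S, AlgebraicIndependent ℚ (fun i => Ideal.Quotient.mk p (y' i)) := by
  refine ⟨Fin.cons v y, ?_⟩
  rw [algebraicIndependent_iff] at hy ⊢
  intro P hP
  rw [DimA.aeval_mk, Ideal.Quotient.eq_zero_iff_mem] at hP
  set φ : MvPolynomial (Fin n) ℚ →+* S := (MvPolynomial.aeval y).toRingHom with hφ
  have hc : (Polynomial.eval₂RingHom φ v).comp
      (MvPolynomial.finSuccEquiv ℚ n).toAlgHom.toRingHom =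
      (MvPolynomial.aeval (Fin.cons v y : Fin (n + 1) → S)).toRingHom := by
    apply MvPolynomial.ringHom_ext
    · intro a
      simp [MvPolynomial.finSuccEquiv_apply, hφ]
    · intro i
      refine Fin.cases ?_ (fun j => ?_) i
      · simp [MvPolynomial.finSuccEquiv_X_zero]
      · simp [MvPolynomial.finSuccEquiv_X_succ, hφ]
  have he : Polynomial.eval₂ φ v (MvPolynomial.finSuccEquiv ℚ n P) =
      MvPolynomial.aeval (Fin.cons v y : Fin (n + 1) → S) P := by
    have := RingHom.congr_fun hc P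
    simpa using this
  have hz := DimA.poly_zero p q hpq v hvq hvp φ (by
    intro a ha
    apply hy
    rw [DimA.aeval_mk, Ideal.Quotient.eq_zero_iff_mem]
    exact ha) _ (MvPolynomial.finSuccEquiv ℚ n P) le_rfl (by rw [he]; exact hP)
  exact (MvPolynomial.finSuccEquiv ℚ n).injective (by rw [hz, map_zero])

theorem dim_bound (hδ : PosW δ) (p : Ideal (SS ι)) (hI : (grS hδ).Hom p) (hp : p.IsPrime) (o : ℕ)
    (hg : Good hδ (RingHom.id (OO κ)) p o) :
    ∃ (n : ℕ) (y : Fin n → SS ι), Fintype.card ι ≤ n + o ∧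
      AlgebraicIndependent ℚ (fun i => Ideal.Quotient.mk p (y i)) := by
  induction p using IsNoetherian.induction generalizing o with
  | _ p ih =>
  by_cases hall : ∀ i, (MvPolynomial.X i : SS ι) ∈ p
  · have hgen : Gen (∅ : Finset ι) δ (DF ∅ δ ((grS hδ).h p ⊤)) := by
      apply Gr.gen (grS hδ) le_top
      intro i _ v _
      rw [smul_eq_mul]
      exact Ideal.mul_mem_right _ p (hall i)
    rw [DF_empty] at hgen
    have hK : KI hδ p = (∏ i ∈ Finset.univ, (1 - phi (δ i))) * PhiK ((grS hδ).h p ⊤) :=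
      PhiK_DF hgen.finite _ _
    have hord : OrdGe (KI hδ p) (Fintype.card ι) := by
      rw [hK]
      exact DimA.ordGe_prod Finset.univ δ _
    have ho : Fintype.card ι ≤ o := by
      by_contra hlt
      exact hg.2 (by rw [hord o (not_le.mp hlt), map_zero])
    refine ⟨0, Fin.elim0, by omega, ?_⟩
    haveI : Nontrivial (SS ι ⧸ p) := Ideal.Quotient.nontrivial_iff.mpr hp.ne_top
    rw [algebraicIndependent_empty_type_iff]
    exact (algebraMap ℚ (SS ι ⧸ p)).injective
  · push Not at hall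
    obtain ⟨i, hi⟩ := hall
    obtain ⟨q, hpq, hiq, hq, hqp, hgq⟩ := cut_one hδ (RingHom.id (OO κ)) p hI hp o hg
      (MvPolynomial.X i) (δ i) (MvPolynomial.isWeightedHomogeneous_X ℚ δ i)
      (by simpa using lin_ne_zero (hδ i).2) hi
    have hlt : p < q := lt_of_le_of_ne hpq (fun h => hi (h ▸ hiq))
    obtain ⟨n, y, hn, hy⟩ := ih q hlt hq hqp (o + 1) hgq
    obtain ⟨y', hy'⟩ := algInd_cons p q hpq _ hiq hi n y hy
    exact ⟨n + 1, y', by omega, hy'⟩

end Crest.Agent.R180
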