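import Crest.Agent.R180.TwH
/-! Hilbert–Serre over the twisted polynomial ring. -/
set_option autoImplicit false
set_option linter.unusedSectionVars false
open scoped BigOperators
namespace Crest.Agent.R180
variable {r : ℕ} {ι : Type} [Fintype ι] [DecidableEq ι] {δ : ι → Kap r → ℤ}

namespace DivDX

theorem dbl {κ : Type} [Fintype κ] [DecidableEq κ] {α : Type} [DecidableEq α] (A : Finset α)
    (d d' : α → κ → ℤ) (h : ∀ a ∈ A, d a = d' a + d' a) (L : (κ → ℤ) → ℤ)
    (hL : (Function.support (DF A d' L)).Finite) :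
    (Function.support (DF A d L)).Finite ∧
      PhiK (DF A d L) = (∏ a ∈ A, (1 + phi (d' a))) * PhiK (DF A d' L) := by
  induction A using Finset.induction_on generalizing L with
  | empty =>
    rw [DF_empty] at hL
    rw [DF_empty, DF_empty]
    exact ⟨hL, by simp⟩
  | insert a A ha ih =>
    rw [DF_insert A a ha, ← DF_Dl] at hL
    obtain ⟨h1, h2⟩ := ih (fun b hb => h b (Finset.mem_insert_of_mem hb)) (Dl (d' a) L) hL
    have e : DF (insert a A) d L =
        DF A d (Dl (d' a) L) + fun g => DF A d (Dl (d' a) L) (g - d' a) := by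
      rw [DF_insert A a ha, DF_Dl, h a (Finset.mem_insert_self a A)]
      funext g
      simp only [Dl, Pi.add_apply]
      rw [sub_sub]
      ring
    have h3 : (Function.support fun g => DF A d (Dl (d' a) L) (g - d' a)).Finite := by
      refine (h1.image (fun g => g + d' a)).subset ?_
      intro g hg
      exact ⟨g - d' a, hg, by simp⟩
    refine ⟨?_, ?_⟩
    · rw [e]
      exact (h1.union h3).subset (Function.support_add _ _)
    · rw [e, PhiK_add h1 h3, PhiK_shift h1, h2, Finset.prod_insert ha, DF_insert A a ha, ← DF_Dl]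
      ring

theorem lift_single (l : Kap r) : lift (Pi.single l 1 : Lam r) = Pi.single l 1 := by
  funext k
  by_cases h : k = l
  · subst h
    simp only [lift, Pi.single_eq_same]
    rfl
  · simp [lift, Pi.single_eq_of_ne h]

/-- left multiplication as a `ℚ`-linear map -/
noncomputable def mulL (uu : Kap r → ι) (z : Tw (uS uu)) : Tw (uS uu) →ₗ[ℚ] Tw (uS uu) where
  toFun v := z * v
  map_add' a b := mul_add z a b
  map_smul' c a := by
    simp only [RingHom.id_apply]
    rw [← algebraMap_smul (SS ι) c a, mul_smul_comm, algebraMap_smul]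

open Classical in
noncomputable def zz (uu : Kap r → ι) (v : ι) : Tw (uS uu) :=
  if h : ∃ l, uu l = v then PP (uS uu) (Pi.single h.choose 1)
  else (MvPolynomial.X v : SS ι) • (1 : Tw (uS uu))

open Classical in
noncomputable def dd (δ : ι → Kap r → ℤ) (uu : Kap r → ι) (v : ι) : Kap r → ℤ :=
  if h : ∃ l, uu l = v then Pi.single h.choose 1 else δ v

theorem uinj {uu : Kap r → ι} (hu : UDeg δ uu) : Function.Injective uu := by
  intro a b hab
  by_contra hne
  have h1 := hu a
  rw [hab, hu b] at h1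
  have h2 := congrFun h1 a
  simp [Pi.single_eq_of_ne hne] at h2

theorem zz_hom (uu : Kap r → ι) (v : ι) : THom δ uu (dd δ uu v) (zz uu v) := by
  unfold dd zz
  split_ifs with h
  · rw [← lift_single]
    exact THom.PP _
  · have := THom.smul (uu := uu) (MvPolynomial.isWeightedHomogeneous_X ℚ δ v) THom.one
    rwa [zero_add] at this

theorem dd_dbl {uu : Kap r → ι} (hu : UDeg δ uu) (v : ι) (h : ∃ l, uu l = v) :
    δ v = dd δ uu v + dd δ uu v := by
  unfold dd
  rw [dif_pos h]
  have h1 := hu h.choose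
  rw [h.choose_spec] at h1
  rw [h1, ← Pi.single_add]
  rfl

theorem zz_sq (uu : Kap r → ι) (v : ι) (h : ∃ l, uu l = v) (w : Tw (uS uu)) :
    zz uu v * (zz uu v * w) = (MvPolynomial.X v : SS ι) • w := by
  unfold zz
  rw [dif_pos h, ← mul_assoc, PP_single_sq, smul_mul_assoc, one_mul]
  unfold uS
  rw [h.choose_spec]

theorem zz_not (uu : Kap r → ι) (v : ι) (h : ¬ ∃ l, uu l = v) (w : Tw (uS uu)) :
    zz uu v * w = (MvPolynomial.X v : SS ι) • w := by
  unfold zz
  rw [dif_neg h, smul_mul_assoc, one_mul]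

theorem zz_comm (uu : Kap r → ι) (i j : ι) :
    (∀ v, zz uu i * (zz uu j * v) = zz uu j * (zz uu i * v)) ∨
      (∀ v, zz uu i * (zz uu j * v) = - (zz uu j * (zz uu i * v))) := by
  by_cases hi : ∃ l, uu l = i
  · by_cases hj : ∃ l, uu l = j
    · unfold zz
      rw [dif_pos hi, dif_pos hj]
      have hc := PP_comm (uS uu) (Pi.single hi.choose 1) (Pi.single hj.choose 1)
      rcases omg_eq (r := r) (Pi.single hi.choose 1) (Pi.single hj.choose 1) with h | h
      · left
        intro v
        rw [h] at hc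
        rw [← mul_assoc, hc, ← mul_assoc]
        simp
      · right
        intro v
        rw [h] at hc
        rw [← mul_assoc, hc, ← mul_assoc]
        simp
    · left
      intro v
      rw [zz_not uu j hj, zz_not uu j hj, mul_smul_comm]
  · left
    intro v
    rw [zz_not uu i hi, zz_not uu i hi, mul_smul_comm]

theorem stab_fam (hδ : PosW δ) {uu : Kap r → ι} (hu : UDeg δ uu)
    {N : Submodule (SS ι) (Tw (uS uu))} (hN : ∀ a, ∀ v ∈ N, a * v ∈ N) (i : ι) :
    Stab (mulL uu (zz uu i)) (dd δ uu i) ((grT hδ uu).fam N) := by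
  intro g v hv
  refine ⟨hN _ v hv.1, ?_⟩
  have h : THom δ uu g v := hv.2
  have := THom.mul hu (zz_hom (δ := δ) uu i) h
  rw [add_comm] at this
  exact this

end DivDX

open DivDX in
theorem two_pow_dvd (hδ : PosW δ) {uu : Kap r → ι} (hu : UDeg δ uu)
    {N M : Submodule (SS ι) (Tw (uS uu))} (hle : N ≤ M)
    (hN : ∀ a, ∀ v ∈ N, a * v ∈ N) (hM : ∀ a, ∀ v ∈ M, a * v ∈ M) (o : ℕ)
    (ho : OrdGe (PhiK (DF Finset.univ δ ((grT hδ uu).h N M))) o) :
    ∃ c' : OO (Kap r), PowerSeries.coeff o (PhiK (DF Finset.univ δ ((grT hδ uu).h N M))) =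
      2 ^ (2 * r) * c' := by
  have hgen : Gen Finset.univ (dd δ uu) (DF Finset.univ (dd δ uu) ((grT hδ uu).h N M)) := by
    refine hs Finset.univ (dd δ uu) (fun i => mulL uu (zz uu i)) (zz_comm uu)
      ((grT hδ uu).fam N) ((grT hδ uu).fam M) ?_ ?_ (fun i _ => stab_fam hδ hu hN i)
      (fun i _ => stab_fam hδ hu hM i) ?_
    · intro g
      haveI := (grT hδ uu).fd g
      exact Submodule.finiteDimensional_of_le (S₂ := (grT hδ uu).part g) inf_le_right
    · intro g
      exact inf_le_inf_right _ (fun v hv => hle hv)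
    · intro T hT hUW hst
      refine Gr.acc (grT hδ uu) T hT (fun n g => ((hUW n).2 g).trans inf_le_right) ?_
      intro n i g v hv
      by_cases hi : ∃ l, uu l = i
      · have h1 := hst n i (Finset.mem_univ i) _ _ (hst n i (Finset.mem_univ i) g v hv)
        rw [add_assoc, ← dd_dbl hu i hi] at h1
        have h2 : mulL uu (zz uu i) (mulL uu (zz uu i) v) = mulX (Tw (uS uu)) i v :=
          zz_sq uu i hi v
        rwa [h2] at h1
      · have h1 := hst n i (Finset.mem_univ i) g v hv
        have h2 : mulL uu (zz uu i) v = mulX (Tw (uS uu)) i v := zz_not uu i hi v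
        have h3 : dd δ uu i = δ i := by unfold dd; rw [dif_neg hi]
        rwa [h2, h3] at h1
  set A : Finset ι := Finset.univ.image uu with hA
  have hmem : ∀ v, v ∈ A ↔ ∃ l, uu l = v := by
    intro v; simp [hA]
  have hun : (Finset.univ : Finset ι) = A ∪ Aᶜ := by simp
  have hdis : Disjoint A Aᶜ := disjoint_compl_right
  have hB : DF Aᶜ δ ((grT hδ uu).h N M) = DF Aᶜ (dd δ uu) ((grT hδ uu).h N M) := by
    apply DF_congr
    intro i hi
    have hi' : ¬ ∃ l, uu l = i := by
      rw [← hmem]; exact Finset.mem_compl.mp hi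
    unfold dd
    rw [dif_neg hi']
  have hfin := hgen.finite
  rw [hun, DF_union A Aᶜ hdis] at hfin
  obtain ⟨-, h2⟩ := dbl A δ (dd δ uu) (fun a ha => dd_dbl hu a ((hmem a).1 ha)) _ hfin
  have hE : PhiK (DF Finset.univ δ ((grT hδ uu).h N M)) =
      (∏ a ∈ A, (1 + phi (dd δ uu a))) *
        PhiK (DF A (dd δ uu) (DF Aᶜ (dd δ uu) ((grT hδ uu).h N M))) := by
    rw [← h2, ← hB, ← DF_union A Aᶜ hdis, ← hun]
  have hcard : A.card = 2 * r := by
    rw [hA, Finset.card_image_of_injective _ (uinj hu)]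
    simp [mul_comm]
  have hc0 : PowerSeries.coeff 0 (∏ a ∈ A, (1 + phi (dd δ uu a))) = (2 : OO (Kap r)) ^ (2 * r) := by
    rw [PowerSeries.coeff_zero_eq_constantCoeff_apply, map_prod, ← hcard, ← Finset.prod_const]
    refine Finset.prod_congr rfl fun a _ => ?_
    rw [map_add, map_one, ← PowerSeries.coeff_zero_eq_constantCoeff_apply, coeff_zero_phi]
    norm_num
  rw [hE] at ho ⊢
  have ho' := OrdGe.of_mul (by rw [hc0]; exact pow_ne_zero _ two_ne_zero) ho
  exact ⟨_, by rw [(ho'.mul_left _).2, hc0]⟩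

end Crest.Agent.R180
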