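import Crest.Agent.R180.DivC
import Crest.Agent.R180.DivD
/-! An odd class forces a division algebra. -/
set_option autoImplicit false
open scoped BigOperators
namespace Crest.Agent.R180
variable {r : ℕ} {ι : Type} [Fintype ι] [DecidableEq ι] {δ : ι → Kap r → ℤ}

theorem tw_nzd_gen (hδ : PosW δ) {uu : Kap r → ι} (hu : UDeg δ uu) (p : Ideal (SS ι))
    (hI : (grS hδ).Hom p) (hp : p.IsPrime) (o : ℕ) (T : Finset (Kap r)) (hg : Good hδ (sig T) p o)
    (a b : Tw (uS uu)) (hab : a * b ∈ pV uu p) : a ∈ pV uu p ∨ b ∈ pV uu p := by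
  by_contra hcon
  push Not at hcon
  obtain ⟨a', b', g, g', -, hb', ha'p, hb'p, hab'⟩ :=
    exists_hom_zd hδ hu p hI a b hcon.1 hcon.2 hab
  let M : Submodule (SS ι) (Tw (uS uu)) :=
    { carrier := {v | v * b' ∈ pV uu p}
      add_mem' := fun {v w} hv hw => by
        change (v + w) * b' ∈ pV uu p
        rw [add_mul]
        exact (pV uu p).add_mem hv hw
      zero_mem' := by
        change (0 : Tw (uS uu)) * b' ∈ pV uu p
        rw [zero_mul]
        exact (pV uu p).zero_mem
      smul_mem' := fun c v hv => by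
        change (c • v) * b' ∈ pV uu p
        rw [smul_mul_assoc]
        exact (pV uu p).smul_mem c hv }
  have hMmem : ∀ v, v ∈ M ↔ v * b' ∈ pV uu p := fun v => Iff.rfl
  have hM : (grT hδ uu).Hom M := by
    intro v hv k
    rw [hMmem, ← comp_mul_hom hδ hu v b' k g' hb']
    exact pV_hom hδ uu p hI _ ((hMmem v).1 hv) _
  have hle : pV uu p ≤ M := fun v hv => (hMmem v).2 (pV_mul_right p v b' hv)
  have hMl : ∀ x, ∀ v ∈ M, x * v ∈ M := by
    intro x v hv
    rw [hMmem, mul_assoc]
    exact pV_mul_left p x _ ((hMmem v).1 hv)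
  obtain ⟨d, ⟨R⟩⟩ := exists_rankData hδ uu p hI hp M hM
  have hd0 : 0 < d := by
    rcases Nat.eq_zero_or_pos d with h | h
    · subst h
      obtain ⟨c, hc⟩ := R.span a' ((hMmem a').2 hab')
      rw [Finset.univ_eq_empty, Finset.sum_empty, sub_zero] at hc
      exact absurd (DivCX.smul_mem_pV uu p hp R.c_not hc) ha'p
    · exact h
  have hd1 : d < 2 ^ (2 * r) := by
    have := indep_card_le uu p hp (α := Option (Fin d)) (fun i => i.elim 1 R.m) (by
      intro c hc
      rw [Fintype.sum_option] at hc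
      simp only [Option.elim_none, Option.elim_some] at hc
      have hs : ∑ i, c (some i) • R.m i ∈ M :=
        Submodule.sum_mem _ fun i _ => Submodule.smul_mem _ _ (R.m_mem i)
      have h1 : c none • (1 : Tw (uS uu)) ∈ M := by
        have := M.sub_mem (hle hc) hs
        rwa [add_sub_cancel_right] at this
      have h2 : c none ∈ p := by
        by_contra hcn
        rw [hMmem, smul_mul_assoc, one_mul] at h1
        exact hb'p (DivCX.smul_mem_pV uu p hp hcn h1)
      have h3 : c none • (1 : Tw (uS uu)) ∈ pV uu p := fun χ =>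
        p.mul_mem_right ((1 : Tw (uS uu)) χ) h2
      have h4 : ∑ i, c (some i) • R.m i ∈ pV uu p := by
        have := (pV uu p).sub_mem hc h3
        rwa [add_sub_cancel_left] at this
      intro i
      cases i with
      | none => exact h2
      | some i => exact R.indep _ h4 i)
    rw [Fintype.card_option, Fintype.card_fin] at this
    rw [pow_mul]
    exact this
  obtain ⟨k1, k2⟩ := rank_coeff hδ uu p hI hp o hg.1 hM hle R
  obtain ⟨c', hc'⟩ := two_pow_dvd hδ hu hle (fun x v hv => pV_mul_left p x v hv) hMl o k1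
  exact hg.2 (sig_eq_zero_of_dvd T (2 * r) d hd0 hd1 _ c' (k2.symm.trans hc'))

theorem tw_nzd (hδ : PosW δ) {uu : Kap r → ι} (hu : UDeg δ uu) (p : Ideal (SS ι))
    (hI : (grS hδ).Hom p) (hp : p.IsPrime) (o : ℕ) (T : Finset (Kap r)) (hg : Good hδ (sig T) p o)
    (a b : Tw (fun l => Ideal.Quotient.mk p (uS uu l))) (hab : a * b = 0) : a = 0 ∨ b = 0 := by
  choose a' ha' using fun χ => Ideal.Quotient.mk_surjective (a χ)
  choose b' hb' using fun χ => Ideal.Quotient.mk_surjective (b χ)
  let f : Tw (uS uu) →+* Tw (fun l => Ideal.Quotient.mk p (uS uu l)) :=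
    Tw.map (Ideal.Quotient.mk p) (uS uu) _ (fun _ => rfl)
  have hf : ∀ v : Tw (uS uu), f v = 0 ↔ v ∈ pV uu p := by
    intro v
    constructor
    · intro h χ
      exact Ideal.Quotient.eq_zero_iff_mem.1 (congrFun h χ)
    · intro h
      funext χ
      exact Ideal.Quotient.eq_zero_iff_mem.2 (h χ)
  let A : Tw (uS uu) := a'
  let B : Tw (uS uu) := b'
  have hA : f A = a := funext ha'
  have hB : f B = b := funext hb'
  have h1 : A * B ∈ pV uu p := by
    rw [← hf, map_mul, hA, hB, hab]
  rcases tw_nzd_gen hδ hu p hI hp o T hg A B h1 with h | h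
  · left
    rw [← hA]
    exact (hf A).2 h
  · right
    rw [← hB]
    exact (hf B).2 h

end Crest.Agent.R180
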