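import Crest.Agent.R180.TwH
/-! A homogeneous basis of a submodule up to torsion. -/
set_option autoImplicit false
open scoped BigOperators
namespace Crest.Agent.R180
variable {r : ℕ} {ι : Type} [Fintype ι] [DecidableEq ι] {δ : ι → Kap r → ℤ}

/-- `m` is a homogeneous basis of `M / pV` up to the homogeneous denominator `c` -/
structure RankData (δ : ι → Kap r → ℤ) (uu : Kap r → ι) (p : Ideal (SS ι))
    (M : Submodule (SS ι) (Tw (uS uu))) (d : ℕ) where
  m : Fin d → Tw (uS uu)
  deg : Fin d → Kap r → ℤ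
  c : SS ι
  γ : Kap r → ℤ
  m_mem : ∀ i, m i ∈ M
  m_hom : ∀ i, THom δ uu (deg i) (m i)
  c_hom : MvPolynomial.IsWeightedHomogeneous δ c γ
  c_not : c ∉ p
  indep : ∀ a : Fin d → SS ι, ∑ i, a i • m i ∈ pV uu p → ∀ i, a i ∈ p
  span : ∀ v ∈ M, ∃ a : Fin d → SS ι, c • v - ∑ i, a i • m i ∈ pV uu p

/-- independent families modulo a prime have at most `4 ^ r` members -/
theorem indep_card_le (uu : Kap r → ι) (p : Ideal (SS ι)) (hp : p.IsPrime) {α : Type} [Fintype α]
    (m : α → Tw (uS uu)) (h : ∀ a : α → SS ι, ∑ i, a i • m i ∈ pV uu p → ∀ i, a i ∈ p) :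
    Fintype.card α ≤ 4 ^ r := by
  classical
  haveI := hp
  let m' : α → (Lam r → SS ι ⧸ p) := fun i χ => Ideal.Quotient.mk p (m i χ)
  have hli : LinearIndependent (SS ι ⧸ p) m' := by
    rw [Fintype.linearIndependent_iff]
    intro g hg i
    choose a ha using fun i => Ideal.Quotient.mk_surjective (I := p) (g i)
    have hmem : ∑ i, a i • m i ∈ pV uu p := by
      intro χ
      rw [← Ideal.Quotient.eq_zero_iff_mem, Tw.sum_apply, map_sum]
      have h1 := congrFun hg χ
      rw [Finset.sum_apply] at h1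
      rw [Pi.zero_apply] at h1
      rw [← h1]
      refine Finset.sum_congr rfl fun j _ => ?_
      rw [Tw.smul_apply, map_mul, ha j]
      rfl
    rw [← ha i]
    exact Ideal.Quotient.eq_zero_iff_mem.2 (h a hmem i)
  have h2 := hli.fintype_card_le_finrank
  rwa [Module.finrank_fintype_fun_eq_card, card_Lam] at h2

namespace DivAaux

theorem comp_smul_right {κ : Type} [Fintype κ] [DecidableEq κ] {δ : ι → κ → ℤ} {V : Type}
    [AddCommGroup V] [Module ℚ V] [Module (SS ι) V] [IsScalarTower ℚ (SS ι) V] (Γ : Gr δ V)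
    (F : SS ι) (γ g : κ → ℤ) (v : V) (hv : v ∈ Γ.part g) :
    Γ.comp (g + γ) (F • v) = MvPolynomial.weightedHomogeneousComponent δ γ F • v := by
  classical
  have hfin := MvPolynomial.weightedHomogeneousComponent_finsupp (w := δ) F
  have hF : F = ∑ γ' ∈ hfin.toFinset, MvPolynomial.weightedHomogeneousComponent δ γ' F := by
    rw [← finsum_eq_sum _ hfin]
    exact (MvPolynomial.sum_weightedHomogeneousComponent δ F).symm
  have hm : ∀ γ', MvPolynomial.weightedHomogeneousComponent δ γ' F • v ∈ Γ.part (g + γ') :=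
    fun γ' => Γ.smul_mem _ γ' g v
      (MvPolynomial.weightedHomogeneousComponent_isWeightedHomogeneous γ' F) hv
  have h1 : Γ.comp (g + γ) (F • v) = ∑ γ' ∈ hfin.toFinset,
      Γ.comp (g + γ) (MvPolynomial.weightedHomogeneousComponent δ γ' F • v) := by
    conv_lhs => rw [hF]
    rw [Finset.sum_smul, map_sum]
  rw [h1, Finset.sum_eq_single γ]
  · exact Γ.comp_of_mem _ _ (hm γ)
  · intro γ' _ hne
    exact Γ.comp_of_ne (g + γ') (g + γ) _ (hm γ') (fun h => hne (add_left_cancel h).symm)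
  · intro hγ
    have : MvPolynomial.weightedHomogeneousComponent δ γ F = 0 := by
      by_contra h
      exact hγ ((Set.Finite.mem_toFinset _).2 h)
    rw [this, zero_smul, map_zero]

/-- homogeneous independent families of size `d` inside `M` -/
def Fam (δ : ι → Kap r → ℤ) (uu : Kap r → ι) (p : Ideal (SS ι))
    (M : Submodule (SS ι) (Tw (uS uu))) (d : ℕ) : Prop :=
  ∃ (m : Fin d → Tw (uS uu)) (deg : Fin d → Kap r → ℤ), (∀ i, m i ∈ M) ∧
    (∀ i, THom δ uu (deg i) (m i)) ∧
    ∀ a : Fin d → SS ι, ∑ i, a i • m i ∈ pV uu p → ∀ i, a i ∈ p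

end DivAaux

theorem exists_rankData (hδ : PosW δ) (uu : Kap r → ι) (p : Ideal (SS ι)) (hI : (grS hδ).Hom p)
    (hp : p.IsPrime) (M : Submodule (SS ι) (Tw (uS uu))) (hM : (grT hδ uu).Hom M) :
    ∃ d, Nonempty (RankData δ uu p M d) := by
  classical
  have h0 : DivAaux.Fam δ uu p M 0 :=
    ⟨Fin.elim0, Fin.elim0, fun i => i.elim0, fun i => i.elim0, fun _ _ i => i.elim0⟩
  set d := Nat.findGreatest (DivAaux.Fam δ uu p M) (4 ^ r) with hd
  have hFd : DivAaux.Fam δ uu p M d := Nat.findGreatest_spec (Nat.zero_le _) h0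
  have hnot : ¬ DivAaux.Fam δ uu p M (d + 1) := by
    intro hF
    have hle : d + 1 ≤ 4 ^ r := by
      obtain ⟨m, deg, -, -, hind⟩ := hF
      simpa using indep_card_le uu p hp m hind
    have := Nat.le_findGreatest hle hF
    omega
  obtain ⟨m, deg, hmM, hmh, hind⟩ := hFd
  set N : Submodule (SS ι) (Tw (uS uu)) := pV uu p ⊔ Submodule.span (SS ι) (Set.range m) with hN
  have hNhom : (grT hδ uu).Hom N := by
    refine (grT hδ uu).hom_sup (pV_hom hδ uu p hI) ((grT hδ uu).hom_span _ ?_)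
    rintro _ ⟨i, rfl⟩
    exact ⟨deg i, hmh i⟩
  -- homogeneous elements
  have hhom : ∀ (g : Kap r → ℤ) (v : Tw (uS uu)), v ∈ M → THom δ uu g v →
      ∃ (c : SS ι) (γ : Kap r → ℤ), MvPolynomial.IsWeightedHomogeneous δ c γ ∧ c ∉ p ∧
        c • v ∈ N := by
    intro g v hvM hv
    have hdep : ∃ a : Fin (d + 1) → SS ι,
        ∑ i, a i • (Fin.cons v m : Fin (d + 1) → Tw (uS uu)) i ∈ pV uu p ∧ ∃ i, a i ∉ p := by
      by_contra hcon
      push Not at hcon
      refine hnot ⟨Fin.cons v m, Fin.cons g deg, ?_, ?_, hcon⟩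
      · intro i
        refine Fin.cases ?_ (fun j => ?_) i
        · exact hvM
        · exact hmM j
      · intro i
        refine Fin.cases ?_ (fun j => ?_) i
        · exact hv
        · exact hmh j
    obtain ⟨a, ha, i, hi⟩ := hdep
    rw [Fin.sum_univ_succ] at ha
    simp only [Fin.cons_zero, Fin.cons_succ] at ha
    have ha0 : a 0 ∉ p := by
      intro ha0
      have h1 : a 0 • v ∈ pV uu p := fun χ => p.mul_mem_right _ ha0
      have h2 : ∑ j : Fin d, a j.succ • m j ∈ pV uu p := by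
        have := (pV uu p).sub_mem ha h1
        rwa [add_sub_cancel_left] at this
      have h3 := hind _ h2
      revert hi
      refine Fin.cases ?_ (fun j => ?_) i
      · exact fun hi => hi ha0
      · exact fun hi => hi (h3 j)
    have hvN : a 0 • v ∈ N := by
      have h1 : ∑ j : Fin d, a j.succ • m j ∈ N :=
        Submodule.mem_sup_right (Submodule.sum_mem _ fun j _ =>
          Submodule.smul_mem _ _ (Submodule.subset_span ⟨j, rfl⟩))
      have := N.sub_mem (Submodule.mem_sup_left ha) h1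
      rwa [add_sub_cancel_right] at this
    obtain ⟨A, ⟨γ, hγ⟩, hA, -⟩ := IdAaux.exists_part hδ p (a 0) ha0
    refine ⟨_, γ, MvPolynomial.weightedHomogeneousComponent_isWeightedHomogeneous γ (a 0),
      hA γ hγ, ?_⟩
    rw [← DivAaux.comp_smul_right (grT hδ uu) (a 0) γ g v hv]
    exact hNhom _ hvN _
  -- finite sets of good elements have a common denominator
  have hcommon : ∀ t : Finset (Tw (uS uu)),
      (∀ v ∈ t, ∃ (c : SS ι) (γ : Kap r → ℤ), MvPolynomial.IsWeightedHomogeneous δ c γ ∧ c ∉ p ∧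
        c • v ∈ N) →
      ∃ (c : SS ι) (γ : Kap r → ℤ), MvPolynomial.IsWeightedHomogeneous δ c γ ∧ c ∉ p ∧
        ∀ v ∈ t, c • v ∈ N := by
    intro t
    induction t using Finset.induction_on with
    | empty =>
      intro _
      exact ⟨1, 0, MvPolynomial.isWeightedHomogeneous_one ℚ δ,
        (Ideal.ne_top_iff_one p).1 hp.ne_top, by simp⟩
    | insert w t _ ih =>
      intro ht
      obtain ⟨c, γ, hc, hcp, hcN⟩ := ih fun v hv => ht v (Finset.mem_insert_of_mem hv)
      obtain ⟨c', γ', hc', hcp', hcN'⟩ := ht w (Finset.mem_insert_self w t)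
      refine ⟨c * c', γ + γ', hc.mul hc', fun h => (hp.mem_or_mem h).elim hcp hcp', ?_⟩
      intro v hv
      rcases Finset.mem_insert.1 hv with rfl | hv
      · rw [mul_smul]
        exact N.smul_mem _ hcN'
      · rw [mul_comm, mul_smul]
        exact N.smul_mem _ (hcN v hv)
  have hall : ∀ v ∈ M, ∃ (c : SS ι) (γ : Kap r → ℤ),
      MvPolynomial.IsWeightedHomogeneous δ c γ ∧ c ∉ p ∧ c • v ∈ N := by
    intro v hv
    have hfin := (grT hδ uu).fin_supp v
    obtain ⟨c, γ, hc, hcp, hcN⟩ :=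
      hcommon (hfin.toFinset.image fun g => (grT hδ uu).comp g v) (by
        intro w hw
        obtain ⟨g, -, rfl⟩ := Finset.mem_image.1 hw
        exact hhom g _ (hM v hv g) ((grT hδ uu).comp_mem g v))
    refine ⟨c, γ, hc, hcp, ?_⟩
    have hv' : v = ∑ g ∈ hfin.toFinset, (grT hδ uu).comp g v := by
      rw [← finsum_eq_sum _ hfin]
      exact ((grT hδ uu).sum_comp v).symm
    rw [hv', Finset.smul_sum]
    exact N.sum_mem fun g hg => hcN _ (Finset.mem_image_of_mem _ hg)
  obtain ⟨t, ht⟩ : M.FG := IsNoetherian.noetherian M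
  obtain ⟨c, γ, hc, hcp, hcN⟩ := hcommon t fun v hv =>
    hall v (ht ▸ Submodule.subset_span hv)
  have hspan : ∀ v ∈ M, c • v ∈ N := by
    intro v hv
    rw [← ht] at hv
    have hle : Submodule.span (SS ι) (t : Set (Tw (uS uu))) ≤
        N.comap (LinearMap.lsmul (SS ι) (Tw (uS uu)) c) :=
      Submodule.span_le.2 fun w hw => hcN w hw
    exact hle hv
  refine ⟨d, ⟨⟨m, deg, c, γ, hmM, hmh, hc, hcp, hind, ?_⟩⟩⟩
  intro v hv
  obtain ⟨x, hx, y, hy, hxy⟩ := Submodule.mem_sup.1 (hspan v hv)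
  obtain ⟨a, rfl⟩ := (Submodule.mem_span_range_iff_exists_fun (SS ι)).1 hy
  refine ⟨a, ?_⟩
  rw [← hxy, add_sub_cancel_right]
  exact hx

end Crest.Agent.R180
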