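import Crest.Agent.R180.DivA
/-! The rank formula for leading forms. -/
set_option autoImplicit false
open scoped BigOperators
namespace Crest.Agent.R180

namespace DivBX

theorem fr_sup {A V : Type} [AddCommGroup A] [Module ℚ A] [AddCommGroup V] [Module ℚ V]
    [FiniteDimensional ℚ A] (Ψ : A →ₗ[ℚ] V) (U : Submodule ℚ V) [FiniteDimensional ℚ U] :
    Module.finrank ℚ ↥(U ⊔ LinearMap.range Ψ) + Module.finrank ℚ (U.comap Ψ) =
      Module.finrank ℚ U + Module.finrank ℚ A := by
  have h1 := Submodule.finrank_sup_add_finrank_inf_eq U (LinearMap.range Ψ)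
  have h2 := LinearMap.finrank_range_add_finrank_ker Ψ
  have h3 := LinearMap.finrank_range_add_finrank_ker (Ψ.domRestrict (U.comap Ψ))
  have e1 : LinearMap.range (Ψ.domRestrict (U.comap Ψ)) = U ⊓ LinearMap.range Ψ := by
    ext v
    constructor
    · rintro ⟨⟨a, ha⟩, rfl⟩
      exact ⟨ha, ⟨a, rfl⟩⟩
    · rintro ⟨hv, ⟨a, rfl⟩⟩
      exact ⟨⟨a, hv⟩, rfl⟩
  have hle : LinearMap.ker Ψ ≤ U.comap Ψ := by
    intro a ha
    rw [LinearMap.mem_ker] at ha
    rw [Submodule.mem_comap, ha]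
    exact U.zero_mem
  have e2 : LinearMap.ker (Ψ.domRestrict (U.comap Ψ)) =
      (LinearMap.ker Ψ).comap (U.comap Ψ).subtype := by
    ext a
    simp [LinearMap.mem_ker]
  have e3 : Module.finrank ℚ ((LinearMap.ker Ψ).comap (U.comap Ψ).subtype) =
      Module.finrank ℚ (LinearMap.ker Ψ) := (Submodule.comapSubtypeEquivOfLe hle).finrank_eq
  rw [e1, e2, e3] at h3
  omega

variable {κ : Type} [Fintype κ] [DecidableEq κ] {ι : Type} [Fintype ι] [DecidableEq ι]
  {δ : ι → κ → ℤ} {V : Type} [AddCommGroup V] [Module ℚ V] [Module (SS ι) V]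
  [IsScalarTower ℚ (SS ι) V]

theorem comp_smul_hom (Γ : Gr δ V) (e g : κ → ℤ) (m : V) (hm : m ∈ Γ.part e) (c : SS ι) :
    Γ.comp g (c • m) = MvPolynomial.weightedHomogeneousComponent δ (g - e) c • m := by
  induction c using MvPolynomial.induction_on' with
  | monomial u a =>
    have hw : MvPolynomial.IsWeightedHomogeneous δ (MvPolynomial.monomial u a : SS ι)
        (Finsupp.weight δ u) := MvPolynomial.isWeightedHomogeneous_monomial δ u a rfl
    have hmem := Γ.smul_mem _ _ _ _ hw hm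
    rw [MvPolynomial.weightedHomogeneousComponent_of_mem
      ((MvPolynomial.mem_weightedHomogeneousSubmodule _ δ _ _).2 hw)]
    split_ifs with h
    · have : g = e + Finsupp.weight δ u := by rw [← h]; abel
      rw [this]
      exact Γ.comp_of_mem _ _ hmem
    · rw [zero_smul]
      refine Γ.comp_of_ne _ _ _ hmem ?_
      intro h'
      apply h
      rw [h']; abel
  | add p q hp hq =>
    rw [add_smul, map_add, hp, hq, map_add, add_smul]

theorem h_free_gen (hδ : PosW δ) (Γ : Gr δ V) (p : Ideal (SS ι)) (N : Submodule (SS ι) V)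
    (hN : Γ.Hom N) {d : ℕ} (m : Fin d → V) (deg : Fin d → κ → ℤ) (hm : ∀ i, m i ∈ Γ.part (deg i))
    (hind : ∀ a : Fin d → SS ι, ∑ i, a i • m i ∈ N ↔ ∀ i, a i ∈ p) (g : κ → ℤ) :
    Γ.h N (N ⊔ Submodule.span (SS ι) (Set.range m)) g =
      ∑ i : Fin d, (grS hδ).h p ⊤ (g - deg i) := by
  classical
  let A : Fin d → Submodule ℚ (SS ι) := fun i => (grS hδ).fam ⊤ (g - deg i)
  let B : Fin d → Submodule ℚ (SS ι) := fun i => (grS hδ).fam p (g - deg i)
  have hBA : ∀ i, B i ≤ A i := fun i x hx => ⟨trivial, hx.2⟩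
  haveI : ∀ i, FiniteDimensional ℚ (A i) := fun i => by
    haveI := (grS hδ).fd (g - deg i)
    exact Submodule.finiteDimensional_of_le (S₂ := (grS hδ).part (g - deg i)) inf_le_right
  haveI : ∀ i, FiniteDimensional ℚ (B i) := fun i => Submodule.finiteDimensional_of_le (hBA i)
  let Ψ : (∀ i, A i) →ₗ[ℚ] V :=
    { toFun := fun a => ∑ i, (a i : SS ι) • m i
      map_add' := fun a b => by
        simp only [Pi.add_apply, Submodule.coe_add, add_smul, Finset.sum_add_distrib]
      map_smul' := fun c a => by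
        simp only [Pi.smul_apply, Submodule.coe_smul, RingHom.id_apply, Finset.smul_sum,
          smul_assoc] }
  have hΨ : ∀ a, Ψ a = ∑ i, (a i : SS ι) • m i := fun a => rfl
  have hΨpart : ∀ a, Ψ a ∈ Γ.part g := by
    intro a
    rw [hΨ]
    refine Submodule.sum_mem _ fun i _ => ?_
    have h1 := Γ.smul_mem (a i : SS ι) (g - deg i) (deg i) (m i) (a i).2.2 (hm i)
    have e : deg i + (g - deg i) = g := by abel
    rwa [e] at h1
  let U : Submodule ℚ V := Γ.fam N g
  haveI : FiniteDimensional ℚ U := by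
    haveI := Γ.fd g
    exact Submodule.finiteDimensional_of_le (S₂ := Γ.part g) inf_le_right
  have hW : Γ.fam (N ⊔ Submodule.span (SS ι) (Set.range m)) g = U ⊔ LinearMap.range Ψ := by
    apply le_antisymm
    · rintro v ⟨hv, hvg⟩
      have hv' : v ∈ N ⊔ Submodule.span (SS ι) (Set.range m) := hv
      obtain ⟨n, hn, w, hw, rfl⟩ := Submodule.mem_sup.1 hv'
      obtain ⟨c, rfl⟩ := (Submodule.mem_span_range_iff_exists_fun (SS ι)).1 hw
      have e := Γ.comp_of_mem g _ hvg
      rw [← e, map_add, map_sum]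
      refine Submodule.add_mem_sup ⟨hN n hn g, Γ.comp_mem g n⟩ ?_
      refine ⟨fun i => ⟨MvPolynomial.weightedHomogeneousComponent δ (g - deg i) (c i),
        ⟨trivial, MvPolynomial.weightedHomogeneousComponent_mem δ (c i) (g - deg i)⟩⟩, ?_⟩
      rw [hΨ]
      refine Finset.sum_congr rfl fun i _ => ?_
      exact (comp_smul_hom Γ (deg i) g (m i) (hm i) (c i)).symm
    · refine sup_le ?_ ?_
      · rintro v ⟨hv, hvg⟩
        exact ⟨Submodule.mem_sup_left (show v ∈ N from hv), hvg⟩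
      · rintro v ⟨a, rfl⟩
        refine ⟨?_, hΨpart a⟩
        show Ψ a ∈ N ⊔ Submodule.span (SS ι) (Set.range m)
        refine Submodule.mem_sup_right ?_
        rw [hΨ]
        exact Submodule.sum_mem _ fun i _ =>
          Submodule.smul_mem _ _ (Submodule.subset_span ⟨i, rfl⟩)
  let J : (∀ i, B i) →ₗ[ℚ] (∀ i, A i) :=
    LinearMap.pi fun i => (Submodule.inclusion (hBA i)).comp (LinearMap.proj i)
  have hJ : ∀ b i, ((J b i : A i) : SS ι) = (b i : SS ι) := fun b i => rfl
  have hJinj : Function.Injective J := by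
    intro b b' h
    funext i
    apply Subtype.ext
    rw [← hJ b i, ← hJ b' i, h]
  have hJr : LinearMap.range J = U.comap Ψ := by
    ext a
    constructor
    · rintro ⟨b, rfl⟩
      refine ⟨?_, hΨpart _⟩
      show Ψ (J b) ∈ N
      rw [hΨ]
      exact (hind _).2 fun i => (b i).2.1
    · intro ha
      have ha' : Ψ a ∈ N := ha.1
      rw [hΨ] at ha'
      have hp := (hind _).1 ha'
      refine ⟨fun i => ⟨a i, ⟨hp i, (a i).2.2⟩⟩, ?_⟩
      funext i
      exact Subtype.ext rfl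
  have h1 := fr_sup Ψ U
  rw [← hJr, LinearMap.finrank_range_of_inj hJinj, Module.finrank_pi_fintype,
    Module.finrank_pi_fintype, ← hW] at h1
  have h2 : ((Module.finrank ℚ (Γ.fam (N ⊔ Submodule.span (SS ι) (Set.range m)) g) : ℕ) : ℤ) +
      ∑ i, (Module.finrank ℚ (B i) : ℤ) = Module.finrank ℚ U + ∑ i, (Module.finrank ℚ (A i) : ℤ) := by
    exact_mod_cast h1
  show ((Module.finrank ℚ (Γ.fam (N ⊔ Submodule.span (SS ι) (Set.range m)) g) : ℕ) : ℤ) -
      (Module.finrank ℚ U : ℤ) =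
    ∑ i, ((Module.finrank ℚ (A i) : ℤ) - (Module.finrank ℚ (B i) : ℤ))
  rw [Finset.sum_sub_distrib]
  linarith

end DivBX

variable {r : ℕ} {ι : Type} [Fintype ι] [DecidableEq ι] {δ : ι → Kap r → ℤ}

theorem h_free (hδ : PosW δ) (uu : Kap r → ι) (p : Ideal (SS ι)) (hI : (grS hδ).Hom p)
    {M : Submodule (SS ι) (Tw (uS uu))} {d : ℕ} (R : RankData δ uu p M d) :
    (grT hδ uu).h (pV uu p) (pV uu p ⊔ Submodule.span (SS ι) (Set.range R.m)) =
      ∑ i : Fin d, fun g => (grS hδ).h p ⊤ (g - R.deg i) := by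
  funext g
  rw [Finset.sum_apply]
  refine DivBX.h_free_gen hδ (grT hδ uu) p (pV uu p) (pV_hom hδ uu p hI) R.m R.deg
    (fun i => R.m_hom i) (fun a => ⟨R.indep a, fun h => ?_⟩) g
  refine Submodule.sum_mem _ fun i _ => ?_
  intro χ
  rw [Tw.smul_apply]
  exact p.mul_mem_right _ (h i)

end Crest.Agent.R180
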