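import Crest.Agent.R180.DivB
/-! The rank formula for leading forms, II. -/
set_option autoImplicit false
open scoped BigOperators
namespace Crest.Agent.R180
variable {r : ℕ} {ι : Type} [Fintype ι] [DecidableEq ι] {δ : ι → Kap r → ℤ}

namespace DivCX

theorem sum_shift {α : Type} (t : Finset α) (deg : α → Kap r → ℤ) {L : (Kap r → ℤ) → ℤ}
    (hL : Gen Finset.univ δ L) :
    Gen Finset.univ δ (∑ a ∈ t, fun g => L (g - deg a)) ∧
      PhiK (∑ a ∈ t, fun g => L (g - deg a)) = (∑ a ∈ t, phi (deg a)) * PhiK L := by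
  classical
  induction t using Finset.induction_on with
  | empty =>
    refine ⟨by simpa using Gen.zero Finset.univ δ, ?_⟩
    simp [PhiK]
  | insert a t ha ih =>
    rw [Finset.sum_insert ha, Finset.sum_insert ha]
    refine ⟨Gen.add _ _ (hL.shift (deg a)) ih.1, ?_⟩
    rw [PhiK_add (hL.shift (deg a)).finite ih.1.finite, PhiK_shift hL.finite, ih.2, add_mul]

theorem gen_all {V : Type} [AddCommGroup V] [Module ℚ V] [Module (SS ι) V]
    [IsScalarTower ℚ (SS ι) V] [IsNoetherian (SS ι) V] (Γ : Gr δ V)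
    {N N' : Submodule (SS ι) V} (h : N ≤ N') :
    Gen Finset.univ δ (DF Finset.univ δ (Γ.h N N')) :=
  Gr.gen Γ h Finset.univ (fun i hi => absurd (Finset.mem_univ i) hi)

theorem sum_KI (hδ : PosW δ) (p : Ideal (SS ι)) (o : ℕ) (ho : OrdGe (KI hδ p) o)
    {α : Type} [Fintype α] (deg : α → Kap r → ℤ) :
    OrdGe (PhiK (DF Finset.univ δ (∑ a : α, fun g => (grS hδ).h p ⊤ (g - deg a)))) o ∧
      PowerSeries.coeff o
          (PhiK (DF Finset.univ δ (∑ a : α, fun g => (grS hδ).h p ⊤ (g - deg a)))) =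
        (Fintype.card α : OO (Kap r)) * PowerSeries.coeff o (KI hδ p) := by
  have hL := gen_all (grS hδ) (N := p) (N' := ⊤) le_top
  have e : DF Finset.univ δ (∑ a : α, fun g => (grS hδ).h p ⊤ (g - deg a)) =
      ∑ a : α, fun g => DF Finset.univ δ ((grS hδ).h p ⊤) (g - deg a) := by
    rw [DF_sum]
    exact Finset.sum_congr rfl fun a _ => DF_shift _ _ _ _
  rw [e, (sum_shift Finset.univ deg hL).2]
  obtain ⟨h1, h2⟩ := OrdGe.mul_left ho (∑ a : α, phi (deg a))
  refine ⟨h1, ?_⟩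
  change PowerSeries.coeff o ((∑ a : α, phi (deg a)) * KI hδ p) = _
  rw [h2, map_sum]
  simp only [coeff_zero_phi, Finset.sum_const, Finset.card_univ, nsmul_eq_mul, mul_one]

/-- splitting the order along a chain -/
theorem ord_split (hδ : PosW δ) {V : Type} [AddCommGroup V] [Module ℚ V] [Module (SS ι) V]
    [IsScalarTower ℚ (SS ι) V] [IsNoetherian (SS ι) V] (Γ : Gr δ V)
    {N N' N'' : Submodule (SS ι) V} (h : N ≤ N') (h' : N' ≤ N'') {o : ℕ}
    (ho : OrdGe (PhiK (DF Finset.univ δ (Γ.h N N''))) o) :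
    OrdGe (PhiK (DF Finset.univ δ (Γ.h N N'))) o ∧
      OrdGe (PhiK (DF Finset.univ δ (Γ.h N' N''))) o := by
  rw [Γ.h_add N N' N'', DF_add] at ho
  exact Gen.ord_of_add hδ (gen_all Γ h) (gen_all Γ h') ho

theorem smul_mem_pV (uu : Kap r → ι) (p : Ideal (SS ι)) (hp : p.IsPrime) {c : SS ι} (hc : c ∉ p)
    {v : Tw (uS uu)} (hv : c • v ∈ pV uu p) : v ∈ pV uu p := fun χ =>
  (hp.mem_or_mem (show c * v χ ∈ p from hv χ)).resolve_left hc

end DivCX

theorem rank_coeff (hδ : PosW δ) (uu : Kap r → ι) (p : Ideal (SS ι)) (hI : (grS hδ).Hom p)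
    (hp : p.IsPrime) (o : ℕ) (ho : OrdGe (KI hδ p) o) {M : Submodule (SS ι) (Tw (uS uu))}
    (hM : (grT hδ uu).Hom M) (hle : pV uu p ≤ M) {d : ℕ} (R : RankData δ uu p M d) :
    OrdGe (PhiK (DF Finset.univ δ ((grT hδ uu).h (pV uu p) M))) o ∧
      PowerSeries.coeff o (PhiK (DF Finset.univ δ ((grT hδ uu).h (pV uu p) M))) =
        (d : OO (Kap r)) * PowerSeries.coeff o (KI hδ p) := by
  have h0 : OrdGe (PhiK (DF Finset.univ δ ((grT hδ uu).h (pV uu p) ⊤))) o := by
    rw [h_pV]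
    exact (DivCX.sum_KI hδ p o ho lift).1
  have h1 := (DivCX.ord_split hδ (grT hδ uu) hle le_top h0).1
  refine ⟨h1, ?_⟩
  have hFM : pV uu p ⊔ Submodule.span (SS ι) (Set.range R.m) ≤ M := by
    refine sup_le hle ?_
    rw [Submodule.span_le]
    rintro _ ⟨i, rfl⟩
    exact R.m_mem i
  have hNF : pV uu p ⊔ M.map (LinearMap.lsmul (SS ι) (Tw (uS uu)) R.c) ≤
      pV uu p ⊔ Submodule.span (SS ι) (Set.range R.m) := by
    refine sup_le le_sup_left ?_
    rintro _ ⟨v, hv, rfl⟩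
    obtain ⟨a, ha⟩ := R.span v hv
    have hs : ∑ i, a i • R.m i ∈ Submodule.span (SS ι) (Set.range R.m) :=
      Submodule.sum_mem _ fun i _ =>
        Submodule.smul_mem _ _ (Submodule.subset_span ⟨i, rfl⟩)
    have := Submodule.add_mem_sup ha hs
    rw [sub_add_cancel] at this
    exact this
  have hnzd := (grT hδ uu).h_nzd hle (pV_hom hδ uu p hI) hM R.c R.γ R.c_hom
    (fun v _ hv => DivCX.smul_mem_pV uu p hp R.c_not hv)
  have h2 : OrdGe (PhiK (DF Finset.univ δ ((grT hδ uu).h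
      (pV uu p ⊔ M.map (LinearMap.lsmul (SS ι) (Tw (uS uu)) R.c)) M))) (o + 1) := by
    rw [hnzd, DF_Dl, PhiK_Dl (DivCX.gen_all (grT hδ uu) hle).finite]
    exact (OrdGe.one_sub h1 R.γ).1
  have h3 := (DivCX.ord_split hδ (grT hδ uu) hNF hFM h2).2
  rw [(grT hδ uu).h_add (pV uu p) (pV uu p ⊔ Submodule.span (SS ι) (Set.range R.m)) M, DF_add,
    PhiK_add (DivCX.gen_all (grT hδ uu) le_sup_left).finite
      (DivCX.gen_all (grT hδ uu) hFM).finite, map_add, h3 o (Nat.lt_succ_self o), add_zero,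
    h_free hδ uu p hI R, (DivCX.sum_KI hδ p o ho R.deg).2, Fintype.card_fin]

end Crest.Agent.R180
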