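import Crest.Agent.R180.FinA
/-! From the limit model to the statement. -/
set_option autoImplicit false
open scoped BigOperators
namespace Crest.Agent.R180

namespace FinAux

/-- evaluation in the model -/
noncomputable def ev (N : Model) (t : Term) : N.D := t.ev N.τ N.x N.y

theorem ev_tr (N : Model) (s : Term) : ev N (.tr s) = algebraMap N.E N.D (N.τ (ev N s)) := rfl

theorem ev_trmul (N : Model) (s t : Term) :
    ev N (.mul (.tr s) t) = N.τ (ev N s) • ev N t := by
  rw [Algebra.smul_def]; rfl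

theorem tau_trmul (N : Model) (s t : Term) :
    N.τ (ev N (.mul (.tr s) t)) = N.τ (ev N s) * N.τ (ev N t) := by
  rw [ev_trmul, map_smul, smul_eq_mul]

theorem tau_one (N : Model) : N.τ (ev N .one) = 1 := N.τ_one

theorem tau_alg (N : Model) (c : N.E) : N.τ (algebraMap N.E N.D c) = c := by
  rw [Algebra.algebraMap_eq_smul_one, map_smul, N.τ_one, smul_eq_mul, mul_one]

/-- the subring of fractions of trace terms -/
def AR (N : Model) : Subring N.D where
  carrier := {a | ∃ s t : Term, N.τ (ev N s) ≠ 0 ∧ N.τ (ev N s) • a = ev N t}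
  one_mem' := ⟨.one, .one, by rw [tau_one]; exact one_ne_zero, by rw [tau_one, one_smul]; rfl⟩
  zero_mem' := ⟨.one, .add .one (.neg .one), by rw [tau_one]; exact one_ne_zero, by
    rw [smul_zero]; show (0 : N.D) = 1 + -1; simp⟩
  mul_mem' := by
    rintro a b ⟨s, t, hs, ha⟩ ⟨s', t', hs', hb⟩
    refine ⟨.mul (.tr s) s', .mul t t', by rw [tau_trmul]; exact mul_ne_zero hs hs', ?_⟩
    rw [tau_trmul]
    show _ = ev N t * ev N t'
    rw [← ha, ← hb, smul_mul_smul_comm]
  add_mem' := by
    rintro a b ⟨s, t, hs, ha⟩ ⟨s', t', hs', hb⟩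
    refine ⟨.mul (.tr s) s', .add (.mul (.tr s') t) (.mul (.tr s) t'),
      by rw [tau_trmul]; exact mul_ne_zero hs hs', ?_⟩
    rw [tau_trmul]
    show _ = ev N (.mul (.tr s') t) + ev N (.mul (.tr s) t')
    rw [ev_trmul, ev_trmul, ← ha, ← hb, smul_smul, smul_smul, smul_add, mul_comm (N.τ (ev N s'))]
  neg_mem' := by
    rintro a ⟨s, t, hs, ha⟩
    refine ⟨s, .neg t, hs, ?_⟩
    show _ = - ev N t
    rw [← ha, smul_neg]

theorem ev_mem (N : Model) (t : Term) : ev N t ∈ AR N :=
  ⟨.one, t, by rw [tau_one]; exact one_ne_zero, by rw [tau_one, one_smul]⟩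

/-- the trace field -/
def KK (N : Model) : Subfield N.E :=
  { (AR N).comap (algebraMap N.E N.D) with
    inv_mem' := by
      rintro c ⟨s, t, hs, hc⟩
      by_cases h0 : c = 0
      · rw [h0, inv_zero]; exact Subring.zero_mem _
      have h1 : N.τ (ev N t) = N.τ (ev N s) * c := by
        rw [← hc, map_smul, tau_alg, smul_eq_mul]
      refine ⟨t, .tr s, by rw [h1]; exact mul_ne_zero hs h0, ?_⟩
      rw [ev_tr, h1, Algebra.smul_def, ← map_mul, mul_assoc, mul_inv_cancel₀ h0, mul_one] }

theorem mem_KK (N : Model) (c : N.E) : c ∈ KK N ↔ algebraMap N.E N.D c ∈ AR N := Iff.rfl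

theorem tau_mem (N : Model) {a : N.D} (ha : a ∈ AR N) : N.τ a ∈ KK N := by
  obtain ⟨s, t, hs, ha⟩ := ha
  refine ⟨s, .tr t, hs, ?_⟩
  rw [ev_tr, ← ha, map_smul, smul_eq_mul, map_mul, Algebra.smul_def]

theorem eq_of_mem (N : Model) {a : N.D} {s t : Term} (hs : N.τ (ev N s) ≠ 0)
    (ha : N.τ (ev N s) • a = ev N t) : a = (N.τ (ev N s))⁻¹ • ev N t := by
  rw [← ha, smul_smul, inv_mul_cancel₀ hs, one_smul]

theorem rel (N : Model) (halg : ∀ t : Term, IsAlgebraic N.E (t.ev N.τ N.x N.y)) {a : N.D}
    (ha : a ∈ AR N) :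
    ∃ (n : ℕ) (c : Fin n → N.E), (∀ k, c k ∈ KK N) ∧ a ^ n = ∑ k, c k • a ^ (k : ℕ) := by
  refine trace_descent N.τ N.τ_one a ?_ (KK N) (fun k => tau_mem N (Subring.pow_mem _ ha k))
  obtain ⟨s, t, hs, h⟩ := ha
  rw [eq_of_mem N hs h]
  exact (halg t).smul _

/-- the division subring -/
def AF (N : Model) (halg : ∀ t : Term, IsAlgebraic N.E (t.ev N.τ N.x N.y)) : Subfield N.D :=
  { AR N with
    inv_mem' := by
      intro a ha
      obtain ⟨n, c, hc, h⟩ := rel N halg ha
      exact inv_mem_of_rel (KK N) (AR N) (fun c hc => hc) a ha n c hc h }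

/-- a trace scalar as a central element -/
noncomputable def zc (N : Model) (halg : ∀ t : Term, IsAlgebraic N.E (t.ev N.τ N.x N.y))
    (c : N.E) (hc : c ∈ KK N) : Subring.center (AF N halg) :=
  ⟨⟨algebraMap N.E N.D c, hc⟩, by
    rw [Subring.mem_center_iff]
    intro g
    apply Subtype.ext
    exact (Algebra.commutes c (g : N.D)).symm⟩

end FinAux

open FinAux in
theorem final (N : Model) (halg : ∀ t : Term, IsAlgebraic N.E (t.ev N.τ N.x N.y))
    (hbig : ∀ m, ¬ Small N.x N.y m) :
    ∃ (D : Type) (_ : DivisionRing D), Countable D ∧ CharZero D ∧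
      Algebra.IsAlgebraic (Subring.center D) D ∧
      (∃ x y : D, Algebra.adjoin (Subring.center D) ({x, y} : Set D) = ⊤) ∧
      ¬ FiniteDimensional (Subring.center D) D := by
  refine ⟨AF N halg, inferInstance, ?_, ?_, ?_, ?_, ?_⟩
  · have : (AF N halg : Set N.D).Countable := by
      refine (Set.countable_range
        (fun p : Term × Term => (N.τ (ev N p.1))⁻¹ • ev N p.2)).mono ?_
      rintro a ⟨s, t, hs, h⟩
      exact ⟨(s, t), (eq_of_mem N hs h).symm⟩
    exact this.to_subtype
  · haveI : CharZero N.D := charZero_of_injective_algebraMap (algebraMap N.E N.D).injective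
    refine ⟨fun m n h => ?_⟩
    have h' := congrArg (fun z : AF N halg => (z : N.D)) h
    simpa using h'
  · refine ⟨fun a => ?_⟩
    obtain ⟨n, c, hc, h⟩ := rel N halg (a := (a : N.D)) a.2
    refine ⟨Polynomial.X ^ n -
      ∑ k : Fin n, Polynomial.C (zc N halg (c k) (hc k)) * Polynomial.X ^ (k : ℕ), ?_, ?_⟩
    · exact (Polynomial.monic_X_pow_sub (Polynomial.degree_sum_fin_lt _)).ne_zero
    · rw [map_sub, map_pow, map_sum, Polynomial.aeval_X, sub_eq_zero]
      apply Subtype.ext
      rw [SubmonoidClass.coe_pow, h, AddSubmonoidClass.coe_finset_sum]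
      refine Finset.sum_congr rfl fun k _ => ?_
      rw [map_mul, map_pow, Polynomial.aeval_C, Polynomial.aeval_X, Algebra.smul_def]
      rfl
  · refine ⟨⟨N.x, ev_mem N .X⟩, ⟨N.y, ev_mem N .Y⟩, ?_⟩
    set B := Algebra.adjoin (Subring.center (AF N halg))
      ({⟨N.x, ev_mem N .X⟩, ⟨N.y, ev_mem N .Y⟩} : Set (AF N halg)) with hB
    have key : ∀ t : Term, (⟨ev N t, ev_mem N t⟩ : AF N halg) ∈ B := by
      intro t
      induction t with
      | X => exact Algebra.subset_adjoin (Or.inl rfl)
      | Y => exact Algebra.subset_adjoin (Or.inr rfl)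
      | one => exact B.one_mem
      | neg t ih => exact B.neg_mem ih
      | add t s iht ihs => exact B.add_mem iht ihs
      | mul t s iht ihs => exact B.mul_mem iht ihs
      | tr t _ => exact B.algebraMap_mem (zc N halg _ (tau_mem N (ev_mem N t)))
    rw [eq_top_iff]
    rintro ⟨a, s, t, hs, h⟩ -
    have hz : (N.τ (ev N s))⁻¹ ∈ KK N := (KK N).inv_mem (tau_mem N (ev_mem N s))
    have := B.mul_mem (B.algebraMap_mem (zc N halg _ hz)) (key t)
    convert this using 1
    apply Subtype.ext
    show a = algebraMap N.E N.D (N.τ (ev N s))⁻¹ * ev N t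
    rw [← Algebra.smul_def]
    exact eq_of_mem N hs h
  · intro hfin
    obtain ⟨m, w, hw⟩ := Module.Finite.exists_fin (R := Subring.center (AF N halg))
      (M := AF N halg)
    have hex : ∀ v : AF N halg, ∃ c : Fin m → Subring.center (AF N halg),
        ∑ j, c j • w j = v := fun v =>
      (Submodule.mem_span_range_iff_exists_fun _).1 (hw ▸ Submodule.mem_top)
    choose co hco using hex
    let xx : AF N halg := ⟨N.x, ev_mem N .X⟩
    let yy : AF N halg := ⟨N.y, ev_mem N .Y⟩
    let tg : Option (Bool × Fin m) → AF N halg := fun a =>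
      match a with
      | none => 1
      | some (false, i) => xx * w i
      | some (true, i) => yy * w i
    have hval : ∀ v : AF N halg, (v : N.D) = ∑ j, ((co v j : AF N halg) : N.D) * (w j : N.D) := by
      intro v
      conv_lhs => rw [← hco v]
      rw [AddSubmonoidClass.coe_finset_sum]
      rfl
    have hcen : ∀ (z : Subring.center (AF N halg)) (g : AF N halg),
        ((z : AF N halg) : N.D) * g = g * ((z : AF N halg) : N.D) := by
      intro z g
      have := Subring.mem_center_iff.1 z.2 g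
      exact (congrArg (fun v : AF N halg => (v : N.D)) this).symm
    refine hbig m ⟨fun j => (w j : N.D), fun a j => ((co (tg a) j : AF N halg) : N.D),
      fun a i b j => hcen _ _, fun a i => ⟨hcen _ xx, hcen _ yy⟩, hval 1,
      fun i => hval (xx * w i), fun i => hval (yy * w i)⟩

end Crest.Agent.R180
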