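import Crest.Agent.R180.Defs
/-! Descent of algebraicity to the trace field. -/
set_option autoImplicit false
open scoped BigOperators
namespace Crest.Agent.R180

namespace FinAX
open Polynomial

theorem gram_inj {E D : Type} [Field E] [DivisionRing D] [Algebra E D] (τ : D →ₗ[E] E)
    (hτ : τ 1 = 1) (a : D) (ha : IsIntegral E a) (v : Fin (minpoly E a).natDegree → E)
    (hv : ∀ l : Fin (minpoly E a).natDegree,
      ∑ k : Fin (minpoly E a).natDegree, τ (a ^ ((l : ℕ) + (k : ℕ))) * v k = 0) :
    v = 0 := by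
  classical
  by_contra hne
  set P : E[X] := ∑ k : Fin (minpoly E a).natDegree, monomial (k : ℕ) (v k) with hP
  have hcoef : ∀ k : Fin (minpoly E a).natDegree, P.coeff k = v k := by
    intro k
    rw [hP, finsetSum_coeff, Finset.sum_eq_single k]
    · simp
    · intro j _ hj
      rw [coeff_monomial, if_neg]
      intro h; exact hj (Fin.ext h)
    · simp
  have hP0 : P ≠ 0 := by
    intro h
    apply hne
    funext k
    rw [← hcoef k, h]; simp
  have hmon : (minpoly E a).Monic := minpoly.monic ha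
  have hdeg : P.degree < (minpoly E a).degree := by
    rw [degree_eq_natDegree hmon.ne_zero, hP]
    refine (degree_sum_le _ _).trans_lt ?_
    rw [Finset.sup_lt_iff (WithBot.bot_lt_coe _)]
    intro k _
    refine (degree_monomial_le _ _).trans_lt ?_
    exact_mod_cast k.2
  have hcop : IsCoprime (minpoly E a) P :=
    (minpoly.irreducible ha).coprime_iff_not_dvd.2 (not_dvd_of_degree_lt hP0 hdeg)
  obtain ⟨r, q, hq⟩ := hcop
  have hb : aeval a P = ∑ k : Fin (minpoly E a).natDegree, v k • a ^ (k : ℕ) := by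
    rw [hP, map_sum]
    refine Finset.sum_congr rfl fun k _ => ?_
    rw [aeval_monomial, Algebra.smul_def]
  have h1 : aeval a (q %ₘ minpoly E a) * aeval a P = 1 := by
    have := congrArg (aeval a) hq
    rw [map_add, map_mul, map_mul, minpoly.aeval, mul_zero, zero_add, map_one] at this
    rw [minpoly.aeval_modByMonic_minpoly]
    exact this
  have hlt : (q %ₘ minpoly E a).natDegree < (minpoly E a).natDegree :=
    natDegree_modByMonic_lt q hmon (minpoly.ne_one E a)
  rw [aeval_eq_sum_range' hlt, ← Fin.sum_univ_eq_sum_range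
    (fun i => (q %ₘ minpoly E a).coeff i • a ^ i), Finset.sum_mul] at h1
  have h2 := congrArg τ h1
  rw [hτ, map_sum] at h2
  have h3 : ∀ l : Fin (minpoly E a).natDegree,
      τ ((q %ₘ minpoly E a).coeff l • a ^ (l : ℕ) * aeval a P) = 0 := by
    intro l
    rw [smul_mul_assoc, map_smul, hb, Finset.mul_sum, map_sum]
    have : ∑ k : Fin (minpoly E a).natDegree, τ (a ^ (l : ℕ) * v k • a ^ (k : ℕ)) = 0 := by
      rw [← hv l]
      refine Finset.sum_congr rfl fun k _ => ?_
      rw [mul_smul_comm, map_smul, ← pow_add, smul_eq_mul, mul_comm]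
    rw [this, smul_zero]
  simp only [h3, Finset.sum_const_zero] at h2
  exact zero_ne_one h2

theorem coef_mem {E D : Type} [Field E] [DivisionRing D] [Algebra E D] (τ : D →ₗ[E] E)
    (a : D) (K : Subfield E) (hK : ∀ k : ℕ, τ (a ^ k) ∈ K) (n : ℕ)
    (hinj : ∀ v : Fin n → E, (∀ l : Fin n, ∑ k : Fin n, τ (a ^ ((l : ℕ) + (k : ℕ))) * v k = 0) →
      v = 0) (c : Fin n → E) (hrel : a ^ n = ∑ k, c k • a ^ (k : ℕ)) : ∀ k, c k ∈ K := by
  classical
  let G : Matrix (Fin n) (Fin n) K := fun l k => ⟨τ (a ^ ((l : ℕ) + (k : ℕ))), hK _⟩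
  let w : Fin n → K := fun l => ⟨τ (a ^ ((l : ℕ) + n)), hK _⟩
  have hG : ∀ (v : Fin n → K) (l : Fin n), ((Matrix.mulVecLin G v l : K) : E) =
      ∑ k : Fin n, τ (a ^ ((l : ℕ) + (k : ℕ))) * (v k : E) := by
    intro v l
    rw [Matrix.mulVecLin_apply]
    show ((∑ k : Fin n, G l k * v k : K) : E) = _
    rw [AddSubmonoidClass.coe_finsetSum]
    rfl
  have hGinj : Function.Injective (Matrix.mulVecLin G) := by
    rw [injective_iff_map_eq_zero]
    intro v hv
    have := hinj (fun k => (v k : E)) (fun l => by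
      rw [← hG, hv]; rfl)
    funext k
    exact Subtype.ext (congrFun this k)
  obtain ⟨c', hc'⟩ := (LinearMap.injective_iff_surjective.1 hGinj) w
  have hcc := hinj (fun k => c k - (c' k : E)) (fun l => by
    have h2 : ∑ k : Fin n, τ (a ^ ((l : ℕ) + (k : ℕ))) * (c' k : E) = τ (a ^ ((l : ℕ) + n)) := by
      rw [← hG, hc']
    have h3 : ∑ k : Fin n, τ (a ^ ((l : ℕ) + (k : ℕ))) * c k = τ (a ^ ((l : ℕ) + n)) := by
      rw [pow_add a l n, hrel, Finset.mul_sum, map_sum]
      refine Finset.sum_congr rfl fun k _ => ?_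
      rw [mul_smul_comm, map_smul, ← pow_add, smul_eq_mul, mul_comm]
    simp only [mul_sub, Finset.sum_sub_distrib, h2, h3, sub_self])
  intro k
  have := sub_eq_zero.1 (congrFun hcc k)
  rw [this]
  exact (c' k).2

end FinAX

/-- the coefficients of the minimal polynomial lie in any subfield containing the traces of powers -/
theorem trace_descent {E D : Type} [Field E] [DivisionRing D] [Algebra E D] (τ : D →ₗ[E] E)
    (hτ : τ 1 = 1) (a : D) (ha : IsAlgebraic E a) (K : Subfield E) (hK : ∀ k : ℕ, τ (a ^ k) ∈ K) :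
    ∃ (n : ℕ) (c : Fin n → E), (∀ k, c k ∈ K) ∧ a ^ n = ∑ k, c k • a ^ (k : ℕ) := by
  classical
  have hi : IsIntegral E a := ha.isIntegral
  have hmon : (minpoly E a).Monic := minpoly.monic hi
  have hinj := FinAX.gram_inj τ hτ a hi
  have hrel : a ^ (minpoly E a).natDegree =
      ∑ k : Fin (minpoly E a).natDegree, (-(minpoly E a).coeff k) • a ^ (k : ℕ) := by
    have h0 := minpoly.aeval E a
    rw [Polynomial.aeval_eq_sum_range, Finset.sum_range_succ, hmon.coeff_natDegree, one_smul,
      ← Fin.sum_univ_eq_sum_range (fun i => (minpoly E a).coeff i • a ^ i)] at h0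
    simp only [neg_smul, Finset.sum_neg_distrib]
    exact eq_neg_of_add_eq_zero_right h0
  exact ⟨(minpoly E a).natDegree, fun k => -(minpoly E a).coeff k,
    FinAX.coef_mem τ a K hK _ hinj _ hrel, hrel⟩

/-- a subring closed under an algebraic relation is closed under inverses -/
theorem inv_mem_of_rel {E D : Type} [Field E] [DivisionRing D] [Algebra E D] (K : Subfield E)
    (A : Subring D) (hKA : ∀ c ∈ K, algebraMap E D c ∈ A) (a : D) (ha : a ∈ A)
    (n : ℕ) (c : Fin n → E) (hc : ∀ k, c k ∈ K) (h : a ^ n = ∑ k, c k • a ^ (k : ℕ)) :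
    a⁻¹ ∈ A := by
  by_cases h0 : a = 0
  · rw [h0, inv_zero]; exact A.zero_mem
  have hsm : ∀ e ∈ K, ∀ x ∈ A, e • x ∈ A := by
    intro e he x hx
    rw [Algebra.smul_def]; exact A.mul_mem (hKA e he) hx
  induction n with
  | zero => simp at h
  | succ n ih =>
    rw [Fin.sum_univ_succ] at h
    have h1 : a * (a ^ n - ∑ k : Fin n, c k.succ • a ^ (k : ℕ)) = c 0 • (1 : D) := by
      rw [mul_sub, ← pow_succ', h, Finset.mul_sum]
      simp only [Fin.val_zero, pow_zero, Fin.val_succ, mul_smul_comm, ← pow_succ']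
      abel
    by_cases hc0 : c 0 = 0
    · rw [hc0, zero_smul, mul_eq_zero] at h1
      exact ih (fun k => c k.succ) (fun k => hc _) (sub_eq_zero.1 (h1.resolve_left h0))
    · have h2 : a⁻¹ = (c 0)⁻¹ • (a ^ n - ∑ k : Fin n, c k.succ • a ^ (k : ℕ)) := by
        apply inv_eq_of_mul_eq_one_right
        rw [mul_smul_comm, h1, smul_smul, inv_mul_cancel₀ hc0, one_smul]
      rw [h2]
      refine hsm _ (K.inv_mem (hc 0)) _ (A.sub_mem (A.pow_mem ha _) (A.sum_mem fun k _ => ?_))
      exact hsm _ (hc _) _ (A.pow_mem ha _)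

end Crest.Agent.R180
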