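import Crest.Agent.R180.GrA0
/-! Graded Noetherian modules. -/
set_option autoImplicit false
open scoped BigOperators
namespace Crest.Agent.R180
variable {κ : Type} [Fintype κ] [DecidableEq κ] {ι : Type} [Fintype ι] [DecidableEq ι]
  {δ : ι → κ → ℤ} {V : Type} [AddCommGroup V] [Module ℚ V] [Module (SS ι) V]
  [IsScalarTower ℚ (SS ι) V]

namespace GrAX

theorem C_smul (c : ℚ) (v : V) : (MvPolynomial.C c : SS ι) • v = c • v := by
  rw [← MvPolynomial.algebraMap_eq, algebraMap_smul]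

/-- the submodule of vectors all of whose components lie in a stable family -/
def sub (Γ : Gr δ V) (T : (κ → ℤ) → Submodule ℚ V)
    (hst : ∀ i, Stab (mulX V i) (δ i) T) : Submodule (SS ι) V where
  carrier := {v | ∀ g, Γ.comp g v ∈ T g}
  add_mem' := by
    intro a b ha hb g
    rw [map_add]
    exact (T g).add_mem (ha g) (hb g)
  zero_mem' := by
    intro g
    rw [map_zero]
    exact (T g).zero_mem
  smul_mem' := by
    intro F
    induction F using MvPolynomial.induction_on with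
    | C c =>
      intro v hv g
      rw [C_smul, map_smul]
      exact (T g).smul_mem c (hv g)
    | add p q hp hq =>
      intro v hv g
      rw [add_smul, map_add]
      exact (T g).add_mem (hp hv g) (hq hv g)
    | mul_X p i hp =>
      intro v hv
      rw [mul_smul]
      refine hp ?_
      intro g
      have hg : g = (g - δ i) + δ i := by abel
      rw [hg, Γ.comp_smul _ (δ i) (g - δ i) (MvPolynomial.isWeightedHomogeneous_X ℚ δ i)]
      exact hst i _ _ (hv _)

theorem mem_sub (Γ : Gr δ V) (T : (κ → ℤ) → Submodule ℚ V)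
    (hst : ∀ i, Stab (mulX V i) (δ i) T) (v : V) :
    v ∈ sub Γ T hst ↔ ∀ g, Γ.comp g v ∈ T g := Iff.rfl

theorem mem_sub_of_part (Γ : Gr δ V) (T : (κ → ℤ) → Submodule ℚ V)
    (hst : ∀ i, Stab (mulX V i) (δ i) T) (g : κ → ℤ) (v : V) (hv : v ∈ Γ.part g) :
    v ∈ sub Γ T hst ↔ v ∈ T g := by
  rw [mem_sub]
  constructor
  · intro h
    have := h g
    rwa [Γ.comp_of_mem g v hv] at this
  · intro h g'
    by_cases hg : g' = g
    · subst hg
      rwa [Γ.comp_of_mem _ v hv]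
    · rw [Γ.comp_of_ne g g' v hv hg]
      exact (T g').zero_mem

/-- multiplication by a polynomial as a `ℚ`-linear operator -/
noncomputable def mulF (V : Type) [AddCommGroup V] [Module ℚ V] [Module (SS ι) V]
    [IsScalarTower ℚ (SS ι) V] (F : SS ι) : V →ₗ[ℚ] V where
  toFun v := F • v
  map_add' a b := smul_add _ a b
  map_smul' c a := by simp [smul_comm F c a]

theorem mulF_apply (F : SS ι) (v : V) : mulF V F v = F • v := rfl

theorem mem_fam (Γ : Gr δ V) (N : Submodule (SS ι) V) (g : κ → ℤ) (v : V) :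
    v ∈ Γ.fam N g ↔ v ∈ N ∧ v ∈ Γ.part g := Iff.rfl

end GrAX

/-- ACC: any chain of families inside the graded pieces, stable under all variables, stabilises -/
theorem Gr.acc [IsNoetherian (SS ι) V] (Γ : Gr δ V) (T : ℕ → (κ → ℤ) → Submodule ℚ V)
    (hT : Monotone T) (hle : ∀ n g, T n g ≤ Γ.part g)
    (hst : ∀ n i, Stab (mulX V i) (δ i) (T n)) : ∃ n, ∀ m, n ≤ m → T m = T n := by
  let N : ℕ →o Submodule (SS ι) V :=
    ⟨fun n => GrAX.sub Γ (T n) (hst n), fun a b hab v hv g => hT hab g (hv g)⟩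
  obtain ⟨n, hn⟩ := (monotone_stabilizes_iff_noetherian.2 ‹IsNoetherian (SS ι) V›) N
  refine ⟨n, fun m hm => ?_⟩
  funext g
  refine le_antisymm ?_ (hT hm g)
  intro v hv
  have hp : v ∈ Γ.part g := hle m g hv
  have h1 : v ∈ N m := (GrAX.mem_sub_of_part Γ (T m) (hst m) g v hp).2 hv
  rw [← hn m hm] at h1
  exact (GrAX.mem_sub_of_part Γ (T n) (hst n) g v hp).1 h1
/-- Hilbert–Serre, with only the variables in `s` when the others kill `N' / N` -/
theorem Gr.gen [IsNoetherian (SS ι) V] (Γ : Gr δ V) {N N' : Submodule (SS ι) V} (hN : N ≤ N')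
    (s : Finset ι) (hs : ∀ i, i ∉ s → ∀ v ∈ N', (MvPolynomial.X i : SS ι) • v ∈ N) :
    Gen s δ (DF s δ (Γ.h N N')) := by
  refine Crest.Agent.R180.hs s δ (mulX V) ?_ (Γ.fam N) (Γ.fam N') ?_ ?_ ?_ ?_ ?_
  · intro i j
    left
    intro v
    show (MvPolynomial.X i : SS ι) • (MvPolynomial.X j : SS ι) • v =
      (MvPolynomial.X j : SS ι) • (MvPolynomial.X i : SS ι) • v
    rw [← mul_smul, ← mul_smul, mul_comm]
  · intro g
    haveI := Γ.fd g
    exact Submodule.finiteDimensional_of_le (inf_le_right : Γ.fam N' g ≤ Γ.part g)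
  · intro g v hv
    exact ⟨hN hv.1, hv.2⟩
  · intro i _
    exact Γ.fam_stab N i
  · intro i _
    exact Γ.fam_stab N' i
  · intro T hmono hb hst
    refine Γ.acc T hmono (fun n g v hv => ((hb n).2 g hv).2) ?_
    intro n i
    by_cases hi : i ∈ s
    · exact hst n i hi
    · intro g v hv
      have h1 := (hb n).2 g hv
      refine (hb n).1 _ ⟨hs i hi v h1.1, ?_⟩
      exact Γ.smul_mem _ _ _ _ (MvPolynomial.isWeightedHomogeneous_X ℚ δ i) h1.2
/-- a homogeneous nonzerodivisor on `N' / N` -/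
theorem Gr.h_nzd (Γ : Gr δ V) {N N' : Submodule (SS ι) V} (hN : N ≤ N') (h : Γ.Hom N)
    (h' : Γ.Hom N') (F : SS ι) (γ : κ → ℤ) (hF : MvPolynomial.IsWeightedHomogeneous δ F γ)
    (hinj : ∀ v ∈ N', F • v ∈ N → v ∈ N) :
    Γ.h (N ⊔ N'.map (LinearMap.lsmul (SS ι) V F)) N' = Dl γ (Γ.h N N') := by
  have key := hf_inj (GrAX.mulF V F) γ (Γ.fam N) (Γ.fam N')
    (fun g => by
      haveI := Γ.fd g
      exact Submodule.finiteDimensional_of_le (inf_le_right : Γ.fam N' g ≤ Γ.part g))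
    (fun g v hv => ⟨hN hv.1, hv.2⟩)
    (fun g v hv => ⟨N.smul_mem F hv.1, Γ.smul_mem F γ g v hF hv.2⟩)
    (fun g v hv => ⟨N'.smul_mem F hv.1, Γ.smul_mem F γ g v hF hv.2⟩)
    (fun g v hv hz => ⟨hinj v hv.1 hz.1, hv.2⟩)
  have e : Γ.fam (N ⊔ N'.map (LinearMap.lsmul (SS ι) V F)) =
      fun g => Γ.fam N g ⊔ (Γ.fam N' (g - γ)).map (GrAX.mulF V F) := by
    funext g
    ext v
    rw [GrAX.mem_fam]
    constructor
    · rintro ⟨hv, hp⟩
      obtain ⟨a, ha, b, hb, rfl⟩ := Submodule.mem_sup.1 hv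
      obtain ⟨w, hw, rfl⟩ := Submodule.mem_map.1 hb
      rw [← Γ.comp_of_mem g _ hp, map_add]
      refine Submodule.add_mem_sup ⟨h a ha g, Γ.comp_mem g a⟩ ?_
      refine Submodule.mem_map.2 ⟨Γ.comp (g - γ) w, ⟨h' w hw _, Γ.comp_mem _ w⟩, ?_⟩
      have hg : g = (g - γ) + γ := by abel
      rw [GrAX.mulF_apply, LinearMap.lsmul_apply, ← Γ.comp_smul F γ (g - γ) hF w, ← hg]
    · intro hv
      obtain ⟨a, ha, b, hb, rfl⟩ := Submodule.mem_sup.1 hv
      obtain ⟨w, hw, rfl⟩ := Submodule.mem_map.1 hb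
      refine ⟨Submodule.add_mem_sup ha.1 (Submodule.mem_map.2 ⟨w, hw.1, rfl⟩), ?_⟩
      refine (Γ.part g).add_mem ha.2 ?_
      have := Γ.smul_mem F γ (g - γ) w hF hw.2
      rwa [sub_add_cancel] at this
  unfold Gr.h
  rw [e]
  exact key

end Crest.Agent.R180
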