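import Crest.Agent.R180.OrdA
/-! Orders and leading coefficients. -/
set_option autoImplicit false
open scoped BigOperators
namespace Crest.Agent.R180
variable {κ : Type} [Fintype κ] [DecidableEq κ] {ι : Type} [DecidableEq ι]

namespace OrdH27

/-- the invariant of the induction -/
def Good (Q : OO κ → Prop) (p : PowerSeries (OO κ)) : Prop :=
  p = 0 ∨ ∃ o, OrdGe p o ∧
    0 < (-1) ^ o * MvPolynomial.eval (fun _ => (1 : ℤ)) (PowerSeries.coeff o p) ∧
    (o ≠ 0 → Q (PowerSeries.coeff o p))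

omit [Fintype κ] [DecidableEq κ] in
theorem good_add_lt {Q : OO κ → Prop} {p q : PowerSeries (OO κ)} {o o' : ℕ} (hlt : o < o')
    (hp : OrdGe p o)
    (hp1 : 0 < (-1) ^ o * MvPolynomial.eval (fun _ => (1 : ℤ)) (PowerSeries.coeff o p))
    (hp2 : o ≠ 0 → Q (PowerSeries.coeff o p)) (hq : OrdGe q o') : Good Q (p + q) := by
  have e : PowerSeries.coeff o (p + q) = PowerSeries.coeff o p := by
    rw [map_add, hq o hlt, add_zero]
  refine Or.inr ⟨o, ?_, ?_, ?_⟩
  · intro i hi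
    rw [map_add, hp i hi, hq i (hi.trans hlt), add_zero]
  · rw [e]; exact hp1
  · rw [e]; exact hp2

omit [Fintype κ] [DecidableEq κ] in
theorem good_add {Q : OO κ → Prop} (hQ : ∀ a b, Q a → Q b → Q (a + b))
    {p q : PowerSeries (OO κ)} (hp : Good Q p) (hq : Good Q q) : Good Q (p + q) := by
  rcases hp with hp | ⟨o, hp, hp1, hp2⟩
  · rw [hp, zero_add]; exact hq
  rcases hq with hq | ⟨o', hq, hq1, hq2⟩
  · rw [hq, add_zero]; exact Or.inr ⟨o, hp, hp1, hp2⟩
  rcases lt_trichotomy o o' with h | h | h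
  · exact good_add_lt h hp hp1 hp2 hq
  · subst h
    refine Or.inr ⟨o, ?_, ?_, ?_⟩
    · intro i hi
      rw [map_add, hp i hi, hq i hi, add_zero]
    · rw [map_add, map_add, mul_add]
      exact add_pos hp1 hq1
    · intro h0
      rw [map_add]
      exact hQ _ _ (hp2 h0) (hq2 h0)
  · rw [add_comm]
    exact good_add_lt h hq hq1 hq2 hp

omit [DecidableEq κ] in
theorem eval_lin (γ : κ → ℤ) :
    MvPolynomial.eval (fun _ => (1 : ℤ)) (lin γ) = ∑ l, γ l := by
  unfold lin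
  rw [map_sum]
  refine Finset.sum_congr rfl fun l _ => ?_
  rw [map_zsmul, MvPolynomial.eval_X, smul_eq_mul, mul_one]

omit [DecidableEq κ] in
theorem sum_pos_of {γ : κ → ℤ} (h0 : ∀ l, 0 ≤ γ l) (h1 : γ ≠ 0) : 0 < ∑ l, γ l := by
  obtain ⟨l, hl⟩ := Function.ne_iff.1 h1
  exact Finset.sum_pos' (fun l _ => h0 l) ⟨l, Finset.mem_univ _, lt_of_le_of_ne (h0 l) (Ne.symm hl)⟩

theorem good_base (Q : OO κ → Prop) {K : (κ → ℤ) → ℤ} (hK : (Function.support K).Finite)
    (h0 : ∀ g, 0 ≤ K g) : Good Q (PhiK K) := by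
  by_cases hz : K = 0
  · left
    subst hz
    simp [PhiK]
  right
  have e : PhiK K = ∑ g ∈ hK.toFinset, K g • phi g := by
    unfold PhiK
    apply finsum_eq_sum_of_support_subset
    intro g hg
    simp only [Set.Finite.coe_toFinset]
    intro h
    apply hg
    simp [h]
  refine ⟨0, fun i hi => absurd hi (Nat.not_lt_zero _), ?_, fun h => absurd rfl h⟩
  rw [pow_zero, one_mul, e, map_sum, map_sum]
  obtain ⟨g, hg⟩ := Function.ne_iff.1 hz
  have hv : ∀ g, MvPolynomial.eval (fun _ => (1 : ℤ)) (PowerSeries.coeff 0 (K g • phi g)) = K g := by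
    intro g
    rw [map_zsmul, coeff_zero_phi, map_zsmul, map_one, smul_eq_mul, mul_one]
  simp only [hv]
  refine Finset.sum_pos' (fun g _ => h0 g) ⟨g, ?_, lt_of_le_of_ne (h0 g) (Ne.symm hg)⟩
  simpa using hg

theorem good_gen {Q : OO κ → Prop} (hQ : ∀ a b, Q a → Q b → Q (a + b)) {s : Finset ι}
    {δ : ι → κ → ℤ} (hδ : PosW δ) (hQ' : ∀ i ∈ s, ∀ c, Q (- lin (δ i) * c))
    {K : (κ → ℤ) → ℤ} (h : Gen s δ K) : Good Q (PhiK K) := by
  induction h with
  | base K hK h0 => exact good_base Q hK h0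
  | add K L hK hL ihK ihL =>
    rw [PhiK_add hK.finite hL.finite]
    exact good_add hQ ihK ihL
  | diff K i hi hK ih =>
    rw [PhiK_Dl hK.finite]
    rcases ih with ih | ⟨o, h1, h2, _⟩
    · left; rw [ih, mul_zero]
    obtain ⟨e1, e2⟩ := h1.one_sub (δ i)
    refine Or.inr ⟨o + 1, e1, ?_, fun _ => ?_⟩
    · rw [e2, map_mul, map_neg, eval_lin, pow_succ]
      have := mul_pos (sum_pos_of (hδ i).1 (hδ i).2) h2
      linarith
    · rw [e2]; exact hQ' i hi _

omit [Fintype κ] [DecidableEq κ] in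
theorem ne_zero_of_pos {o : ℕ} {c : OO κ}
    (h : 0 < (-1) ^ o * MvPolynomial.eval (fun _ => (1 : ℤ)) c) : c ≠ 0 := by
  rintro rfl
  simp at h

omit [Fintype κ] [DecidableEq κ] in
theorem ordGe_of_add {p q : PowerSeries (OO κ)} (hp : Good (fun _ => True) p)
    (hq : Good (fun _ => True) q) {o : ℕ} (h : OrdGe (p + q) o) : OrdGe p o := by
  rcases hp with hp | ⟨a, hp, hp1, -⟩
  · intro i _
    rw [hp, map_zero]
  by_cases hao : o ≤ a
  · exact fun i hi => hp i (lt_of_lt_of_le hi hao)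
  exfalso
  replace hao := not_le.1 hao
  rcases hq with hq | ⟨b, hq, hq1, -⟩
  · rw [hq, add_zero] at h
    exact ne_zero_of_pos hp1 (h a hao)
  rcases lt_trichotomy a b with hab | hab | hab
  · have := h a hao
    rw [map_add, hq a hab, add_zero] at this
    exact ne_zero_of_pos hp1 this
  · subst hab
    have h2 := add_pos hp1 hq1
    rw [← mul_add, ← map_add, ← map_add] at h2
    exact ne_zero_of_pos h2 (h a hao)
  · have := h b (hab.trans hao)
    rw [map_add, hp b hab, zero_add] at this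
    exact ne_zero_of_pos hq1 this

end OrdH27

/-- positivity of the leading form at `τ = (1,…,1)` -/
theorem Gen.pos {s : Finset ι} {δ : ι → κ → ℤ} (hδ : PosW δ) {K : (κ → ℤ) → ℤ} (h : Gen s δ K) :
    PhiK K = 0 ∨ ∃ o, OrdGe (PhiK K) o ∧
      0 < (-1) ^ o * MvPolynomial.eval (fun _ => (1 : ℤ)) (PowerSeries.coeff o (PhiK K)) := by
  rcases OrdH27.good_gen (Q := fun _ => True) (fun _ _ _ _ => trivial) hδ
    (fun _ _ _ => trivial) h with h0 | ⟨o, h1, h2, -⟩
  · exact Or.inl h0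
  · exact Or.inr ⟨o, h1, h2⟩
/-- the order of a sum is the minimum of the orders -/
theorem Gen.ord_of_add {s : Finset ι} {δ : ι → κ → ℤ} (hδ : PosW δ) {K L : (κ → ℤ) → ℤ}
    (hK : Gen s δ K) (hL : Gen s δ L) {o : ℕ} (h : OrdGe (PhiK (K + L)) o) :
    OrdGe (PhiK K) o ∧ OrdGe (PhiK L) o := by
  have gK := OrdH27.good_gen (Q := fun _ => True) (fun _ _ _ _ => trivial) hδ
    (fun _ _ _ => trivial) hK
  have gL := OrdH27.good_gen (Q := fun _ => True) (fun _ _ _ _ => trivial) hδ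
    (fun _ _ _ => trivial) hL
  rw [PhiK_add hK.finite hL.finite] at h
  refine ⟨OrdH27.ordGe_of_add gK gL h, OrdH27.ordGe_of_add gL gK ?_⟩
  rw [add_comm]; exact h
/-- if all operators have degrees killed by `σ`, leading forms of positive order are killed -/
theorem Gen.sigma {O' : Type} [CommRing O'] (σ : OO κ →+* O') {s : Finset ι} {δ : ι → κ → ℤ}
    (hδ : PosW δ) (hσ : ∀ i ∈ s, σ (lin (δ i)) = 0) {K : (κ → ℤ) → ℤ} (h : Gen s δ K) {o : ℕ}
    (ho : OrdGe (PhiK K) (o + 1)) : σ (PowerSeries.coeff (o + 1) (PhiK K)) = 0 := by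
  have g := OrdH27.good_gen (Q := fun c => σ c = 0)
    (fun a b ha hb => by rw [map_add, ha, hb, add_zero]) hδ
    (fun i hi c => by rw [map_mul, map_neg, hσ i hi, neg_zero, zero_mul]) h
  rcases g with h0 | ⟨a, h1, h2, h3⟩
  · rw [h0, map_zero, map_zero]
  rcases lt_trichotomy a (o + 1) with hlt | heq | hgt
  · exact absurd (ho a hlt) (OrdH27.ne_zero_of_pos h2)
  · subst heq
    exact h3 (Nat.succ_ne_zero o)
  · rw [h1 _ hgt, map_zero]

end Crest.Agent.R180
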