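import Crest.Agent.R180.HS
import Crest.Agent.R180.Ord
/-! Graded Noetherian modules. -/
set_option autoImplicit false
open scoped BigOperators
namespace Crest.Agent.R180
variable {κ : Type} [Fintype κ] [DecidableEq κ] {ι : Type} [Fintype ι] [DecidableEq ι]
  {δ : ι → κ → ℤ} {V : Type} [AddCommGroup V] [Module ℚ V] [Module (SS ι) V]
  [IsScalarTower ℚ (SS ι) V]

theorem Gr.comp_smul (Γ : Gr δ V) (F : SS ι) (γ g : κ → ℤ)
    (hF : MvPolynomial.IsWeightedHomogeneous δ F γ) (v : V) :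
    Γ.comp (g + γ) (F • v) = F • Γ.comp g v := by
  classical
  have hv : v = ∑ g' ∈ (Γ.fin_supp v).toFinset, Γ.comp g' v := by
    rw [← finsum_eq_sum _ (Γ.fin_supp v)]
    exact (Γ.sum_comp v).symm
  have h1 : Γ.comp (g + γ) (F • v) =
      ∑ g' ∈ (Γ.fin_supp v).toFinset, Γ.comp (g + γ) (F • Γ.comp g' v) := by
    conv_lhs => rw [hv]
    rw [Finset.smul_sum, map_sum]
  rw [h1, Finset.sum_eq_single g]
  · exact Γ.comp_of_mem _ _ (Γ.smul_mem F γ g _ hF (Γ.comp_mem g v))
  · intro g' _ hg'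
    refine Γ.comp_of_ne (g' + γ) (g + γ) _ (Γ.smul_mem F γ g' _ hF (Γ.comp_mem g' v)) ?_
    intro h
    exact hg' (add_right_cancel h).symm
  · intro hg
    have : Γ.comp g v = 0 := by
      by_contra h
      exact hg ((Set.Finite.mem_toFinset _).2 h)
    rw [this, smul_zero, map_zero]
theorem Gr.hom_top (Γ : Gr δ V) : Γ.Hom ⊤ := by
  intro v _ g
  exact Submodule.mem_top
theorem Gr.hom_sup (Γ : Gr δ V) {N N' : Submodule (SS ι) V} (h : Γ.Hom N) (h' : Γ.Hom N') :
    Γ.Hom (N ⊔ N') := by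
  intro v hv g
  obtain ⟨a, ha, b, hb, rfl⟩ := Submodule.mem_sup.1 hv
  rw [map_add]
  exact Submodule.add_mem_sup (h a ha g) (h' b hb g)
theorem Gr.hom_span (Γ : Gr δ V) (t : Set V) (ht : ∀ v ∈ t, ∃ g, v ∈ Γ.part g) :
    Γ.Hom (Submodule.span (SS ι) t) := by
  classical
  intro v hv
  induction hv using Submodule.span_induction with
  | mem x hx =>
    intro g
    obtain ⟨g', hg'⟩ := ht x hx
    by_cases h : g = g'
    · subst h
      rw [Γ.comp_of_mem _ _ hg']
      exact Submodule.subset_span hx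
    · rw [Γ.comp_of_ne g' g x hg' h]
      exact Submodule.zero_mem _
  | zero => intro g; rw [map_zero]; exact Submodule.zero_mem _
  | add x y _ _ hx hy => intro g; rw [map_add]; exact Submodule.add_mem _ (hx g) (hy g)
  | smul F x _ hx =>
    intro g
    have hF : F = ∑ γ ∈ (MvPolynomial.weightedHomogeneousComponent_finsupp (w := δ) F).toFinset,
        MvPolynomial.weightedHomogeneousComponent δ γ F := by
      rw [← finsum_eq_sum _ (MvPolynomial.weightedHomogeneousComponent_finsupp (w := δ) F)]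
      exact (MvPolynomial.sum_weightedHomogeneousComponent δ F).symm
    rw [hF, Finset.sum_smul, map_sum]
    refine Submodule.sum_mem _ fun γ _ => ?_
    have hg : g = (g - γ) + γ := by abel
    rw [hg, Γ.comp_smul _ γ (g - γ)
      (MvPolynomial.weightedHomogeneousComponent_isWeightedHomogeneous γ F)]
    exact Submodule.smul_mem _ _ (hx _)
theorem Gr.h_add (Γ : Gr δ V) (N N' N'' : Submodule (SS ι) V) :
    Γ.h N N'' = Γ.h N N' + Γ.h N' N'' := by
  funext g
  simp only [Gr.h, hf, Pi.add_apply]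
  ring
theorem Gr.fam_stab (Γ : Gr δ V) (N : Submodule (SS ι) V) (i : ι) :
    Stab (mulX V i) (δ i) (Γ.fam N) := by
  intro g v hv
  obtain ⟨h1, h2⟩ := Submodule.mem_inf.1 hv
  refine Submodule.mem_inf.2 ⟨?_, ?_⟩
  · exact N.smul_mem (MvPolynomial.X i) h1
  · exact Γ.smul_mem _ _ _ _ (MvPolynomial.isWeightedHomogeneous_X ℚ δ i) h2

end Crest.Agent.R180
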