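import Crest.Agent.R180.HSA
/-! Hilbert–Serre for sign-commuting operators. -/
set_option autoImplicit false
open scoped BigOperators
namespace Crest.Agent.R180
variable {κ : Type} [Fintype κ] [DecidableEq κ] {ι : Type} [DecidableEq ι]
  {V : Type} [AddCommGroup V] [Module ℚ V]

namespace HSaux

theorem pow_comm (A B : V →ₗ[ℚ] V)
    (h : (∀ v, A (B v) = B (A v)) ∨ (∀ v, A (B v) = - B (A v))) (n : ℕ) :
    (∀ v, (A ^ n) (B v) = B ((A ^ n) v)) ∨ (∀ v, (A ^ n) (B v) = - B ((A ^ n) v)) := by
  induction n with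
  | zero => left; intro v; simp
  | succ n ih =>
    rcases h with h | h <;> rcases ih with ih | ih
    · left; intro v
      rw [pow_succ', Module.End.mul_apply, Module.End.mul_apply, ih, h]
    · right; intro v
      rw [pow_succ', Module.End.mul_apply, Module.End.mul_apply, ih, map_neg, h]
    · right; intro v
      rw [pow_succ', Module.End.mul_apply, Module.End.mul_apply, ih, h]
    · left; intro v
      rw [pow_succ', Module.End.mul_apply, Module.End.mul_apply, ih, map_neg, h, neg_neg]

/-- the saturation filtration -/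
def sat (A : V →ₗ[ℚ] V) (γ : κ → ℤ) (U W : (κ → ℤ) → Submodule ℚ V) (n : ℕ) :
    (κ → ℤ) → Submodule ℚ V :=
  fun g => W g ⊓ (U (g + n • γ)).comap (A ^ n)

omit [Fintype κ] [DecidableEq κ] in
theorem mem_sat {A : V →ₗ[ℚ] V} {γ : κ → ℤ} {U W : (κ → ℤ) → Submodule ℚ V} {n : ℕ}
    {g : κ → ℤ} {v : V} : v ∈ sat A γ U W n g ↔ v ∈ W g ∧ (A ^ n) v ∈ U (g + n • γ) := by
  simp [sat]

end HSaux

open HSaux in
theorem hs (s : Finset ι) (δ : ι → κ → ℤ) (Z : ι → V →ₗ[ℚ] V)
    (hcomm : ∀ i j, (∀ v, Z i (Z j v) = Z j (Z i v)) ∨ (∀ v, Z i (Z j v) = - Z j (Z i v)))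
    (U W : (κ → ℤ) → Submodule ℚ V) (hfd : ∀ g, FiniteDimensional ℚ (W g)) (hUW : U ≤ W)
    (hU : ∀ i ∈ s, Stab (Z i) (δ i) U) (hW : ∀ i ∈ s, Stab (Z i) (δ i) W)
    (hacc : Acc s δ Z U W) : Gen s δ (DF s δ (hf U W)) := by
  induction s using Finset.induction_on generalizing U W with
  | empty =>
    rw [DF_empty]
    exact hs_base δ Z U W hfd hUW hacc
  | insert i s hi ih =>
    have hsub : s ⊆ insert i s := Finset.subset_insert i s
    have hii : i ∈ insert i s := Finset.mem_insert_self i s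
    -- the killed case
    have killed : ∀ U' W' : (κ → ℤ) → Submodule ℚ V, U ≤ U' → U' ≤ W' → W' ≤ W →
        (∀ j ∈ s, Stab (Z j) (δ j) U') → (∀ j ∈ s, Stab (Z j) (δ j) W') →
        (∀ g, ∀ v ∈ W' g, Z i v ∈ U' (g + δ i)) → Gen s δ (DF s δ (hf U' W')) := by
      intro U' W' h1 h2 h3 hU' hW' hk
      refine ih U' W' (fun g => ?_) h2 hU' hW' ?_
      · haveI := hfd g
        exact Submodule.finiteDimensional_of_le (h3 g)
      · intro T hmono hb hst
        refine hacc T hmono (fun n => ⟨h1.trans (hb n).1, (hb n).2.trans h3⟩) ?_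
        intro n j hj
        rcases Finset.mem_insert.1 hj with rfl | hj
        · intro g v hv
          exact (hb n).1 _ (hk g v ((hb n).2 g hv))
        · exact hst n j hj
    set T : ℕ → (κ → ℤ) → Submodule ℚ V := sat (Z i) (δ i) U W with hT
    have hT0 : T 0 = U := by
      funext g
      ext v
      rw [hT, mem_sat]
      simp only [pow_zero, Module.End.one_apply, zero_smul, add_zero]
      exact ⟨fun h => h.2, fun h => ⟨hUW g h, h⟩⟩
    have hTsucc : ∀ n, T n ≤ T (n + 1) := by
      intro n g v hv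
      rw [hT, mem_sat] at hv ⊢
      refine ⟨hv.1, ?_⟩
      rw [pow_succ', Module.End.mul_apply, succ_nsmul, ← add_assoc]
      exact hU i hii _ _ hv.2
    have hTmono : Monotone T := monotone_nat_of_le_succ hTsucc
    have hTW : ∀ n, T n ≤ W := fun n g v hv => (mem_sat.1 hv).1
    have hUT : ∀ n, U ≤ T n := fun n => hT0 ▸ hTmono (Nat.zero_le n)
    have hTst : ∀ n, ∀ j ∈ insert i s, Stab (Z j) (δ j) (T n) := by
      intro n j hj g v hv
      rw [hT, mem_sat] at hv ⊢
      refine ⟨hW j hj g v hv.1, ?_⟩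
      have h1 : Z j ((Z i ^ n) v) ∈ U (g + δ j + n • δ i) := by
        have := hU j hj _ _ hv.2
        rwa [add_right_comm] at this
      rcases pow_comm (Z i) (Z j) (hcomm i j) n with h | h
      · rw [h]; exact h1
      · rw [h]; exact neg_mem h1
    have hTk : ∀ n g, ∀ v ∈ W g, v ∈ T (n + 1) g ↔ Z i v ∈ T n (g + δ i) := by
      intro n g v hv
      rw [hT, mem_sat, mem_sat, pow_succ, Module.End.mul_apply, succ_nsmul', ← add_assoc]
      exact ⟨fun h => ⟨hW i hii g v hv, h.2⟩, fun h => ⟨hv, h.2⟩⟩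
    obtain ⟨J, hJ⟩ := hacc T hTmono (fun n => ⟨hUT n, hTW n⟩) hTst
    have hlow : ∀ n, Gen (insert i s) δ (DF (insert i s) δ (hf U (T n))) := by
      intro n
      induction n with
      | zero =>
        rw [hT0]
        have h0 : hf U U = 0 := by funext g; simp [hf]
        have h1 : DF (insert i s) δ (0 : (κ → ℤ) → ℤ) = 0 := by funext g; simp [DF]
        rw [h0, h1]
        exact Gen.zero _ _
      | succ n ihn =>
        rw [hf_add U (T n) (T (n + 1)), DF_add]
        refine Gen.add _ _ ihn ?_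
        rw [DF_insert s i hi]
        refine Gen.diff _ i hii (Gen.mono hsub ?_)
        refine killed (T n) (T (n + 1)) (hUT n) (hTsucc n) (hTW _)
          (fun j hj => hTst n j (hsub hj)) (fun j hj => hTst (n + 1) j (hsub hj)) ?_
        intro g v hv
        exact (hTk n g v (hTW _ g hv)).1 hv
    have hinj : ∀ g, ∀ v ∈ W g, Z i v ∈ T J (g + δ i) → v ∈ T J g := by
      intro g v hv h
      have := (hTk J g v hv).2 h
      rwa [hJ (J + 1) (Nat.le_succ J)] at this
    have hQ := hf_inj (Z i) (δ i) (T J) W hfd (hTW J) (hTst J i hii) (hW i hii) hinj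
    rw [hf_add U (T J) W, DF_add]
    refine Gen.add _ _ (hlow J) ?_
    rw [DF_insert s i hi, ← DF_Dl, ← hQ]
    refine Gen.mono hsub (killed _ W ?_ ?_ le_rfl ?_ (fun j hj => hW j (hsub hj)) ?_)
    · intro g
      exact (hUT J g).trans le_sup_left
    · intro g
      refine sup_le (hTW J g) ?_
      rintro _ ⟨w, hw, rfl⟩
      have := hW i hii _ _ hw
      rwa [sub_add_cancel] at this
    · intro j hj g v hv
      obtain ⟨a, ha, b, hb, rfl⟩ := Submodule.mem_sup.1 hv
      obtain ⟨w, hw, rfl⟩ := hb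
      rw [map_add]
      refine Submodule.add_mem _ (Submodule.mem_sup_left (hTst J j (hsub hj) g a ha)) ?_
      refine Submodule.mem_sup_right ?_
      have h1 : Z j w ∈ W (g + δ j - δ i) := by
        have := hW j (hsub hj) _ _ hw
        rwa [sub_add_eq_add_sub] at this
      rcases hcomm j i with h | h
      · rw [h]; exact Submodule.mem_map_of_mem h1
      · rw [h]; exact neg_mem (Submodule.mem_map_of_mem h1)
    · intro g v hv
      refine Submodule.mem_sup_right (Submodule.mem_map_of_mem ?_)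
      rwa [add_sub_cancel_right]

end Crest.Agent.R180
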