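import Crest.Agent.R180.Phi
/-! Hilbert–Serre for sign-commuting operators. -/
set_option autoImplicit false
set_option linter.unusedSectionVars false
open scoped BigOperators
namespace Crest.Agent.R180
variable {κ : Type} [Fintype κ] [DecidableEq κ] {ι : Type} [DecidableEq ι]
  {V : Type} [AddCommGroup V] [Module ℚ V]

namespace HSA

theorem rk_map (Z : V →ₗ[ℚ] V) (S : Submodule ℚ V) [FiniteDimensional ℚ S] :
    Module.finrank ℚ (S.map Z) + Module.finrank ℚ (S ⊓ LinearMap.ker Z : Submodule ℚ V)
      = Module.finrank ℚ S := by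
  have h := LinearMap.finrank_range_add_finrank_ker (Z.domRestrict S)
  rw [LinearMap.range_domRestrict, LinearMap.ker_domRestrict] at h
  rw [← Submodule.map_comap_subtype, Submodule.finrank_map_subtype_eq]
  exact h

end HSA

theorem hf_add (U T W : (κ → ℤ) → Submodule ℚ V) : hf U W = hf U T + hf T W := by
  funext g
  simp only [hf, Pi.add_apply]
  ring

theorem hs_base (δ : ι → κ → ℤ) (Z : ι → V →ₗ[ℚ] V) (U W : (κ → ℤ) → Submodule ℚ V)
    (hfd : ∀ g, FiniteDimensional ℚ (W g)) (hUW : U ≤ W) (hacc : Acc ∅ δ Z U W) :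
    Gen ∅ δ (hf U W) := by
  classical
  refine Gen.base _ ?_ ?_
  · by_contra hinf
    have hinf' : (Function.support (hf U W)).Infinite := hinf
    let e := hinf'.natEmbedding
    let T : ℕ → (κ → ℤ) → Submodule ℚ V := fun n g =>
      if ∃ k < n, (e k : κ → ℤ) = g then W g else U g
    have hmono : Monotone T := by
      intro n m hnm g
      simp only [T]
      by_cases h1 : ∃ k < n, (e k : κ → ℤ) = g
      · have h2 : ∃ k < m, (e k : κ → ℤ) = g := by
          obtain ⟨k, hk, hk'⟩ := h1
          exact ⟨k, lt_of_lt_of_le hk hnm, hk'⟩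
        rw [if_pos h1, if_pos h2]
      · rw [if_neg h1]
        split_ifs
        · exact hUW g
        · exact le_rfl
    have hbd : ∀ n, U ≤ T n ∧ T n ≤ W := by
      intro n
      constructor
      · intro g
        simp only [T]
        split_ifs
        · exact hUW g
        · exact le_rfl
      · intro g
        simp only [T]
        split_ifs
        · exact le_rfl
        · exact hUW g
    obtain ⟨n, hn⟩ := hacc T hmono hbd (fun n i hi => absurd hi (Finset.notMem_empty i))
    have h1 := congrFun (hn (n + 1) (Nat.le_succ n)) (e n : κ → ℤ)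
    have hp : ∃ k < n + 1, (e k : κ → ℤ) = e n := ⟨n, Nat.lt_succ_self n, rfl⟩
    have hq : ¬ ∃ k < n, (e k : κ → ℤ) = e n := by
      rintro ⟨k, hk, hk'⟩
      have := e.injective (Subtype.ext hk')
      omega
    simp only [T] at h1
    rw [if_pos hp, if_neg hq] at h1
    have h2 := (e n).2
    rw [Function.mem_support] at h2
    apply h2
    simp only [hf]
    rw [h1]
    ring
  · intro g
    haveI := hfd g
    have := Submodule.finrank_mono (hUW g)
    simp only [hf]
    omega

/-- if `Z` is injective on `W / T` then `h(W / (T + Z W)) = (1 - t^γ) h(W / T)` -/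
theorem hf_inj (Z : V →ₗ[ℚ] V) (γ : κ → ℤ) (T W : (κ → ℤ) → Submodule ℚ V)
    (hfd : ∀ g, FiniteDimensional ℚ (W g)) (hTW : T ≤ W) (hT : Stab Z γ T) (hW : Stab Z γ W)
    (hinj : ∀ g, ∀ v ∈ W g, Z v ∈ T (g + γ) → v ∈ T g) :
    hf (fun g => T g ⊔ (W (g - γ)).map Z) W = Dl γ (hf T W) := by
  funext g
  haveI := hfd g
  haveI := hfd (g - γ)
  haveI : FiniteDimensional ℚ (T g) := Submodule.finiteDimensional_of_le (hTW g)
  haveI : FiniteDimensional ℚ (T (g - γ)) := Submodule.finiteDimensional_of_le (hTW (g - γ))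
  have h1 := Submodule.finrank_sup_add_finrank_inf_eq (T g) ((W (g - γ)).map Z)
  have h2 := HSA.rk_map Z (W (g - γ))
  have h3 := HSA.rk_map Z (T (g - γ))
  have e1 : T g ⊓ (W (g - γ)).map Z = (T (g - γ)).map Z := by
    apply le_antisymm
    · rintro x ⟨hx, v, hv, rfl⟩
      exact ⟨v, hinj _ v hv (by rw [sub_add_cancel]; exact hx), rfl⟩
    · rintro x ⟨v, hv, rfl⟩
      refine ⟨?_, v, hTW _ hv, rfl⟩
      have := hT _ v hv
      rwa [sub_add_cancel] at this
  have e2 : W (g - γ) ⊓ LinearMap.ker Z = T (g - γ) ⊓ LinearMap.ker Z := by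
    apply le_antisymm
    · rintro v ⟨hv, hz⟩
      refine ⟨hinj _ v hv ?_, hz⟩
      have hz' : Z v = 0 := hz
      rw [hz']
      exact zero_mem _
    · exact inf_le_inf_right _ (hTW _)
  rw [e1] at h1
  rw [e2] at h2
  simp only [hf, Dl]
  omega

end Crest.Agent.R180
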