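import Crest.Agent.R180.GrA
/-! Homogeneous ideals of the weighted polynomial ring. -/
set_option autoImplicit false
open scoped BigOperators
namespace Crest.Agent.R180
variable {κ : Type} [Fintype κ] [DecidableEq κ] {ι : Type} [Fintype ι] [DecidableEq ι]
  {δ : ι → κ → ℤ}

theorem fd_whom (hδ : PosW δ) (g : κ → ℤ) :
    FiniteDimensional ℚ (MvPolynomial.weightedHomogeneousSubmodule ℚ δ g) := by
  classical
  set w : ι → ℕ := fun i => (∑ l, δ i l).toNat with hw
  have hnn : ∀ i, 0 ≤ ∑ l, δ i l := fun i => Finset.sum_nonneg fun l _ => (hδ i).1 l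
  have hw0 : ∀ i, w i ≠ 0 := by
    intro i h0
    have h1 : ∑ l, δ i l = 0 := by
      have := Int.toNat_of_nonneg (hnn i)
      simp only [hw] at h0
      rw [h0] at this
      simpa using this.symm
    apply (hδ i).2
    funext l
    exact (Finset.sum_eq_zero_iff_of_nonneg fun l _ => (hδ i).1 l).1 h1 l (Finset.mem_univ l)
  have hfg := MvPolynomial.weightedHomogeneousSubmodule_fg (R := ℚ) w hw0 (∑ l, g l).toNat
  have hle : MvPolynomial.weightedHomogeneousSubmodule ℚ δ g ≤
      MvPolynomial.weightedHomogeneousSubmodule ℚ w (∑ l, g l).toNat := by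
    intro p hp d hd
    have h1 : Finsupp.weight δ d = g := hp hd
    rw [Finsupp.weight_eq_sum] at h1 ⊢
    have h2 : ((∑ i, d i • w i : ℕ) : ℤ) = ∑ l, g l := by
      rw [← h1]
      push_cast
      simp only [Finset.sum_apply, Pi.smul_apply, smul_eq_mul, nsmul_eq_mul]
      rw [Finset.sum_comm]
      refine Finset.sum_congr rfl fun i _ => ?_
      have e : ∀ x, ((d i : κ → ℤ) * δ i) x = (d i : ℤ) * δ i x := fun x => rfl
      simp only [e]
      rw [← Finset.mul_sum]
      simp only [hw]
      push_cast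
      rw [Int.toNat_of_nonneg (hnn i)]
    rw [← h2, Int.toNat_natCast]
  haveI : FiniteDimensional ℚ (MvPolynomial.weightedHomogeneousSubmodule ℚ w (∑ l, g l).toNat) :=
    Module.Finite.iff_fg.2 hfg
  exact Submodule.finiteDimensional_of_le hle

/-- the grading of the polynomial ring itself -/
noncomputable def grS (hδ : PosW δ) : Gr δ (SS ι) where
  part g := MvPolynomial.weightedHomogeneousSubmodule ℚ δ g
  comp g := MvPolynomial.weightedHomogeneousComponent δ g
  comp_mem := fun g v => MvPolynomial.weightedHomogeneousComponent_mem δ v g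
  comp_of_mem := fun _ _ hv => MvPolynomial.weightedHomogeneousComponent_eq_self hv
  comp_of_ne := by
    intro g g' v hv hne
    classical
    rw [MvPolynomial.weightedHomogeneousComponent_of_mem hv, if_neg hne]
  fin_supp := fun v => MvPolynomial.weightedHomogeneousComponent_finsupp v
  sum_comp := fun v => MvPolynomial.sum_weightedHomogeneousComponent δ v
  fd := fd_whom hδ
  smul_mem := by
    intro F γ g v hF hv
    have hv' : MvPolynomial.IsWeightedHomogeneous δ v g := hv
    have := hF.mul hv'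
    rw [add_comm] at this
    exact this

/-- K-polynomial of `S / I` as a power series -/
noncomputable def KI (hδ : PosW δ) (I : Ideal (SS ι)) : PowerSeries (OO κ) :=
  PhiK (DF Finset.univ δ ((grS hδ).h I ⊤))

def Good (hδ : PosW δ) {O' : Type} [CommRing O'] (σ : OO κ →+* O') (I : Ideal (SS ι)) (o : ℕ) :
    Prop :=
  OrdGe (KI hδ I) o ∧ σ (PowerSeries.coeff o (KI hδ I)) ≠ 0

namespace IdAaux

theorem exists_part (hδ : PosW δ) (I : Ideal (SS ι)) (F : SS ι) (hF : F ∉ I) :
    ∃ A : Finset (κ → ℤ), A.Nonempty ∧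
      (∀ a ∈ A, MvPolynomial.weightedHomogeneousComponent δ a F ∉ I) ∧
      F - ∑ a ∈ A, MvPolynomial.weightedHomogeneousComponent δ a F ∈ I := by
  classical
  have hfin := MvPolynomial.weightedHomogeneousComponent_finsupp (w := δ) F
  have hsum := MvPolynomial.sum_weightedHomogeneousComponent δ F
  rw [finsum_eq_sum _ hfin] at hsum
  set S := hfin.toFinset with hS
  have hsplit := Finset.sum_filter_add_sum_filter_not S
    (fun a => MvPolynomial.weightedHomogeneousComponent δ a F ∉ I)
    (fun a => MvPolynomial.weightedHomogeneousComponent δ a F)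
  have hmem : F - ∑ a ∈ S.filter (fun a => MvPolynomial.weightedHomogeneousComponent δ a F ∉ I),
      MvPolynomial.weightedHomogeneousComponent δ a F ∈ I := by
    have : F - ∑ a ∈ S.filter (fun a => MvPolynomial.weightedHomogeneousComponent δ a F ∉ I),
        MvPolynomial.weightedHomogeneousComponent δ a F =
        ∑ a ∈ S.filter (fun a => ¬ (MvPolynomial.weightedHomogeneousComponent δ a F ∉ I)),
        MvPolynomial.weightedHomogeneousComponent δ a F := by
      rw [sub_eq_iff_eq_add', hsplit, hsum]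
    rw [this]
    refine I.sum_mem fun a ha => ?_
    have := (Finset.mem_filter.1 ha).2
    exact not_not.1 this
  refine ⟨S.filter (fun a => MvPolynomial.weightedHomogeneousComponent δ a F ∉ I), ?_, ?_, hmem⟩
  · by_contra hne
    rw [Finset.not_nonempty_iff_eq_empty] at hne
    rw [hne] at hmem
    simp only [Finset.sum_empty, sub_zero] at hmem
    exact hF hmem
  · intro a ha
    exact (Finset.mem_filter.1 ha).2

end IdAaux

/-- a homogeneous ideal that is prime on homogeneous elements is prime (use `UniqueSums`) -/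
theorem isPrime_of_hom (hδ : PosW δ) (I : Ideal (SS ι)) (hI : (grS hδ).Hom I) (hne : I ≠ ⊤)
    (h : ∀ (F F' : SS ι) γ γ', MvPolynomial.IsWeightedHomogeneous δ F γ →
      MvPolynomial.IsWeightedHomogeneous δ F' γ' → F * F' ∈ I → F ∈ I ∨ F' ∈ I) : I.IsPrime := by
  classical
  refine ⟨hne, fun {F F'} hFF => ?_⟩
  by_contra hcon
  push Not at hcon
  obtain ⟨A, hA, hA1, hA2⟩ := IdAaux.exists_part hδ I F hcon.1
  obtain ⟨B, hB, hB1, hB2⟩ := IdAaux.exists_part hδ I F' hcon.2
  obtain ⟨a0, ha0, b0, hb0, hu⟩ := UniqueSums.uniqueAdd_of_nonempty hA hB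
  set F0 := ∑ a ∈ A, MvPolynomial.weightedHomogeneousComponent δ a F with hF0
  set F1 := ∑ a ∈ B, MvPolynomial.weightedHomogeneousComponent δ a F' with hF1
  have hprod : F0 * F1 ∈ I := by
    have : F0 * F1 = F * F' - (F - F0) * F' - F0 * (F' - F1) := by ring
    rw [this]
    exact I.sub_mem (I.sub_mem hFF (I.mul_mem_right _ hA2)) (I.mul_mem_left _ hB2)
  have hc : MvPolynomial.weightedHomogeneousComponent δ (a0 + b0) (F0 * F1) ∈ I :=
    hI _ hprod (a0 + b0)
  have hhom : ∀ a b, MvPolynomial.weightedHomogeneousComponent δ a F *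
      MvPolynomial.weightedHomogeneousComponent δ b F' ∈
        MvPolynomial.weightedHomogeneousSubmodule ℚ δ (a + b) := fun a b =>
    (MvPolynomial.weightedHomogeneousComponent_isWeightedHomogeneous a F).mul
      (MvPolynomial.weightedHomogeneousComponent_isWeightedHomogeneous b F')
  have heq : MvPolynomial.weightedHomogeneousComponent δ (a0 + b0) (F0 * F1) =
      MvPolynomial.weightedHomogeneousComponent δ a0 F *
        MvPolynomial.weightedHomogeneousComponent δ b0 F' := by
    rw [hF0, hF1, Finset.sum_mul_sum, map_sum, Finset.sum_eq_single a0, map_sum,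
      Finset.sum_eq_single b0]
    · rw [MvPolynomial.weightedHomogeneousComponent_of_mem (hhom a0 b0), if_pos rfl]
    · intro b hb hne'
      rw [MvPolynomial.weightedHomogeneousComponent_of_mem (hhom a0 b), if_neg]
      intro he
      exact hne' (hu ha0 hb he.symm).2
    · intro hn; exact absurd hb0 hn
    · intro a ha hne'
      rw [map_sum]
      refine Finset.sum_eq_zero fun b hb => ?_
      rw [MvPolynomial.weightedHomogeneousComponent_of_mem (hhom a b), if_neg]
      intro he
      exact hne' (hu ha hb he.symm).1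
    · intro hn; exact absurd ha0 hn
  rw [heq] at hc
  rcases h _ _ a0 b0 (MvPolynomial.weightedHomogeneousComponent_isWeightedHomogeneous a0 F)
    (MvPolynomial.weightedHomogeneousComponent_isWeightedHomogeneous b0 F') hc with h1 | h1
  · exact hA1 a0 ha0 h1
  · exact hB1 b0 hb0 h1

theorem hom_colon (hδ : PosW δ) (I : Ideal (SS ι)) (hI : (grS hδ).Hom I) (F : SS ι) (γ : κ → ℤ)
    (hF : MvPolynomial.IsWeightedHomogeneous δ F γ) :
    (grS hδ).Hom (Submodule.comap (LinearMap.lsmul (SS ι) (SS ι) F) I) := by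
  intro v hv g
  have hv' : F • v ∈ I := hv
  have := hI _ hv' (g + γ)
  rw [(grS hδ).comp_smul F γ g hF v] at this
  exact this

/-- `h(S / I) = t^γ h(S / (I : F)) + h(S / (I + F))` -/
theorem h_colon (hδ : PosW δ) (I : Ideal (SS ι)) (hI : (grS hδ).Hom I) (F : SS ι) (γ : κ → ℤ)
    (hF : MvPolynomial.IsWeightedHomogeneous δ F γ) :
    (grS hδ).h I (I ⊔ Ideal.span {F}) =
      fun g => (grS hδ).h (Submodule.comap (LinearMap.lsmul (SS ι) (SS ι) F) I) ⊤ (g - γ) := by
  classical
  funext g
  by_cases hF0 : F = 0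
  · subst hF0
    have h1 : I ⊔ Ideal.span {(0 : SS ι)} = I := by simp
    have h2 : Submodule.comap (LinearMap.lsmul (SS ι) (SS ι) 0) I = ⊤ := by
      ext v; simp
    rw [h1, h2]
    simp [Gr.h, hf]
  set Γ := grS hδ with hΓ
  let m : SS ι →ₗ[ℚ] SS ι := LinearMap.mulLeft ℚ F
  have hm : Function.Injective m := fun a b hab => mul_left_cancel₀ hF0 hab
  have hmv : ∀ v, m v = F • v := fun v => rfl
  have hg : g - γ + γ = g := sub_add_cancel g γ
  set J := Γ.fam I g with hJ
  set K := (Γ.part (g - γ)).map m with hK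
  have hKle : K ≤ Γ.part g := by
    rintro _ ⟨v, hv, rfl⟩
    have := Γ.smul_mem F γ (g - γ) v hF hv
    rwa [hg] at this
  have hsup : Γ.fam (I ⊔ Ideal.span {F}) g = J ⊔ K := by
    apply le_antisymm
    · rintro v ⟨hv1, hv2⟩
      have hv1' : v ∈ I ⊔ Ideal.span {F} := hv1
      obtain ⟨a, ha, b, hb, rfl⟩ := Submodule.mem_sup.1 hv1'
      obtain ⟨c, rfl⟩ := Ideal.mem_span_singleton'.1 hb
      have e1 : Γ.comp g (a + c * F) = a + c * F := Γ.comp_of_mem g _ hv2
      have e2 : Γ.comp g (c * F) = F • Γ.comp (g - γ) c := by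
        have := Γ.comp_smul F γ (g - γ) hF c
        rw [hg] at this
        rw [← this, smul_eq_mul, mul_comm]
      rw [← e1, map_add, e2]
      refine Submodule.add_mem_sup ⟨hI a ha g, Γ.comp_mem g a⟩ ⟨_, Γ.comp_mem _ c, rfl⟩
    · refine sup_le ?_ ?_
      · rintro v ⟨hv1, hv2⟩
        exact ⟨Submodule.mem_sup_left hv1, hv2⟩
      · intro v hv
        refine ⟨?_, hKle hv⟩
        obtain ⟨c, -, rfl⟩ := hv
        refine Submodule.mem_sup_right (Ideal.mem_span_singleton'.2 ⟨c, ?_⟩)
        rw [hmv, smul_eq_mul, mul_comm]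
  have hinf : J ⊓ K =
      (Γ.fam (Submodule.comap (LinearMap.lsmul (SS ι) (SS ι) F) I) (g - γ)).map m := by
    apply le_antisymm
    · rintro _ ⟨⟨hv1, -⟩, ⟨c, hc, rfl⟩⟩
      exact ⟨c, ⟨hv1, hc⟩, rfl⟩
    · rintro _ ⟨c, ⟨hc1, hc2⟩, rfl⟩
      have hk : m c ∈ K := ⟨c, hc2, rfl⟩
      exact ⟨⟨hc1, hKle hk⟩, hk⟩
  haveI := Γ.fd g
  haveI : FiniteDimensional ℚ J := Submodule.finiteDimensional_of_le (inf_le_right : J ≤ Γ.part g)
  haveI : FiniteDimensional ℚ K := Submodule.finiteDimensional_of_le hKle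
  have hdim := Submodule.finrank_sup_add_finrank_inf_eq J K
  have hK' : Module.finrank ℚ K = Module.finrank ℚ (Γ.part (g - γ)) :=
    (Submodule.equivMapOfInjective m hm _).finrank_eq.symm
  have hI' : Module.finrank ℚ ↥(J ⊓ K) = Module.finrank ℚ
      (Γ.fam (Submodule.comap (LinearMap.lsmul (SS ι) (SS ι) F) I) (g - γ)) := by
    rw [hinf]
    exact (Submodule.equivMapOfInjective m hm _).finrank_eq.symm
  have htop : Γ.fam ⊤ (g - γ) = Γ.part (g - γ) := by
    simp [Gr.fam]
  simp only [Gr.h, hf]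
  rw [hsup, htop, ← hJ, ← hK', ← hI']
  have : (Module.finrank ℚ ↥(J ⊔ K) : ℤ) + Module.finrank ℚ ↥(J ⊓ K) =
      Module.finrank ℚ J + Module.finrank ℚ K := by exact_mod_cast hdim
  linarith

end Crest.Agent.R180
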