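import Crest.Agent.R180.IdB0
/-! Cutting by equations. -/
set_option autoImplicit false
open scoped BigOperators
namespace Crest.Agent.R180
variable {κ : Type} [Fintype κ] [DecidableEq κ] {ι : Type} [Fintype ι] [DecidableEq ι]
  {δ : ι → κ → ℤ}

namespace IdBAux

theorem fin_KI (hδ : PosW δ) (I : Ideal (SS ι)) :
    (Function.support (DF Finset.univ δ ((grS hδ).h I ⊤))).Finite :=
  (Gr.gen (grS hδ) (N := I) (N' := ⊤) le_top Finset.univ (fun i hi => absurd (Finset.mem_univ i) hi)).finite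

theorem hom_cut (hδ : PosW δ) (p : Ideal (SS ι)) (hI : (grS hδ).Hom p) (F : SS ι) (γ : κ → ℤ)
    (hF : MvPolynomial.IsWeightedHomogeneous δ F γ) : (grS hδ).Hom (p ⊔ Ideal.span {F}) := by
  refine Gr.hom_sup (grS hδ) hI (Gr.hom_span (grS hδ) {F} ?_)
  intro v hv
  rw [Set.mem_singleton_iff] at hv
  subst hv
  exact ⟨γ, (MvPolynomial.mem_weightedHomogeneousSubmodule ℚ δ γ v).2 hF⟩

theorem KI_cut (hδ : PosW δ) (p : Ideal (SS ι)) (hI : (grS hδ).Hom p) (hp : p.IsPrime)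
    (F : SS ι) (γ : κ → ℤ) (hF : MvPolynomial.IsWeightedHomogeneous δ F γ) (hFp : F ∉ p) :
    KI hδ (p ⊔ Ideal.span {F}) = (1 - phi γ) * KI hδ p := by
  unfold KI
  rw [h_cut hδ p hI hp F γ hF hFp, DF_Dl, PhiK_Dl (fin_KI hδ p)]

end IdBAux

theorem cut_one (hδ : PosW δ) {O' : Type} [CommRing O'] [IsDomain O'] (σ : OO κ →+* O')
    (p : Ideal (SS ι)) (hI : (grS hδ).Hom p) (hp : p.IsPrime) (o : ℕ) (hg : Good hδ σ p o)
    (F : SS ι) (γ : κ → ℤ) (hF : MvPolynomial.IsWeightedHomogeneous δ F γ) (hγ : σ (lin γ) ≠ 0)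
    (hFp : F ∉ p) :
    ∃ q : Ideal (SS ι), p ≤ q ∧ F ∈ q ∧ (grS hδ).Hom q ∧ q.IsPrime ∧ Good hδ σ q (o + 1) := by
  have hgood : Good hδ σ (p ⊔ Ideal.span {F}) (o + 1) := by
    unfold Good
    rw [IdBAux.KI_cut hδ p hI hp F γ hF hFp]
    obtain ⟨h1, h2⟩ := OrdGe.one_sub hg.1 γ
    refine ⟨h1, ?_⟩
    rw [h2, map_mul, map_neg]
    exact mul_ne_zero (neg_ne_zero.2 hγ) hg.2
  obtain ⟨q, hq1, hq2, hq3, hq4⟩ :=
    exists_prime_good hδ σ _ (IdBAux.hom_cut hδ p hI F γ hF) (o + 1) hgood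
  refine ⟨q, le_sup_left.trans hq1, hq1 ?_, hq2, hq3, hq4⟩
  exact (le_sup_right : Ideal.span {F} ≤ p ⊔ Ideal.span {F}) (Ideal.subset_span rfl)

/-- cutting by a finite family of equations whose degrees survive `σ` -/
theorem cut_many (hδ : PosW δ) {O' : Type} [CommRing O'] [IsDomain O'] (σ : OO κ →+* O')
    {α : Type} (t : Finset α) (F : α → SS ι) (γ : α → κ → ℤ)
    (hF : ∀ a ∈ t, MvPolynomial.IsWeightedHomogeneous δ (F a) (γ a))
    (hγ : ∀ a ∈ t, σ (lin (γ a)) ≠ 0)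
    (p : Ideal (SS ι)) (hI : (grS hδ).Hom p) (hp : p.IsPrime) (o : ℕ) (hg : Good hδ σ p o) :
    ∃ (q : Ideal (SS ι)) (o' : ℕ), p ≤ q ∧ (∀ a ∈ t, F a ∈ q) ∧ (grS hδ).Hom q ∧ q.IsPrime ∧
      o' ≤ o + t.card ∧ Good hδ σ q o' := by
  classical
  induction t using Finset.induction_on with
  | empty => exact ⟨p, o, le_rfl, by simp, hI, hp, by simp, hg⟩
  | insert a t ha ih =>
    obtain ⟨q, o', h1, h2, h3, h4, h5, h6⟩ :=
      ih (fun b hb => hF b (Finset.mem_insert_of_mem hb))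
        (fun b hb => hγ b (Finset.mem_insert_of_mem hb))
    rw [Finset.card_insert_of_notMem ha]
    by_cases hq : F a ∈ q
    · refine ⟨q, o', h1, ?_, h3, h4, by omega, h6⟩
      intro b hb
      rcases Finset.mem_insert.1 hb with rfl | hb
      · exact hq
      · exact h2 b hb
    · obtain ⟨q', k1, k2, k3, k4, k5⟩ := cut_one hδ σ q h3 h4 o' h6 (F a) (γ a)
        (hF a (Finset.mem_insert_self a t)) (hγ a (Finset.mem_insert_self a t)) hq
      refine ⟨q', o' + 1, h1.trans k1, ?_, k3, k4, by omega, k5⟩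
      intro b hb
      rcases Finset.mem_insert.1 hb with rfl | hb
      · exact k2
      · exact k1 (h2 b hb)

end Crest.Agent.R180
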