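import Crest.Agent.R180.IdA
/-! Cutting by equations. -/
set_option autoImplicit false
open scoped BigOperators
namespace Crest.Agent.R180
variable {κ : Type} [Fintype κ] [DecidableEq κ] {ι : Type} [Fintype ι] [DecidableEq ι]
  {δ : ι → κ → ℤ}

namespace IdB0X

theorem PhiK_zero : PhiK (0 : (κ → ℤ) → ℤ) = 0 := by
  simp [PhiK]

theorem h_self (hδ : PosW δ) (I : Ideal (SS ι)) : (grS hδ).h I I = 0 := by
  funext g
  simp [Gr.h, hf]

theorem DF_zero (s : Finset ι) : DF s δ (0 : (κ → ℤ) → ℤ) = 0 := by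
  funext g
  simp [DF]

theorem gen_top (hδ : PosW δ) (s : Finset ι) {I I' : Ideal (SS ι)} (h : I ≤ I')
    (hs : ∀ i, i ∉ s → (MvPolynomial.X i : SS ι) ∈ I) :
    Gen s δ (DF s δ ((grS hδ).h I I')) :=
  (grS hδ).gen h s (fun i hi v _ => by
    rw [smul_eq_mul]; exact I.mul_mem_right v (hs i hi))

theorem map_top (F : SS ι) :
    (⊤ : Submodule (SS ι) (SS ι)).map (LinearMap.lsmul (SS ι) (SS ι) F) = Ideal.span {F} := by
  ext v
  simp only [Submodule.mem_map, Submodule.mem_top, true_and, LinearMap.lsmul_apply, smul_eq_mul,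
    Ideal.mem_span_singleton']
  constructor
  · rintro ⟨a, ha⟩; exact ⟨a, by rw [mul_comm]; exact ha⟩
  · rintro ⟨a, ha⟩; exact ⟨a, by rw [mul_comm]; exact ha⟩

theorem hom_sup_span (hδ : PosW δ) (I : Ideal (SS ι)) (hI : (grS hδ).Hom I) (F : SS ι)
    (γ : κ → ℤ) (hF : MvPolynomial.IsWeightedHomogeneous δ F γ) :
    (grS hδ).Hom (I ⊔ Ideal.span {F}) := by
  refine (grS hδ).hom_sup hI ((grS hδ).hom_span {F} ?_)
  intro v hv
  rw [Set.mem_singleton_iff] at hv
  subst hv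
  exact ⟨γ, hF⟩

end IdB0X
open IdB0X

theorem KI_top (hδ : PosW δ) : KI hδ (⊤ : Ideal (SS ι)) = 0 := by
  rw [KI, h_self, DF_zero, PhiK_zero]

/-- monotonicity of the order, with only the variables of `s` if the others lie in `I` -/
theorem ord_mono (hδ : PosW δ) (s : Finset ι) {I I' : Ideal (SS ι)} (h : I ≤ I')
    (hs : ∀ i, i ∉ s → (MvPolynomial.X i : SS ι) ∈ I) {o : ℕ}
    (ho : OrdGe (PhiK (DF s δ ((grS hδ).h I ⊤))) o) :
    OrdGe (PhiK (DF s δ ((grS hδ).h I' ⊤))) o := by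
  rw [(grS hδ).h_add I I' ⊤, DF_add] at ho
  exact (Gen.ord_of_add hδ (gen_top hδ s h hs)
    (gen_top hδ s le_top (fun i hi => h (hs i hi))) ho).2

/-- cutting a prime by a homogeneous element outside it -/
theorem h_cut (hδ : PosW δ) (I : Ideal (SS ι)) (hI : (grS hδ).Hom I) (hp : I.IsPrime) (F : SS ι)
    (γ : κ → ℤ) (hF : MvPolynomial.IsWeightedHomogeneous δ F γ) (hFI : F ∉ I) :
    (grS hδ).h (I ⊔ Ideal.span {F}) ⊤ = Dl γ ((grS hδ).h I ⊤) := by
  have := (grS hδ).h_nzd (N := I) (N' := ⊤) le_top hI (grS hδ).hom_top F γ hF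
    (fun v _ hv => by
      rw [smul_eq_mul] at hv
      exact (hp.mem_or_mem hv).resolve_left hFI)
  rw [IdB0X.map_top] at this
  exact this

/-- a good homogeneous ideal is contained in a good homogeneous prime (Noetherian induction) -/
theorem exists_prime_good (hδ : PosW δ) {O' : Type} [CommRing O'] (σ : OO κ →+* O')
    (I : Ideal (SS ι)) (hI : (grS hδ).Hom I) (o : ℕ) (hg : Good hδ σ I o) :
    ∃ q : Ideal (SS ι), I ≤ q ∧ (grS hδ).Hom q ∧ q.IsPrime ∧ Good hδ σ q o := by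
  induction I using IsNoetherian.induction with
  | _ I ih =>
  by_cases hp : Ideal.IsPrime I
  · exact ⟨I, le_rfl, hI, hp, hg⟩
  have hne : I ≠ ⊤ := by
    rintro rfl
    apply hg.2
    rw [KI_top]; simp
  have hex : ∃ (F F' : SS ι) (γ γ' : κ → ℤ), MvPolynomial.IsWeightedHomogeneous δ F γ ∧
      MvPolynomial.IsWeightedHomogeneous δ F' γ' ∧ F * F' ∈ I ∧ F ∉ I ∧ F' ∉ I := by
    by_contra hcon
    apply hp
    refine isPrime_of_hom hδ I hI hne ?_
    intro F F' γ γ' h1 h2 h3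
    by_contra h4
    rw [not_or] at h4
    exact hcon ⟨F, F', γ, γ', h1, h2, h3, h4.1, h4.2⟩
  obtain ⟨F, F', γ, γ', hF, -, hFF, hFI, hFI'⟩ := hex
  set J : Ideal (SS ι) := Submodule.comap (LinearMap.lsmul (SS ι) (SS ι) F) I with hJ
  set J' : Ideal (SS ι) := I ⊔ Ideal.span {F} with hJ'
  have hIJ : I < J := by
    refine lt_of_le_of_ne (fun v hv => ?_) (fun h => hFI' ?_)
    · show F • v ∈ I
      exact I.smul_mem F hv
    · rw [h]; exact hFF
  have hIJ' : I < J' := by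
    refine lt_of_le_of_ne le_sup_left (fun h => hFI ?_)
    rw [h]
    exact Submodule.mem_sup_right (Ideal.mem_span_singleton_self F)
  have hu : ∀ (K : Ideal (SS ι)) (i : ι), i ∉ (Finset.univ : Finset ι) →
      (MvPolynomial.X i : SS ι) ∈ K := fun K i hi => absurd (Finset.mem_univ i) hi
  have gJ : Gen Finset.univ δ (DF Finset.univ δ ((grS hδ).h J ⊤)) :=
    gen_top hδ Finset.univ le_top (hu J)
  have gJ' : Gen Finset.univ δ (DF Finset.univ δ ((grS hδ).h J' ⊤)) :=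
    gen_top hδ Finset.univ le_top (hu J')
  have gS := gJ.shift γ
  have hdec : DF Finset.univ δ ((grS hδ).h I ⊤) =
      (fun g => DF Finset.univ δ ((grS hδ).h J ⊤) (g - γ)) + DF Finset.univ δ ((grS hδ).h J' ⊤) := by
    rw [(grS hδ).h_add I J' ⊤, DF_add, hJ', h_colon hδ I hI F γ hF, DF_shift]
  have hK : KI hδ I = phi γ * KI hδ J + KI hδ J' := by
    rw [KI, hdec, PhiK_add gS.finite gJ'.finite, PhiK_shift gJ.finite]
    rfl
  have ho : OrdGe (PhiK ((fun g => DF Finset.univ δ ((grS hδ).h J ⊤) (g - γ)) +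
      DF Finset.univ δ ((grS hδ).h J' ⊤))) o := by
    rw [← hdec]; exact hg.1
  obtain ⟨o1, o2⟩ := Gen.ord_of_add hδ gS gJ' ho
  rw [PhiK_shift gJ.finite] at o1
  have o1' : OrdGe (KI hδ J) o :=
    OrdGe.of_mul (q := phi γ) (by rw [coeff_zero_phi]; exact one_ne_zero) o1
  have hc : PowerSeries.coeff o (KI hδ I) =
      PowerSeries.coeff o (KI hδ J) + PowerSeries.coeff o (KI hδ J') := by
    rw [hK, map_add, (o1'.mul_left (phi γ)).2, coeff_zero_phi, one_mul]
  by_cases h1 : σ (PowerSeries.coeff o (KI hδ J)) = 0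
  · have h2 : σ (PowerSeries.coeff o (KI hδ J')) ≠ 0 := by
      intro h2
      apply hg.2
      rw [hc, map_add, h1, h2, add_zero]
    obtain ⟨q, hq, hq'⟩ := ih J' hIJ' (hom_sup_span hδ I hI F γ hF) ⟨o2, h2⟩
    exact ⟨q, hIJ'.le.trans hq, hq'⟩
  · obtain ⟨q, hq, hq'⟩ := ih J hIJ (hom_colon hδ I hI F γ hF) ⟨o1', h1⟩
    exact ⟨q, hIJ.le.trans hq, hq'⟩

end Crest.Agent.R180
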