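import Crest.Agent.R180.IdB
/-! The start, the fixed locus, and the dimension bound. -/
set_option autoImplicit false
open scoped BigOperators
namespace Crest.Agent.R180
variable {κ : Type} [Fintype κ] [DecidableEq κ] {ι : Type} [Fintype ι] [DecidableEq ι]
  {δ : ι → κ → ℤ}

/-- the ideal generated by the variables in `t` -/
noncomputable def varI (t : Finset ι) : Ideal (SS ι) :=
  Ideal.span ((fun i => (MvPolynomial.X i : SS ι)) '' (t : Set ι))

theorem varI_eq_ker (t : Finset ι) : varI t = RingHom.ker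
    (MvPolynomial.aeval (R := ℚ) (fun i => if i ∈ t then (0 : SS ι) else MvPolynomial.X i)) := by
  apply le_antisymm
  · unfold varI
    rw [Ideal.span_le]
    rintro _ ⟨i, hi, rfl⟩
    have hi' : i ∈ t := Finset.mem_coe.1 hi
    simp [RingHom.mem_ker, hi']
  · have key : ∀ F : SS ι, F - MvPolynomial.aeval (R := ℚ)
        (fun i => if i ∈ t then (0 : SS ι) else MvPolynomial.X i) F ∈ varI t := by
      intro F
      induction F using MvPolynomial.induction_on with
      | C c => simp
      | add p q hp hq =>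
        rw [map_add, add_sub_add_comm]
        exact Ideal.add_mem _ hp hq
      | mul_X p i hp =>
        rw [map_mul, MvPolynomial.aeval_X]
        by_cases hi : i ∈ t
        · rw [if_pos hi, mul_zero, sub_zero]
          exact Ideal.mul_mem_left _ _ (Ideal.subset_span ⟨i, Finset.mem_coe.2 hi, rfl⟩)
        · rw [if_neg hi, ← sub_mul]
          exact Ideal.mul_mem_right _ _ hp
    intro F hF
    have h := key F
    rw [RingHom.mem_ker] at hF
    rwa [hF, sub_zero] at h
theorem varI_prime (t : Finset ι) : (varI t).IsPrime := by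
  rw [varI_eq_ker]
  exact RingHom.ker_isPrime _
theorem varI_hom (hδ : PosW δ) (t : Finset ι) : (grS hδ).Hom (varI t) := by
  refine Gr.hom_span (grS hδ) _ ?_
  rintro _ ⟨i, -, rfl⟩
  exact ⟨δ i, (MvPolynomial.mem_weightedHomogeneousSubmodule ℚ δ (δ i) _).2
    (MvPolynomial.isWeightedHomogeneous_X ℚ δ i)⟩
theorem X_mem_varI (t : Finset ι) (i : ι) : (MvPolynomial.X i : SS ι) ∈ varI t ↔ i ∈ t := by
  rw [varI_eq_ker, RingHom.mem_ker, MvPolynomial.aeval_X]
  by_cases hi : i ∈ t
  · simp [hi]
  · simp [hi, MvPolynomial.X_ne_zero]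

namespace IdCAux

theorem varI_empty : varI (∅ : Finset ι) = ⊥ := by
  simp [varI]

theorem varI_insert (t : Finset ι) (i : ι) :
    varI (insert i t) = varI t ⊔ Ideal.span {(MvPolynomial.X i : SS ι)} := by
  unfold varI
  rw [Finset.coe_insert, Set.image_insert_eq, Ideal.span_insert, sup_comm]

theorem h_varI (hδ : PosW δ) (t : Finset ι) :
    (grS hδ).h (varI t) ⊤ = DF t δ ((grS hδ).h (⊥ : Ideal (SS ι)) ⊤) := by
  induction t using Finset.induction_on with
  | empty => rw [varI_empty, DF_empty]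
  | insert i t hi ih =>
    rw [varI_insert, h_cut hδ (varI t) (varI_hom hδ t) (varI_prime t) _ (δ i)
      (MvPolynomial.isWeightedHomogeneous_X ℚ δ i) (fun h => hi ((X_mem_varI t i).1 h)),
      DF_insert t i hi, ih]

theorem weight_eq_zero (hδ : PosW δ) (d : ι →₀ ℕ) (h : Finsupp.weight δ d = 0) : d = 0 := by
  by_contra hd
  obtain ⟨i, hi⟩ : ∃ i, d i ≠ 0 := by
    by_contra hh
    push Not at hh
    exact hd (Finsupp.ext hh)
  obtain ⟨l, hl⟩ : ∃ l, δ i l ≠ 0 := by
    by_contra hh
    push Not at hh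
    exact (hδ i).2 (funext hh)
  have h1 : 0 < δ i l := lt_of_le_of_ne ((hδ i).1 l) (Ne.symm hl)
  have h2 := congrFun h l
  rw [Finsupp.weight_apply, Finsupp.sum, Finset.sum_apply] at h2
  have h3 : (d i • δ i) l ≤ ∑ j ∈ d.support, (d j • δ j) l :=
    Finset.single_le_sum (f := fun j => (d j • δ j) l)
      (fun j _ => by
        simp only [Pi.smul_apply, nsmul_eq_mul]
        exact mul_nonneg (Nat.cast_nonneg _) ((hδ j).1 l))
      (Finsupp.mem_support_iff.2 hi)
  rw [h2] at h3
  simp only [Pi.smul_apply, nsmul_eq_mul, Pi.zero_apply] at h3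
  have h4 : (0 : ℤ) < (d i : ℤ) * δ i l :=
    mul_pos (by exact_mod_cast Nat.pos_of_ne_zero hi) h1
  omega

theorem mem_varI_univ (F : SS ι) :
    F ∈ varI (Finset.univ : Finset ι) ↔ MvPolynomial.coeff 0 F = 0 := by
  have : varI (Finset.univ : Finset ι) =
      Ideal.span (MvPolynomial.X '' (Set.univ : Set ι) : Set (SS ι)) := by
    simp [varI]
  rw [this, MvPolynomial.mem_ideal_span_X_image]
  constructor
  · intro h
    by_contra h0
    obtain ⟨i, -, hi⟩ := h 0 (MvPolynomial.mem_support_iff.2 h0)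
    exact hi rfl
  · intro h m hm
    by_contra hh
    push Not at hh
    have hm0 : m = 0 := Finsupp.ext fun i => hh i (Set.mem_univ i)
    subst hm0
    exact MvPolynomial.mem_support_iff.1 hm h

theorem eq_C (hδ : PosW δ) (F : SS ι) (hF : MvPolynomial.IsWeightedHomogeneous δ F 0) :
    F = MvPolynomial.C (MvPolynomial.coeff 0 F) := by
  ext d
  rw [MvPolynomial.coeff_C]
  by_cases hd : 0 = d
  · subst hd; simp
  · rw [if_neg hd]
    by_contra h
    exact hd (weight_eq_zero hδ d (hF h)).symm

theorem h_univ (hδ : PosW δ) :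
    (grS hδ).h (varI (Finset.univ : Finset ι)) ⊤ =
      Pi.single (M := fun _ => ℤ) (0 : κ → ℤ) 1 := by
  funext g
  have htop : (grS hδ).fam ⊤ g = MvPolynomial.weightedHomogeneousSubmodule ℚ δ g := by
    unfold Gr.fam
    rw [Submodule.restrictScalars_top, top_inf_eq]
    rfl
  by_cases hg : g = 0
  · subst hg
    have h1 : (grS hδ).fam (varI (Finset.univ : Finset ι)) 0 = ⊥ := by
      rw [eq_bot_iff]
      rintro F ⟨hF1, hF2⟩
      have h3 : MvPolynomial.coeff 0 F = 0 := (mem_varI_univ F).1 hF1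
      have h4 := eq_C hδ F ((MvPolynomial.mem_weightedHomogeneousSubmodule ℚ δ 0 F).1 hF2)
      rw [h3, map_zero] at h4
      exact (Submodule.mem_bot ℚ).2 h4
    have h2 : MvPolynomial.weightedHomogeneousSubmodule ℚ δ (0 : κ → ℤ) =
        Submodule.span ℚ {(1 : SS ι)} := by
      apply le_antisymm
      · intro F hF
        have h4 := eq_C hδ F ((MvPolynomial.mem_weightedHomogeneousSubmodule ℚ δ 0 F).1 hF)
        rw [Submodule.mem_span_singleton]
        exact ⟨MvPolynomial.coeff 0 F, by rw [MvPolynomial.smul_eq_C_mul, mul_one]; exact h4.symm⟩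
      · rw [Submodule.span_le, Set.singleton_subset_iff]
        exact (MvPolynomial.mem_weightedHomogeneousSubmodule ℚ δ 0 _).2
          (MvPolynomial.isWeightedHomogeneous_one ℚ δ)
    simp only [Gr.h, hf]
    rw [htop, h1, h2, finrank_span_singleton (one_ne_zero), finrank_bot]
    simp
  · have h1 : (grS hδ).fam (varI (Finset.univ : Finset ι)) g =
        MvPolynomial.weightedHomogeneousSubmodule ℚ δ g := by
      apply le_antisymm
      · exact inf_le_right
      · intro F hF
        refine ⟨(mem_varI_univ F).2 ?_, hF⟩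
        by_contra h0
        have := (MvPolynomial.mem_weightedHomogeneousSubmodule ℚ δ g F).1 hF h0
        rw [map_zero] at this
        exact hg this.symm
    simp only [Gr.h, hf]
    rw [htop, h1, Pi.single_eq_of_ne hg, sub_self]

end IdCAux

theorem KI_bot (hδ : PosW δ) : KI hδ (⊥ : Ideal (SS ι)) = 1 := by
  unfold KI
  rw [← IdCAux.h_varI hδ Finset.univ, IdCAux.h_univ hδ, PhiK_single]

theorem good_bot (hδ : PosW δ) {O' : Type} [CommRing O'] [Nontrivial O'] (σ : OO κ →+* O') :
    (grS hδ).Hom (⊥ : Ideal (SS ι)) ∧ (⊥ : Ideal (SS ι)).IsPrime ∧ Good hδ σ ⊥ 0 := by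
  refine ⟨?_, Ideal.isPrime_bot, ?_⟩
  · rw [← IdCAux.varI_empty]
    exact varI_hom hδ ∅
  · unfold Good
    rw [KI_bot]
    refine ⟨fun i hi => absurd hi (Nat.not_lt_zero i), ?_⟩
    simp

end Crest.Agent.R180
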