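import Crest.Agent.R180.KeyB
import Crest.Agent.R180.Div
import Crest.Agent.R180.Cent
/-! The models of level `r`. -/
set_option autoImplicit false
open scoped BigOperators
namespace Crest.Agent.R180

namespace KeyX

theorem X_not_mem (f : ℕ → Term) (r : ℕ) (hr : 0 < r) (p : Ideal (SS (Var r))) (o : ℕ)
    (h : KeyP f r hr p o) (l : Kap r) : uS (vU r) l ∉ p := by
  intro hm
  have := good_le_ker (dV_pos f r hr) (sig ∅) p h.hom h.prime o h.good
    (fun i => Sum.elim (fun _ => (1 : ℚ)) (fun _ => 0) i) (by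
      rintro (l | i) hi
      · exfalso
        apply hi
        apply sig_lin_eq_zero
        intro k _
        show Even ((Pi.single l 2 : Kap r → ℤ) k)
        rw [Pi.single_apply]
        split_ifs <;> simp
      · rfl) _ hm
  simp [uS, vU] at this

theorem smul_comm_iff {E D : Type} [Field E] [Ring D] [Algebra E D] (c : E) (hc : c ≠ 0) (z x : D)
    (h : z * (c • x) = (c • x) * z) : z * x = x * z := by
  rw [mul_smul_comm, smul_mul_assoc] at h
  have := congrArg (fun w => c⁻¹ • w) h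
  simpa only [smul_smul, inv_mul_cancel₀ hc, one_smul] using this

theorem mk_model (f : ℕ → Term) (r : ℕ) {E D : Type} [Field E] [CharZero E] [Ring D] [Nontrivial D]
    [aD : Algebra E D] [FiniteDimensional E D] (hD : ∀ a : D, IsUnit a ∨ a = 0) (τ : D →ₗ[E] E)
    (hτ : τ 1 = 1) (x y : D) {Λ : Type} [Fintype Λ] (P : Λ → D) (hA : Azu (E := E) P)
    (hF : Module.finrank E D = 4 ^ r)
    (L1 : ∀ i, i + 2 ≤ r → ∃ q : Polynomial E, q ≠ 0 ∧ q.natDegree ≤ 2 ^ (i + 2) ∧
      Polynomial.aeval ((f i).ev τ x y) q = 0)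
    (L2 : ∀ z : D, z * x = x * z → z * y = y * z →
      4 ^ r ≤ 4 * Module.finrank E (Subalgebra.centralizer E ({z} : Set D))) :
    ∃ M : Model, M.Level f r := by
  let dD : DivisionRing D := DivisionRing.ofIsUnitOrEqZero hD
  refine ⟨@Model.mk E D _ _ dD aD τ hτ x y, L1, fun m hm => ?_⟩
  have := big_of_cent (E := E) (D := D) P hA x y (fun z hx hy => by
    have := L2 z hx hy
    rw [← hF] at this
    exact this) m hm
  rw [← hF]
  exact this

theorem level_one (f : ℕ → Term) (r : ℕ) (hr : 0 < r) (p : Ideal (SS (Var r))) (o : ℕ)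
    (h : KeyP f r hr p o) {E : Type} [Field E] (π : SS (Var r) →+* E)
    (hker : ∀ F, F ∈ p → π F = 0) (u : Kap r → E) (hu : ∀ l, π (uS (vU r) l) = u l)
    (hu0 : ∀ l, u l ≠ 0) (i : ℕ) (hi : i + 2 ≤ r) :
    ∃ q : Polynomial E, q ≠ 0 ∧ q.natDegree ≤ 2 ^ (i + 2) ∧
      Polynomial.aeval ((f i).ev (tau u)
        ((∏ l, u l)⁻¹ • Tw.map π _ u hu (gen (vU r) (vX r false)))
        ((∏ l, u l)⁻¹ • Tw.map π _ u hu (gen (vU r) (vX r true)))) q = 0 := by
  have hU : (∏ l, u l) ≠ 0 := Finset.prod_ne_zero_iff.2 fun l _ => hu0 l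
  have hj : i < r - 1 := by omega
  obtain ⟨q, hq0, hqd, hqa⟩ := poly_of_minor (Tw.map π _ u hu (gen (vU r) (vA r ⟨i, hj⟩)))
    (2 ^ (i + 2)) (fun sel => by
      rw [← minor_map π _ u hu]
      exact hker _ (h.dep ⟨i, hj⟩ sel))
  have hf : Tw.map π _ u hu (fH f r i) = Tw.map π _ u hu (gen (vU r) (vA r ⟨i, hj⟩)) +
      (π (fH f r i 0) - π (MvPolynomial.X (vA r ⟨i, hj⟩ 0))) • (1 : Tw u) := by
    funext χ
    rw [Tw.add_apply, Tw.smul_apply, Tw.one_def, PP_apply, Tw.map_apply, Tw.map_apply]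
    have e : gen (vU r) (vA r ⟨i, hj⟩) χ = MvPolynomial.X (vA r ⟨i, hj⟩ χ) := rfl
    rw [e]
    split_ifs with hχ
    · subst hχ; ring
    · have := hker _ (h.eqs ⟨i, hj⟩ χ hχ)
      rw [map_sub, sub_eq_zero] at this
      rw [mul_zero, add_zero]
      exact this.symm
  unfold fH at hf
  rw [Term.hom_map, Term.hom_eq u hu0] at hf
  obtain ⟨q', h0, hd, ha⟩ := poly_affine _ _ _ _ (pow_ne_zero _ hU) hf q hq0 hqa
  exact ⟨q', h0, hd.trans hqd, ha⟩

theorem level_of (f : ℕ → Term) (r : ℕ) (hr : 0 < r) (p : Ideal (SS (Var r))) (o : ℕ)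
    (h : KeyP f r hr p o) {E : Type} [Field E] [Algebra ℚ E] (π : SS (Var r) →ₐ[ℚ] E)
    (hπ : RingHom.ker π = p) (u : Kap r → E) (hu : ∀ l, (π : SS (Var r) →+* E) (uS (vU r) l) = u l)
    (hnzd : ∀ a b : Tw u, a * b = 0 → a = 0 ∨ b = 0) : ∃ M : Model, M.Level f r := by
  have hker : ∀ F, (π : SS (Var r) →+* E) F = 0 ↔ F ∈ p := by
    intro F
    rw [← hπ, RingHom.mem_ker]
    rfl
  have hu0 : ∀ l, u l ≠ 0 := by
    intro l h0
    exact X_not_mem f r hr p o h l ((hker _).1 ((hu l).trans h0))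
  have : CharZero E := algebraRat.charZero E
  have : Nontrivial (Tw u) := nontrivial_Tw u
  have hU : (∏ l, u l) ≠ 0 := Finset.prod_ne_zero_iff.2 fun l _ => hu0 l
  exact mk_model f r (isUnit_of_nzd u hnzd) (tau u) (tau_one u) _ _ (PP u) (azu_Tw u hu0)
    (finrank_Tw u)
    (level_one f r hr p o h (π : SS (Var r) →+* E) (fun F hF => (hker F).2 hF) u hu hu0)
    (fun z hx hy => cent_large f r hr p o h π hπ u hu z (smul_comm_iff _ (inv_ne_zero hU) _ _ hx)
      (smul_comm_iff _ (inv_ne_zero hU) _ _ hy))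

end KeyX

theorem exists_level_pos (f : ℕ → Term) (r : ℕ) (hr : 0 < r) : ∃ M : Model, M.Level f r := by
  obtain ⟨p, o, h⟩ := exists_keyP f r hr
  have := h.prime
  let π : SS (Var r) →ₐ[ℚ] FractionRing (SS (Var r) ⧸ p) :=
    (IsScalarTower.toAlgHom ℚ (SS (Var r) ⧸ p) (FractionRing (SS (Var r) ⧸ p))).comp
      (Ideal.Quotient.mkₐ ℚ p)
  refine KeyX.level_of f r hr p o h π ?_
    (fun l => algebraMap (SS (Var r) ⧸ p) (FractionRing (SS (Var r) ⧸ p))
      (Ideal.Quotient.mk p (uS (vU r) l))) (fun _ => rfl) ?_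
  · ext F
    rw [RingHom.mem_ker, ← Ideal.Quotient.eq_zero_iff_mem]
    exact (IsFractionRing.to_map_eq_zero_iff (R := SS (Var r) ⧸ p)
      (K := FractionRing (SS (Var r) ⧸ p)) (x := Ideal.Quotient.mk p F))
  · exact nzd_frac (fun l => Ideal.Quotient.mk p (uS (vU r) l))
      (tw_nzd (dV_pos f r hr) (dV_u f r) p h.hom h.prime o ∅ h.good)

theorem exists_level (f : ℕ → Term) (r : ℕ) : ∃ M : Model, M.Level f r := by
  rcases Nat.eq_zero_or_pos r with rfl | hr
  · obtain ⟨M, -, h2⟩ := exists_level_pos f 1 one_pos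
    refine ⟨M, fun i hi => absurd hi (by omega), fun m hm => ?_⟩
    have := h2 m hm
    omega
  · exact exists_level_pos f r hr

end Crest.Agent.R180
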