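import Crest.Agent.R180.TwG
/-! Homogenisation of trace terms. -/
set_option autoImplicit false
open scoped BigOperators
namespace Crest.Agent.R180
variable {r : ℕ} {R : Type} [CommRing R]

def Term.deg : Term → ℕ
  | .X => 1
  | .Y => 1
  | .one => 1
  | .neg t => t.deg
  | .add t s => t.deg + s.deg
  | .mul t s => t.deg + s.deg
  | .tr t => t.deg

noncomputable def Term.hom (u : Kap r → R) (x y : Tw u) : Term → Tw u
  | .X => x
  | .Y => y
  | .one => (∏ l, u l) • (1 : Tw u)
  | .neg t => - t.hom u x y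
  | .add t s => (∏ l, u l) ^ s.deg • t.hom u x y + (∏ l, u l) ^ t.deg • s.hom u x y
  | .mul t s => t.hom u x y * s.hom u x y
  | .tr t => tau u (t.hom u x y) • (1 : Tw u)

/-- the degree of `∏ u_l` -/
def two (r : ℕ) : Kap r → ℤ := fun _ => 2

theorem Term.deg_pos (t : Term) : 0 < t.deg := by
  induction t with
  | X => exact Nat.one_pos
  | Y => exact Nat.one_pos
  | one => exact Nat.one_pos
  | neg t ih => exact ih
  | add t s ih1 _ => exact Nat.add_pos_left ih1 _
  | mul t s ih1 _ => exact Nat.add_pos_left ih1 _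
  | tr t ih => exact ih
theorem Term.hom_map {R' : Type} [CommRing R'] (f : R →+* R') (u : Kap r → R) (u' : Kap r → R')
    (h : ∀ l, f (u l) = u' l) (x y : Tw u) (t : Term) :
    Tw.map f u u' h (t.hom u x y) = t.hom u' (Tw.map f u u' h x) (Tw.map f u u' h y) := by
  have hU : f (∏ l, u l) = ∏ l, u' l := by
    rw [map_prod]
    exact Finset.prod_congr rfl fun l _ => h l
  induction t with
  | X => rfl
  | Y => rfl
  | one => simp only [Term.hom]; rw [Tw.map_smul, hU, map_one]
  | neg t ih => simp only [Term.hom]; rw [map_neg, ih]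
  | add t s ih1 ih2 =>
    simp only [Term.hom]
    rw [map_add, Tw.map_smul, Tw.map_smul, ih1, ih2, map_pow, map_pow, hU]
  | mul t s ih1 ih2 => simp only [Term.hom]; rw [map_mul, ih1, ih2]
  | tr t ih =>
    simp only [Term.hom]
    rw [Tw.map_smul, map_one, ← ih]
    rfl
theorem Term.hom_eq {E : Type} [Field E] (u : Kap r → E) (hu : ∀ l, u l ≠ 0) (x y : Tw u)
    (t : Term) : t.hom u x y =
      (∏ l, u l) ^ t.deg • t.ev (tau u) ((∏ l, u l)⁻¹ • x) ((∏ l, u l)⁻¹ • y) := by
  have hU : (∏ l, u l) ≠ 0 := Finset.prod_ne_zero_iff.2 fun l _ => hu l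
  induction t with
  | X => simp only [Term.hom, Term.deg, Term.ev]; rw [pow_one, smul_smul, mul_inv_cancel₀ hU, one_smul]
  | Y => simp only [Term.hom, Term.deg, Term.ev]; rw [pow_one, smul_smul, mul_inv_cancel₀ hU, one_smul]
  | one => simp only [Term.hom, Term.deg, Term.ev]; rw [pow_one]
  | neg t ih => simp only [Term.hom, Term.deg, Term.ev]; rw [ih, smul_neg]
  | add t s ih1 ih2 =>
    simp only [Term.hom, Term.deg, Term.ev]
    rw [ih1, ih2, smul_smul, smul_smul, smul_add, ← pow_add, ← pow_add, add_comm s.deg t.deg]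
  | mul t s ih1 ih2 =>
    simp only [Term.hom, Term.deg, Term.ev]
    rw [ih1, ih2, smul_mul_smul_comm, pow_add]
  | tr t ih =>
    simp only [Term.hom, Term.deg, Term.ev]
    rw [ih, map_smul, Algebra.algebraMap_eq_smul_one, smul_smul, smul_eq_mul]
theorem Term.hom_mem (u : Kap r → R) (x y : Tw u) (A : Subring R) (hu : ∀ l, u l ∈ A)
    (hx : ∀ χ, x χ ∈ A) (hy : ∀ χ, y χ ∈ A) (t : Term) (χ : Lam r) : t.hom u x y χ ∈ A := by
  have hU : (∏ l, u l) ∈ A := A.prod_mem fun l _ => hu l
  have h1 : ∀ χ, (1 : Tw u) χ ∈ A := by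
    intro χ
    rw [Tw.one_def, PP_apply]
    split_ifs
    · exact A.one_mem
    · exact A.zero_mem
  have hg : ∀ χ ψ, gam u χ ψ ∈ A := by
    intro χ ψ
    unfold gam
    refine A.mul_mem (A.prod_mem fun l _ => ?_) (A.prod_mem fun l _ => ?_)
    · split_ifs
      · exact A.neg_mem A.one_mem
      · exact A.one_mem
    · split_ifs
      · exact hu l
      · exact A.one_mem
  induction t generalizing χ with
  | X => exact hx χ
  | Y => exact hy χ
  | one =>
    simp only [Term.hom]
    rw [Tw.smul_apply]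
    exact A.mul_mem hU (h1 χ)
  | neg t ih =>
    simp only [Term.hom]
    rw [Tw.neg_apply]
    exact A.neg_mem (ih χ)
  | add t s ih1 ih2 =>
    simp only [Term.hom]
    rw [Tw.add_apply, Tw.smul_apply, Tw.smul_apply]
    exact A.add_mem (A.mul_mem (A.pow_mem hU _) (ih1 χ)) (A.mul_mem (A.pow_mem hU _) (ih2 χ))
  | mul t s ih1 ih2 =>
    simp only [Term.hom]
    rw [Tw.mul_apply]
    exact A.sum_mem fun ψ _ => A.mul_mem (A.mul_mem (hg _ _) (ih1 _)) (ih2 _)
  | tr t ih =>
    simp only [Term.hom]
    rw [Tw.smul_apply]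
    exact A.mul_mem (ih 0) (h1 χ)
theorem Term.hom_hom {ι : Type} [Fintype ι] [DecidableEq ι] {δ : ι → Kap r → ℤ} {uu : Kap r → ι}
    (hu : UDeg δ uu) {x y : Tw (uS uu)} (hx : THom δ uu (two r) x) (hy : THom δ uu (two r) y)
    (t : Term) : THom δ uu (t.deg • two r) (t.hom (uS uu) x y) := by
  have hU : MvPolynomial.IsWeightedHomogeneous δ (∏ l, uS uu l) (two r) := by
    have h := MvPolynomial.IsWeightedHomogeneous.prod (w := δ) Finset.univ (fun l => uS uu l)
      (fun l => Pi.single l 2) (fun l _ => by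
        rw [← hu l]
        exact MvPolynomial.isWeightedHomogeneous_X ℚ δ (uu l))
    have e : (∑ l : Kap r, (Pi.single l 2 : Kap r → ℤ)) = two r :=
      Finset.univ_sum_single (two r)
    rwa [e] at h
  have hUp : ∀ n : ℕ, MvPolynomial.IsWeightedHomogeneous δ ((∏ l, uS uu l) ^ n) (n • two r) :=
    fun n => hU.pow n
  induction t with
  | X => simpa only [Term.hom, Term.deg, one_smul] using hx
  | Y => simpa only [Term.hom, Term.deg, one_smul] using hy
  | one =>
    simp only [Term.hom, Term.deg, one_smul]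
    have h := THom.smul hU (THom.one (δ := δ) (uu := uu))
    rwa [zero_add] at h
  | neg t ih => exact ih.neg
  | add t s ih1 ih2 =>
    simp only [Term.hom, Term.deg]
    refine THom.add ?_ ?_
    · rw [add_smul]
      exact THom.smul (hUp s.deg) ih1
    · rw [add_comm, add_smul]
      exact THom.smul (hUp t.deg) ih2
  | mul t s ih1 ih2 =>
    simp only [Term.hom, Term.deg]
    rw [add_smul]
    exact THom.mul hu ih1 ih2
  | tr t ih =>
    simp only [Term.hom, Term.deg]
    have h := THom.smul ih.tau (THom.one (δ := δ) (uu := uu))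
    rwa [zero_add] at h
/-- a polynomial relation survives an affine change of the element -/
theorem poly_affine {E D : Type} [Field E] [Ring D] [Algebra E D] (a z : D) (lam c : E)
    (hlam : lam ≠ 0) (h : lam • z = a + c • (1 : D)) (p : Polynomial E) (hp : p ≠ 0)
    (ha : Polynomial.aeval a p = 0) :
    ∃ q : Polynomial E, q ≠ 0 ∧ q.natDegree ≤ p.natDegree ∧ Polynomial.aeval z q = 0 := by
  have hdeg : (Polynomial.C lam * Polynomial.X - Polynomial.C c : Polynomial E).natDegree = 1 := by
    rw [sub_eq_add_neg, ← Polynomial.C_neg]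
    exact Polynomial.natDegree_linear hlam
  refine ⟨p.comp (Polynomial.C lam * Polynomial.X - Polynomial.C c), ?_, ?_, ?_⟩
  · intro h0
    rcases Polynomial.comp_eq_zero_iff.1 h0 with h1 | ⟨_, h2⟩
    · exact hp h1
    · rw [h2, Polynomial.natDegree_C] at hdeg
      exact zero_ne_one hdeg
  · rw [Polynomial.natDegree_comp, hdeg, mul_one]
  · rw [Polynomial.aeval_comp]
    have : Polynomial.aeval z (Polynomial.C lam * Polynomial.X - Polynomial.C c : Polynomial E) = a := by
      rw [map_sub, map_mul, Polynomial.aeval_C, Polynomial.aeval_C, Polynomial.aeval_X,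
        ← Algebra.smul_def, h, Algebra.algebraMap_eq_smul_one, add_sub_cancel_right]
    rw [this, ha]

end Crest.Agent.R180
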