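import Crest.Agent.R180.Step
import Crest.Agent.R180.TermH
/-! The chain of cuts. -/
set_option autoImplicit false
open scoped BigOperators
namespace Crest.Agent.R180

/-- variables: parameters, coordinates of `x, y`, coordinates of the `a_i` -/
abbrev Var (r : ℕ) := Kap r ⊕ (Bool × Lam r) ⊕ (Fin (r - 1) × Lam r)

noncomputable instance (r : ℕ) : DecidableEq (Var r) := Classical.decEq _

def vU (r : ℕ) : Kap r → Var r := Sum.inl
def vX (r : ℕ) (b : Bool) : Lam r → Var r := fun χ => Sum.inr (Sum.inl (b, χ))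
def vA (r : ℕ) (i : Fin (r - 1)) : Lam r → Var r := fun χ => Sum.inr (Sum.inr (i, χ))

def dV (f : ℕ → Term) (r : ℕ) : Var r → Kap r → ℤ
  | Sum.inl l => Pi.single l 2
  | Sum.inr (Sum.inl (_, χ)) => two r - lift χ
  | Sum.inr (Sum.inr (i, χ)) => (f i).deg • two r - lift χ

namespace KeyAX

theorem lift_le {r : ℕ} (χ : Lam r) (l : Kap r) : lift χ l ≤ 1 := by
  unfold lift
  have h := ZMod.val_lt (χ l)
  omega

theorem lift_one {r : ℕ} (χ : Lam r) (l : Kap r) (h : χ l = 1) : lift χ l = 1 := by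
  unfold lift
  rw [h]
  rfl

theorem two_apply {r : ℕ} (n : ℕ) (l : Kap r) : (n • two r) l = 2 * (n : ℤ) := by
  show n • (2 : ℤ) = _
  rw [nsmul_eq_mul, mul_comm]

theorem pos_aux {r : ℕ} (hr : 0 < r) (n : ℕ) (hn : 0 < n) (χ : Lam r) :
    (∀ l, 0 ≤ (n • two r - lift χ) l) ∧ (n • two r - lift χ) ≠ 0 := by
  have h : ∀ l, 0 < (n • two r - lift χ) l := by
    intro l
    have h1 := lift_le χ l
    rw [Pi.sub_apply, two_apply]
    have : (1 : ℤ) ≤ n := by exact_mod_cast hn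
    omega
  refine ⟨fun l => (h l).le, fun h0 => ?_⟩
  have := h (⟨0, hr⟩, false)
  rw [h0] at this
  exact lt_irrefl _ this

theorem exists_one {r : ℕ} {χ : Lam r} (h : χ ≠ 0) : ∃ l, χ l = 1 := by
  by_contra hn
  apply h
  funext l
  rcases TwA0X.zm2 (χ l) with h0 | h1
  · exact h0
  · exact absurd ⟨l, h1⟩ hn

end KeyAX

theorem dV_pos (f : ℕ → Term) (r : ℕ) (hr : 0 < r) : PosW (dV f r) := by
  rintro (l | ⟨b, χ⟩ | ⟨i, χ⟩)
  · refine ⟨fun l' => ?_, fun h => ?_⟩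
    · show 0 ≤ (Pi.single l 2 : Kap r → ℤ) l'
      rw [Pi.single_apply]
      split_ifs <;> norm_num
    · have h2 : (Pi.single l 2 : Kap r → ℤ) l = 0 := congrFun h l
      rw [Pi.single_eq_same] at h2
      norm_num at h2
  · have h := KeyAX.pos_aux hr 1 Nat.one_pos χ
    rw [one_smul] at h
    exact h
  · exact KeyAX.pos_aux hr (f i).deg (f i).deg_pos χ
theorem dV_u (f : ℕ → Term) (r : ℕ) : UDeg (dV f r) (vU r) := fun _ => rfl

/-- the homogenised `i`-th term -/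
noncomputable def fH (f : ℕ → Term) (r i : ℕ) : Tw (uS (vU r)) :=
  (f i).hom (uS (vU r)) (gen (vU r) (vX r false)) (gen (vU r) (vX r true))

structure KeyP (f : ℕ → Term) (r : ℕ) (hr : 0 < r) (p : Ideal (SS (Var r))) (o : ℕ) : Prop where
  hom : (grS (dV_pos f r hr)).Hom p
  prime : p.IsPrime
  good : Good (dV_pos f r hr) (sig ∅) p o
  bound : 2 * o + 2 * (r - 1) ≤ 2 * ((r - 1) * 4 ^ r) + 4 ^ r
  dep : ∀ (i : Fin (r - 1)) sel, minor (gen (vU r) (vA r i)) (2 ^ ((i : ℕ) + 2)) sel ∈ p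
  eqs : ∀ (i : Fin (r - 1)) χ, χ ≠ 0 → MvPolynomial.X (vA r i χ) - fH f r i χ ∈ p

namespace KeyAX

theorem vA_inj (r : ℕ) (i : Fin (r - 1)) : Function.Injective (vA r i) := by
  intro χ ψ h
  simp only [vA, Sum.inr.injEq, Prod.mk.injEq, true_and] at h
  exact h

theorem gen_hom (f : ℕ → Term) (r : ℕ) (b : Bool) :
    THom (dV f r) (vU r) (two r) (gen (vU r) (vX r b)) := by
  intro χ
  exact MvPolynomial.isWeightedHomogeneous_X ℚ (dV f r) (vX r b χ)

theorem chain (f : ℕ → Term) (r : ℕ) (hr : 0 < r) (k : ℕ) :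
    ∀ n : ℕ, n + k = r - 1 → ∃ (p : Ideal (SS (Var r))) (o : ℕ),
      (grS (dV_pos f r hr)).Hom p ∧ p.IsPrime ∧
      Good (dV_pos f r hr) (sig (Tset r (n + 1))) p o ∧ o * 2 ^ (n + 1) ≤ 4 ^ r ∧
      ∀ (i : Fin (r - 1)), n ≤ (i : ℕ) →
        ∀ sel, minor (gen (vU r) (vA r i)) (2 ^ ((i : ℕ) + 2)) sel ∈ p := by
  induction k with
  | zero =>
    intro n hn
    obtain ⟨h1, h2, h3⟩ := good_bot (dV_pos f r hr) (sig (Tset r (n + 1)))
    refine ⟨⊥, 0, h1, h2, h3, by simp, fun i hi => ?_⟩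
    have := i.2
    omega
  | succ k ih =>
    intro n hn
    obtain ⟨p, o, h1, h2, h3, h4, h5⟩ := ih (n + 1) (by omega)
    have hnr : n < r - 1 := by omega
    have hs : n + 2 ≤ r := by omega
    obtain ⟨q, o', hpq, g1, g2, g3, g4, g5⟩ :=
      dep_step (dV_pos f r hr) (dV_u f r) (vA r ⟨n, hnr⟩) (vA_inj r _)
        (fun χ l h => by simp [vA, vU] at h) ((f n).deg • two r)
        (fun l => by
          rw [two_apply]
          exact ⟨(f n).deg, by ring⟩)
        (fun χ => rfl) hs p h1 h2 o h3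
    refine ⟨q, o', g1, g2, ⟨g4.1, sig_mono (Tset_mono (by omega)) _ g4.2⟩, ?_, fun i hi sel => ?_⟩
    · have e4 : 2 ^ (n + 2) * 4 ^ (r - (n + 2)) * 2 ^ (n + 2) = 4 ^ r := by
        have e1 : (4 : ℕ) ^ r = 4 ^ (n + 2) * 4 ^ (r - (n + 2)) := by
          rw [← pow_add]; congr 1; omega
        have e2 : (4 : ℕ) ^ (n + 2) = 2 ^ (n + 2) * 2 ^ (n + 2) := by
          rw [← mul_pow]; norm_num
        rw [e1, e2]; ring
      have e5 : (2 : ℕ) ^ (n + 2) = 2 ^ (n + 1) * 2 := pow_succ 2 (n + 1)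
      have h6 : o' * 2 ^ (n + 2) ≤ (o + 2 ^ (n + 2) * 4 ^ (r - (n + 2))) * 2 ^ (n + 2) :=
        Nat.mul_le_mul_right _ g3
      rw [add_mul, e4] at h6
      have h7 : o * 2 ^ (n + 2) ≤ 4 ^ r := h4
      have h8 : o' * 2 ^ (n + 2) = 2 * (o' * 2 ^ (n + 1)) := by rw [e5]; ring
      omega
    · rcases Nat.eq_or_lt_of_le hi with h | h
      · have : i = ⟨n, hnr⟩ := Fin.ext h.symm
        subst this
        exact g5 sel
      · exact hpq (h5 i h sel)

end KeyAX

theorem exists_keyP (f : ℕ → Term) (r : ℕ) (hr : 0 < r) : ∃ p o, KeyP f r hr p o := by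
  obtain ⟨p, o, h1, h2, h3, h4, h5⟩ := KeyAX.chain f r hr (r - 1) 0 (by omega)
  have h3' : Good (dV_pos f r hr) (sig ∅) p o :=
    ⟨h3.1, sig_mono (Finset.empty_subset _) _ h3.2⟩
  let t : Finset (Fin (r - 1) × Lam r) := Finset.univ ×ˢ (Finset.univ.erase 0)
  have hcard : t.card = (r - 1) * (4 ^ r - 1) := by
    simp only [t, Finset.card_product, Finset.card_univ, Fintype.card_fin,
      Finset.card_erase_of_mem (Finset.mem_univ _), card_Lam]
  obtain ⟨q, o', hpq, g0, g1, g2, g3, g4⟩ :=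
    cut_many (dV_pos f r hr) (sig ∅) t
      (fun a => (MvPolynomial.X (vA r a.1 a.2) - fH f r a.1 a.2 : SS (Var r)))
      (fun a => (f a.1).deg • two r - lift a.2)
      (fun a _ => by
        have hA : MvPolynomial.IsWeightedHomogeneous (dV f r)
            (MvPolynomial.X (vA r a.1 a.2) : SS (Var r)) ((f a.1).deg • two r - lift a.2) :=
          MvPolynomial.isWeightedHomogeneous_X ℚ (dV f r) (vA r a.1 a.2)
        have hB : MvPolynomial.IsWeightedHomogeneous (dV f r)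
            (fH f r a.1 a.2) ((f a.1).deg • two r - lift a.2) :=
          Term.hom_hom (dV_u f r) (KeyAX.gen_hom f r false) (KeyAX.gen_hom f r true) (f a.1) a.2
        exact (MvPolynomial.weightedHomogeneousSubmodule ℚ (dV f r) _).sub_mem hA hB)
      (fun a ha => by
        have h0 : a.2 ≠ 0 := (Finset.mem_erase.1 (Finset.mem_product.1 ha).2).1
        obtain ⟨l, hl⟩ := KeyAX.exists_one h0
        refine sig_lin_ne_zero ∅ _ l (Finset.notMem_empty l) ?_
        rw [Pi.sub_apply, KeyAX.two_apply, KeyAX.lift_one _ _ hl]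
        exact ⟨((f a.1).deg : ℤ) - 1, by ring⟩)
      p h1 h2 o h3'
  refine ⟨q, o', g1, g2, g4, ?_, fun i sel => hpq (h5 i (Nat.zero_le _) sel), fun i χ hχ => ?_⟩
  · rw [hcard] at g3
    have h4' : o * 2 ≤ 4 ^ r := by simpa using h4
    have hp : 1 ≤ 4 ^ r := Nat.one_le_pow _ _ (by norm_num)
    have e : (r - 1) * (4 ^ r - 1) + (r - 1) = (r - 1) * 4 ^ r := by
      rw [← Nat.mul_succ]
      congr 1
      omega
    omega
  · exact g0 (i, χ) (Finset.mem_product.2 ⟨Finset.mem_univ _,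
      Finset.mem_erase.2 ⟨hχ, Finset.mem_univ _⟩⟩)

end Crest.Agent.R180
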