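import Crest.Agent.R180.TwA
import Crest.Agent.R180.CentA
/-! The twisted algebra over a field. -/
set_option autoImplicit false
open scoped BigOperators
namespace Crest.Agent.R180
variable {r : ℕ}

namespace TwFX

theorem sg_right (a b c : ZMod 2) :
    (if a = 1 ∧ b + c = 1 then (-1 : ℤ) else 1) =
      (if a = 1 ∧ b = 1 then (-1 : ℤ) else 1) * (if a = 1 ∧ c = 1 then (-1 : ℤ) else 1) := by
  revert a b c; decide

theorem sg_left (a b c : ZMod 2) :
    (if a + b = 1 ∧ c = 1 then (-1 : ℤ) else 1) =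
      (if a = 1 ∧ c = 1 then (-1 : ℤ) else 1) * (if b = 1 ∧ c = 1 then (-1 : ℤ) else 1) := by
  revert a b c; decide

theorem omg_add_right (ψ χ χ' : Lam r) : omg ψ (χ + χ') = omg ψ χ * omg ψ χ' := by
  unfold omg
  rw [← Finset.prod_mul_distrib]
  refine Finset.prod_congr rfl fun l _ => ?_
  simp only [Pi.add_apply]
  rw [sg_right, sg_left]; ring

theorem omg_add_left (ψ ψ' χ : Lam r) : omg (ψ + ψ') χ = omg ψ χ * omg ψ' χ := by
  unfold omg
  rw [← Finset.prod_mul_distrib]
  refine Finset.prod_congr rfl fun l _ => ?_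
  simp only [Pi.add_apply]
  rw [sg_right, sg_left]; ring

theorem omg_zero_right (ψ : Lam r) : omg ψ 0 = 1 := by
  unfold omg
  refine Finset.prod_eq_one fun l _ => ?_
  have h01 : ¬ ((0 : ZMod 2) = 1) := by decide
  simp [h01]

theorem add_self (χ : Lam r) : χ + χ = 0 := by
  funext l
  have : ∀ a : ZMod 2, a + a = 0 := by decide
  exact this _

theorem exists_neg {η : Lam r} (hη : η ≠ 0) : ∃ ψ : Lam r, omg ψ η = -1 := by
  obtain ⟨⟨l0, b⟩, hk⟩ : ∃ k, η k ≠ 0 := by
    by_contra h
    push Not at h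
    exact hη (funext h)
  have h1 : η (l0, b) = 1 := by
    have : ∀ a : ZMod 2, a ≠ 0 → a = 1 := by decide
    exact this _ hk
  have h01 : ¬ ((0 : ZMod 2) = 1) := by decide
  cases b with
  | false =>
    refine ⟨Pi.single (l0, true) 1, ?_⟩
    unfold omg
    rw [Finset.prod_eq_single l0]
    · simp [h1, h01]
    · intro l _ hl
      simp [hl, h01]
    · simp
  | true =>
    refine ⟨Pi.single (l0, false) 1, ?_⟩
    unfold omg
    rw [Finset.prod_eq_single l0]
    · simp [h1, h01]
    · intro l _ hl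
      simp [hl, h01]
    · simp

theorem sum_omg_one {η : Lam r} (hη : η ≠ 0) : ∑ ψ : Lam r, omg ψ η = 0 := by
  obtain ⟨ψ0, h0⟩ := exists_neg hη
  have h1 : ∑ ψ : Lam r, omg (ψ + ψ0) η = ∑ ψ : Lam r, omg ψ η :=
    Fintype.sum_equiv (Equiv.addRight ψ0) _ _ fun _ => rfl
  simp only [omg_add_left, h0, mul_neg, mul_one, Finset.sum_neg_distrib] at h1
  linarith

end TwFX

theorem finrank_Tw {E : Type} [Field E] (u : Kap r → E) : Module.finrank E (Tw u) = 4 ^ r :=
  (Module.finrank_fintype_fun_eq_card E (η := Lam r)).trans card_Lam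

theorem gam_ne_zero {E : Type} [Field E] (u : Kap r → E) (hu : ∀ l, u l ≠ 0) (χ ψ : Lam r) :
    gam u χ ψ ≠ 0 := by
  unfold gam
  refine mul_ne_zero (Finset.prod_ne_zero_iff.2 fun l _ => ?_)
    (Finset.prod_ne_zero_iff.2 fun l _ => ?_)
  · split_ifs <;> simp
  · split_ifs
    · exact hu l
    · exact one_ne_zero

/-- orthogonality of the characters `ψ ↦ omg ψ χ` -/
theorem sum_omg (χ χ' : Lam r) :
    ∑ ψ : Lam r, omg ψ χ * omg ψ χ' = if χ = χ' then 4 ^ r else 0 := by
  simp only [← TwFX.omg_add_right]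
  split_ifs with h
  · subst h
    rw [TwFX.add_self]
    simp only [TwFX.omg_zero_right, Finset.sum_const, Finset.card_univ, card_Lam]
    simp
  · refine TwFX.sum_omg_one fun h0 => h ?_
    calc χ = χ + (χ' + χ') := by rw [TwFX.add_self, add_zero]
      _ = χ' := by rw [← add_assoc, h0, zero_add]

theorem TwFX.cancel_PP {E : Type} [Field E] (u : Kap r → E) (hu : ∀ l, u l ≠ 0) (ψ : Lam r)
    (a : Tw u) (h : a * PP u ψ = 0) : a = 0 := by
  have h1 : a * PP u ψ * PP u ψ = 0 := by rw [h, zero_mul]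
  rw [mul_assoc, PP_mul, TwFX.add_self, ← Tw.one_def, mul_smul_comm, mul_one] at h1
  exact (smul_eq_zero.1 h1).resolve_left (gam_ne_zero u hu ψ ψ)

theorem azu_Tw {E : Type} [Field E] [CharZero E] (u : Kap r → E) (hu : ∀ l, u l ≠ 0) :
    Azu (E := E) (PP u) := by
  refine ⟨by rw [finrank_Tw, card_Lam], fun c hc => ?_⟩
  have h1 : ∀ ψ : Lam r, ∑ χ, (omg ψ χ : E) • (c χ * PP u χ) = 0 := by
    intro ψ
    refine TwFX.cancel_PP u hu ψ _ ?_
    rw [← hc (PP u ψ), Finset.sum_mul]
    refine Finset.sum_congr rfl fun χ _ => ?_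
    rw [mul_assoc (c χ) (PP u ψ), PP_comm u ψ χ, mul_smul_comm, smul_mul_assoc, mul_assoc]
  funext χ'
  have h2 : ∑ ψ : Lam r, (omg ψ χ' : E) • ∑ χ, (omg ψ χ : E) • (c χ * PP u χ) = 0 := by
    simp only [h1, smul_zero, Finset.sum_const_zero]
  have h3 : ∑ ψ : Lam r, (omg ψ χ' : E) • ∑ χ, (omg ψ χ : E) • (c χ * PP u χ) =
      ∑ χ, (((if χ' = χ then 4 ^ r else 0 : ℤ)) : E) • (c χ * PP u χ) := by
    simp only [Finset.smul_sum, smul_smul]
    rw [Finset.sum_comm]
    refine Finset.sum_congr rfl fun χ _ => ?_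
    rw [← Finset.sum_smul, ← sum_omg]
    push_cast
    rfl
  rw [h3, Finset.sum_eq_single χ'] at h2
  · rw [if_pos rfl] at h2
    have h4 : (((4 : ℤ) ^ r : ℤ) : E) ≠ 0 := by
      push_cast
      exact pow_ne_zero _ (by norm_num)
    exact TwFX.cancel_PP u hu χ' _ ((smul_eq_zero.1 h2).resolve_left h4)
  · intro χ _ hχ
    rw [if_neg (Ne.symm hχ)]
    simp
  · simp

/-- no zero divisors passes to the fraction field -/
theorem nzd_frac {A E : Type} [CommRing A] [IsDomain A] [Field E] [Algebra A E] [IsFractionRing A E]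
    (u : Kap r → A) (h : ∀ a b : Tw u, a * b = 0 → a = 0 ∨ b = 0)
    (a b : Tw (fun l => algebraMap A E (u l))) (hab : a * b = 0) : a = 0 ∨ b = 0 := by
  have key : ∀ x : Tw (fun l => algebraMap A E (u l)), ∃ (s : E) (x' : Tw u), s ≠ 0 ∧
      Tw.map (algebraMap A E) u (fun l => algebraMap A E (u l)) (fun _ => rfl) x' = s • x := by
    intro x
    obtain ⟨s, hs⟩ := IsLocalization.exist_integer_multiples_of_finite (nonZeroDivisors A)
      (fun χ : Lam r => x χ)
    choose x' hx' using hs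
    refine ⟨algebraMap A E s, x', ?_, ?_⟩
    · exact IsFractionRing.to_map_ne_zero_of_mem_nonZeroDivisors s.2
    · funext χ
      rw [Tw.map_apply, Tw.smul_apply, hx' χ, Algebra.smul_def]
  obtain ⟨s, a', hs, ha'⟩ := key a
  obtain ⟨t, b', ht, hb'⟩ := key b
  have hm : Tw.map (algebraMap A E) u (fun l => algebraMap A E (u l)) (fun _ => rfl) (a' * b') =
      0 := by
    rw [map_mul, ha', hb', smul_mul_assoc, mul_smul_comm, hab, smul_zero, smul_zero]
  have h0 : a' * b' = 0 := by
    funext χ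
    have := congrFun hm χ
    rw [Tw.map_apply, Tw.zero_apply] at this
    exact (IsFractionRing.injective A E) (by rw [this, Tw.zero_apply, map_zero])
  rcases h a' b' h0 with h1 | h1
  · left
    rw [h1, map_zero] at ha'
    exact (smul_eq_zero.1 ha'.symm).resolve_left hs
  · right
    rw [h1, map_zero] at hb'
    exact (smul_eq_zero.1 hb'.symm).resolve_left ht

/-- a finite-dimensional domain is a division ring -/
theorem isUnit_of_nzd {E : Type} [Field E] (u : Kap r → E)
    (h : ∀ a b : Tw u, a * b = 0 → a = 0 ∨ b = 0) (a : Tw u) : IsUnit a ∨ a = 0 := by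
  by_cases ha : a = 0
  · exact Or.inr ha
  left
  have hl : Function.Injective (LinearMap.mulLeft E a) := by
    rw [← LinearMap.ker_eq_bot, LinearMap.ker_eq_bot']
    intro m hm
    exact (h a m hm).resolve_left ha
  have hr : Function.Injective (LinearMap.mulRight E a) := by
    rw [← LinearMap.ker_eq_bot, LinearMap.ker_eq_bot']
    intro m hm
    exact (h m a hm).resolve_right ha
  obtain ⟨b, hb⟩ := LinearMap.injective_iff_surjective.1 hl 1
  obtain ⟨c, hc⟩ := LinearMap.injective_iff_surjective.1 hr 1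
  have hb' : a * b = 1 := hb
  have hc' : c * a = 1 := hc
  have hbc : c = b := by rw [← mul_one c, ← hb', ← mul_assoc, hc', one_mul]
  exact ⟨⟨a, b, hb', hbc ▸ hc'⟩, rfl⟩

theorem nontrivial_Tw {E : Type} [Field E] (u : Kap r → E) : Nontrivial (Tw u) :=
  inferInstanceAs (Nontrivial (Lam r → E))

end Crest.Agent.R180
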