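import Crest.Agent.R180.KeyA
import Crest.Agent.R180.Dim
import Crest.Agent.R180.TwF
/-! The transcendence count: centralisers are large. -/
set_option autoImplicit false
open scoped BigOperators
namespace Crest.Agent.R180

namespace KeyBX

theorem gam_mem {r : ℕ} {E : Type} [Field E] (u : Kap r → E) (F : Subfield E)
    (hu : ∀ l, u l ∈ F) (χ ψ : Lam r) : gam u χ ψ ∈ F := by
  unfold gam
  refine F.mul_mem (F.prod_mem fun l _ => ?_) (F.prod_mem fun l _ => ?_)
  · split_ifs
    · exact F.neg_mem F.one_mem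
    · exact F.one_mem
  · split_ifs
    · exact hu l
    · exact F.one_mem

/-- the matrix of `w ↦ z w - w z` -/
noncomputable def adM {r : ℕ} {E : Type} [Field E] (u : Kap r → E) (z : Tw u) :
    Matrix (Lam r) (Lam r) E := fun ξ ψ => (z * PP u ψ - PP u ψ * z) ξ

theorem adM_mulVec {r : ℕ} {E : Type} [Field E] (u : Kap r → E) (z w : Tw u) (ξ : Lam r) :
    (adM u z).mulVec (fun χ => w χ) ξ = (z * w - w * z) ξ := by
  have e : z * w - w * z = ∑ ψ, w ψ • (z * PP u ψ - PP u ψ * z) := by
    conv_lhs => rw [Tw.eq_sum u w]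
    rw [Finset.mul_sum, Finset.sum_mul, ← Finset.sum_sub_distrib]
    refine Finset.sum_congr rfl fun ψ _ => ?_
    rw [mul_smul_comm, smul_mul_assoc, smul_sub]
  rw [e, Tw.sum_apply]
  simp only [Matrix.mulVec, dotProduct, adM, Tw.smul_apply]
  exact Finset.sum_congr rfl fun ψ _ => mul_comm _ _

theorem finrank_ker {r : ℕ} {E : Type} [Field E] (u : Kap r → E) (z : Tw u) :
    Module.finrank E (LinearMap.ker (adM u z).mulVecLin) ≤
      Module.finrank E (Subalgebra.centralizer E ({z} : Set (Tw u))) := by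
  have hmem : ∀ w : LinearMap.ker (adM u z).mulVecLin,
      (show Tw u from w.1) ∈ Subalgebra.centralizer E ({z} : Set (Tw u)) := by
    intro w
    rw [Subalgebra.mem_centralizer_iff]
    intro g hg
    rw [Set.mem_singleton_iff] at hg
    subst hg
    rw [← sub_eq_zero]
    refine TwA0X.ext' u fun ξ => ?_
    rw [← adM_mulVec]
    exact congrFun (LinearMap.mem_ker.1 w.2) ξ
  let L : LinearMap.ker (adM u z).mulVecLin →ₗ[E] Subalgebra.centralizer E ({z} : Set (Tw u)) :=
    { toFun := fun w => ⟨_, hmem w⟩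
      map_add' := fun _ _ => rfl
      map_smul' := fun _ _ => rfl }
  refine LinearMap.finrank_le_finrank_of_injective (f := L) fun a b hab => ?_
  have h1 : (L a).1 = (L b).1 := by rw [hab]
  exact Subtype.ext h1

theorem params {r : ℕ} {E : Type} [Field E] (u : Kap r → E) (z w : Tw u) (h : z * w = w * z) :
    ∃ B : Finset E, B.card ≤ Module.finrank E (Subalgebra.centralizer E ({z} : Set (Tw u))) ∧
      ∀ F : Subfield E, (∀ l, u l ∈ F) → (∀ χ, z χ ∈ F) → (∀ b ∈ B, b ∈ F) → ∀ χ, w χ ∈ F := by
  let E₀ : Subfield E := Subfield.closure (Set.range u ∪ Set.range fun χ => z χ)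
  have hu : ∀ l, u l ∈ E₀ := fun l => Subfield.subset_closure (Or.inl ⟨l, rfl⟩)
  have hz : ∀ χ, z χ ∈ E₀ := fun χ => Subfield.subset_closure (Or.inr ⟨χ, rfl⟩)
  have hA : ∀ i j, adM u z i j ∈ E₀ := by
    intro i j
    simp only [adM]
    rw [Tw.sub_apply, Tw.mul_PP_apply, Tw.PP_mul_apply]
    exact E₀.sub_mem (E₀.mul_mem (gam_mem u E₀ hu _ _) (hz _))
      (E₀.mul_mem (gam_mem u E₀ hu _ _) (hz _))
  have hx : (adM u z).mulVec (fun χ => w χ) = 0 := by
    funext ξ
    rw [adM_mulVec, h, sub_self]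
    rfl
  obtain ⟨B, hB, hF⟩ := exists_params E₀ (adM u z) hA (fun χ => w χ) hx
  refine ⟨B, hB.trans (finrank_ker u z), fun F h1 h2 h3 χ => hF F ?_ h3 χ⟩
  refine Subfield.closure_le.2 ?_
  rintro _ (⟨l, rfl⟩ | ⟨χ, rfl⟩)
  · exact h1 l
  · exact h2 χ

theorem card_Var (r : ℕ) :
    Fintype.card (Var r) = 2 * r + 2 * 4 ^ r + (r - 1) * 4 ^ r := by
  simp only [Var, Kap, Fintype.card_sum, Fintype.card_prod, Fintype.card_fin, Fintype.card_bool,
    card_Lam]
  ring

theorem arith (a N M n o k c : ℕ) (h1 : a + 2 * N + M ≤ n + o) (h2 : 2 * o + 2 * k ≤ 2 * M + N)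
    (h3 : n ≤ a + N + c + c + k) : N ≤ 4 * c := by
  omega

end KeyBX

theorem cent_large (f : ℕ → Term) (r : ℕ) (hr : 0 < r) (p : Ideal (SS (Var r))) (o : ℕ)
    (h : KeyP f r hr p o) {E : Type} [Field E] [Algebra ℚ E] (π : SS (Var r) →ₐ[ℚ] E)
    (hπ : RingHom.ker π = p) (u : Kap r → E) (hu : ∀ l, (π : SS (Var r) →+* E) (uS (vU r) l) = u l)
    (z : Tw u)
    (hx : z * Tw.map (π : SS (Var r) →+* E) _ u hu (gen (vU r) (vX r false)) =
      Tw.map (π : SS (Var r) →+* E) _ u hu (gen (vU r) (vX r false)) * z)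
    (hy : z * Tw.map (π : SS (Var r) →+* E) _ u hu (gen (vU r) (vX r true)) =
      Tw.map (π : SS (Var r) →+* E) _ u hu (gen (vU r) (vX r true)) * z) :
    4 ^ r ≤ 4 * Module.finrank E (Subalgebra.centralizer E ({z} : Set (Tw u))) := by
  classical
  have hgood : Good (dV_pos f r hr) (RingHom.id (OO (Kap r))) p o := by
    refine ⟨h.good.1, fun h0 => h.good.2 ?_⟩
    rw [RingHom.id_apply] at h0
    rw [h0, map_zero]
  obtain ⟨n, y, hn, hyi⟩ := dim_bound (dV_pos f r hr) p h.hom h.prime o hgood
  have hker : ∀ a ∈ p, π a = 0 := fun a ha => by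
    rw [← hπ] at ha
    exact ha
  let πq : (SS (Var r) ⧸ p) →ₐ[ℚ] E := Ideal.Quotient.liftₐ p π hker
  have hinj : Function.Injective πq := by
    rw [injective_iff_map_eq_zero]
    intro a ha
    obtain ⟨b, rfl⟩ := Ideal.Quotient.mk_surjective a
    rw [Ideal.Quotient.eq_zero_iff_mem, ← hπ]
    exact ha
  have hyE : AlgebraicIndependent ℚ (fun i => π (y i)) := by
    have h1 := hyi.map' (f := πq) hinj
    have h2 : (πq ∘ fun i => Ideal.Quotient.mk p (y i)) = fun i => π (y i) := by
      funext i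
      exact Ideal.Quotient.liftₐ_apply p π hker _ |>.trans (Ideal.Quotient.lift_mk p _ _)
    rw [h2] at h1
    exact h1
  obtain ⟨Bx, hBx, hFx⟩ := KeyBX.params u z _ hx
  obtain ⟨By, hBy, hFy⟩ := KeyBX.params u z _ hy
  generalize Module.finrank E (Subalgebra.centralizer E ({z} : Set (Tw u))) = c at hBx hBy ⊢
  let B : Finset E := Finset.univ.image u ∪ Finset.univ.image (fun χ => z χ) ∪ Bx ∪ By ∪
    Finset.univ.image (fun i : Fin (r - 1) => π (MvPolynomial.X (vA r i 0)))
  have hBcard : B.card ≤ 2 * r + 4 ^ r + c + c + (r - 1) := by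
    refine (Finset.card_union_le _ _).trans (add_le_add ((Finset.card_union_le _ _).trans
      (add_le_add ((Finset.card_union_le _ _).trans (add_le_add ((Finset.card_union_le _ _).trans
      (add_le_add ?_ ?_)) hBx)) hBy)) ?_)
    · refine Finset.card_image_le.trans (le_of_eq ?_)
      simp only [Finset.card_univ, Kap, Fintype.card_prod, Fintype.card_fin, Fintype.card_bool]
      ring
    · exact Finset.card_image_le.trans (le_of_eq (by rw [Finset.card_univ, card_Lam]))
    · exact Finset.card_image_le.trans (le_of_eq (by simp))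
  let F : IntermediateField ℚ E := IntermediateField.adjoin ℚ (B : Set E)
  have hBF : ∀ b ∈ B, b ∈ F.toSubfield := fun b hb =>
    IntermediateField.subset_adjoin ℚ (B : Set E) hb
  have huF : ∀ l, u l ∈ F.toSubfield := fun l => hBF _ (by
    simp only [B, Finset.mem_union]
    exact Or.inl (Or.inl (Or.inl (Or.inl (Finset.mem_image_of_mem u (Finset.mem_univ l))))))
  have hzF : ∀ χ, z χ ∈ F.toSubfield := fun χ => hBF _ (by
    simp only [B, Finset.mem_union]
    exact Or.inl (Or.inl (Or.inl (Or.inr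
      (Finset.mem_image_of_mem (fun χ => z χ) (Finset.mem_univ χ))))))
  have hxF := hFx F.toSubfield huF hzF (fun b hb => hBF _ (by
    simp only [B, Finset.mem_union]
    exact Or.inl (Or.inl (Or.inr hb))))
  have hyF := hFy F.toSubfield huF hzF (fun b hb => hBF _ (by
    simp only [B, Finset.mem_union]
    exact Or.inl (Or.inr hb)))
  let A : Subring (SS (Var r)) := F.toSubfield.toSubring.comap (π : SS (Var r) →+* E)
  have hXF : ∀ v : Var r, π (MvPolynomial.X v) ∈ F.toSubfield := by
    rintro (l | ⟨b, χ⟩ | ⟨i, χ⟩)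
    · have := huF l
      rw [← hu l] at this
      exact this
    · cases b
      · exact hxF χ
      · exact hyF χ
    · by_cases hχ : χ = 0
      · subst hχ
        refine hBF _ ?_
        simp only [B, Finset.mem_union]
        exact Or.inr (Finset.mem_image_of_mem
          (fun i : Fin (r - 1) => π (MvPolynomial.X (vA r i 0))) (Finset.mem_univ i))
      · have h1 := hker _ (h.eqs i χ hχ)
        rw [map_sub, sub_eq_zero] at h1
        have h2 : fH f r i χ ∈ A := by
          refine Term.hom_mem _ _ _ A (fun l => ?_) (fun ψ => ?_) (fun ψ => ?_) _ _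
          · have := huF l
            rw [← hu l] at this
            exact this
          · exact hxF ψ
          · exact hyF ψ
        have h3 : π (fH f r i χ) ∈ F.toSubfield := h2
        rw [← h1] at h3
        exact h3
  have hall : ∀ a : SS (Var r), π a ∈ F := by
    intro a
    induction a using MvPolynomial.induction_on with
    | C a =>
      rw [show (MvPolynomial.C a : SS (Var r)) = algebraMap ℚ _ a from rfl, AlgHom.commutes]
      exact F.algebraMap_mem a
    | add p q hp hq =>
      rw [map_add]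
      exact F.add_mem hp hq
    | mul_X p v hp =>
      rw [map_mul]
      exact F.mul_mem hp (hXF v)
  have hnB := card_le_of_algInd n _ hyE B (fun i => hall (y i))
  rw [KeyBX.card_Var r] at hn
  exact KeyBX.arith _ _ _ _ _ _ _ hn h.bound (hnB.trans hBcard)

end Crest.Agent.R180
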