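import Crest.Agent.R180.Phi
/-! Orders and leading coefficients. -/
set_option autoImplicit false
set_option linter.unusedSectionVars false
open scoped BigOperators
namespace Crest.Agent.R180
variable {κ : Type} [Fintype κ] [DecidableEq κ] {ι : Type} [DecidableEq ι]

namespace OrdAAux

omit [Fintype κ] [DecidableEq κ] in
theorem coeff_mul_of_ord {p : PowerSeries (OO κ)} {o : ℕ} (h : OrdGe p o)
    (q : PowerSeries (OO κ)) :
    PowerSeries.coeff o (q * p) = PowerSeries.coeff 0 q * PowerSeries.coeff o p := by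
  rw [PowerSeries.coeff_mul, Finset.sum_eq_single (0, o)]
  · rintro ⟨a, b⟩ hab hne
    have hab' : a + b = o := by simpa using hab
    have hb : b < o := by
      rcases Nat.eq_zero_or_pos a with ha | ha
      · exfalso; apply hne; subst ha; simp at hab'; simp [hab']
      · omega
    simp [h b hb]
  · intro hn; exfalso; apply hn; simp

omit [DecidableEq κ] in
theorem one_sub_phi (γ : κ → ℤ) : ∃ q : PowerSeries (OO κ),
    1 - phi γ = PowerSeries.X * q ∧ PowerSeries.coeff 0 q = - lin γ := by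
  classical
  have h0 : PowerSeries.X ∣ (1 - phi γ) := by
    rw [PowerSeries.X_dvd_iff, ← PowerSeries.coeff_zero_eq_constantCoeff_apply, map_sub,
      coeff_zero_phi]
    simp
  obtain ⟨q, hq⟩ := h0
  refine ⟨q, hq, ?_⟩
  have h1 : PowerSeries.coeff 1 (1 - phi γ) = PowerSeries.coeff 0 q := by
    rw [hq]; exact PowerSeries.coeff_succ_X_mul 0 q
  rw [← h1, map_sub, coeff_one_phi]
  simp [PowerSeries.coeff_one]

theorem sig_lin (T : Finset κ) (γ : κ → ℤ) :
    sig T (lin γ) = ∑ l, if l ∈ T then 0 else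
      MvPolynomial.monomial (Finsupp.single l 1) ((γ l : ℤ) : ZMod 2) := by
  unfold lin
  rw [map_sum]
  refine Finset.sum_congr rfl fun l _ => ?_
  rw [map_zsmul]
  unfold sig
  rw [MvPolynomial.eval₂Hom_X']
  split_ifs with hl
  · simp
  · rw [MvPolynomial.X, ← map_zsmul]
    simp

end OrdAAux

open OrdAAux

theorem OrdGe.mul_left {p : PowerSeries (OO κ)} {o : ℕ} (h : OrdGe p o) (q : PowerSeries (OO κ)) :
    OrdGe (q * p) o ∧ PowerSeries.coeff o (q * p) = PowerSeries.coeff 0 q * PowerSeries.coeff o p := by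
  refine ⟨fun i hi => ?_, coeff_mul_of_ord h q⟩
  have h' : OrdGe p i := fun j hj => h j (lt_trans hj hi)
  rw [coeff_mul_of_ord h' q, h i hi, mul_zero]
theorem OrdGe.one_sub {p : PowerSeries (OO κ)} {o : ℕ} (h : OrdGe p o) (γ : κ → ℤ) :
    OrdGe ((1 - phi γ) * p) (o + 1) ∧
      PowerSeries.coeff (o + 1) ((1 - phi γ) * p) = - lin γ * PowerSeries.coeff o p := by
  obtain ⟨q, hq, hq0⟩ := one_sub_phi γ
  obtain ⟨h1, h2⟩ := h.mul_left q
  rw [hq, mul_assoc]
  refine ⟨fun i hi => ?_, ?_⟩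
  · rcases i with _ | i
    · simp
    · rw [PowerSeries.coeff_succ_X_mul]
      exact h1 i (by omega)
  · rw [PowerSeries.coeff_succ_X_mul, h2, hq0]
/-- cancel a factor with nonzero constant term -/
theorem OrdGe.of_mul {p q : PowerSeries (OO κ)} {o : ℕ} (hq : PowerSeries.coeff 0 q ≠ 0)
    (h : OrdGe (q * p) o) : OrdGe p o := by
  intro i
  induction i using Nat.strong_induction_on with
  | _ i ih =>
    intro hi
    have h' : OrdGe p i := fun j hj => ih j hj (lt_trans hj hi)
    have h2 := coeff_mul_of_ord h' q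
    rw [h i hi] at h2
    exact (mul_eq_zero.mp h2.symm).resolve_left hq
/-- cancel a factor `1 - t^γ` -/
theorem OrdGe.of_one_sub {p : PowerSeries (OO κ)} {o : ℕ} {γ : κ → ℤ} (hγ : lin γ ≠ 0)
    (h : OrdGe ((1 - phi γ) * p) (o + 1)) : OrdGe p o := by
  obtain ⟨q, hq, hq0⟩ := one_sub_phi γ
  have hq' : PowerSeries.coeff 0 q ≠ 0 := by rw [hq0]; exact neg_ne_zero.mpr hγ
  refine OrdGe.of_mul hq' fun i hi => ?_
  have := h (i + 1) (by omega)
  rwa [hq, mul_assoc, PowerSeries.coeff_succ_X_mul] at this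
theorem lin_ne_zero {γ : κ → ℤ} (h : γ ≠ 0) : lin γ ≠ 0 := by
  intro h0
  apply h
  funext l
  have := congrArg (MvPolynomial.eval (fun k => if k = l then (1 : ℤ) else 0)) h0
  unfold lin at this
  simpa [map_sum, map_zsmul] using this
theorem sig_lin_ne_zero (T : Finset κ) (γ : κ → ℤ) (l : κ) (hl : l ∉ T) (hodd : Odd (γ l)) :
    sig T (lin γ) ≠ 0 := by
  intro h0
  have := congrArg (MvPolynomial.eval (fun k => if k = l then (1 : ZMod 2) else 0)) h0
  rw [sig_lin, map_sum, Finset.sum_eq_single l] at this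
  · rw [if_neg hl] at this
    have h1 : ((γ l : ℤ) : ZMod 2) = 1 := by
      obtain ⟨m, hm⟩ := hodd
      rw [hm]; push_cast
      have : (2 : ZMod 2) = 0 := rfl
      rw [this]; simp
    rw [h1] at this
    simp [MvPolynomial.eval_monomial] at this
  · intro k _ hk
    split_ifs
    · simp
    · simp [MvPolynomial.eval_monomial, hk]
  · intro hn; exact absurd (Finset.mem_univ l) hn
theorem sig_lin_eq_zero (T : Finset κ) (γ : κ → ℤ) (h : ∀ l, l ∉ T → Even (γ l)) :
    sig T (lin γ) = 0 := by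
  rw [sig_lin]
  refine Finset.sum_eq_zero fun l _ => ?_
  split_ifs with hl
  · rfl
  · have h1 : ((γ l : ℤ) : ZMod 2) = 0 := by
      obtain ⟨m, hm⟩ := h l hl
      rw [hm, ← two_mul]; push_cast
      have : (2 : ZMod 2) = 0 := rfl
      rw [this]; simp
    rw [h1]; simp
theorem sig_mono {T T' : Finset κ} (h : T ⊆ T') (c : OO κ) (hc : sig T' c ≠ 0) : sig T c ≠ 0 := by
  intro h0
  apply hc
  let kill : MvPolynomial κ (ZMod 2) →+* MvPolynomial κ (ZMod 2) :=
    MvPolynomial.eval₂Hom MvPolynomial.C (fun l => if l ∈ T' then 0 else MvPolynomial.X l)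
  have hk : sig T' = kill.comp (sig T) := by
    apply MvPolynomial.ringHom_ext
    · intro n
      simp [sig]
    · intro l
      simp only [sig, RingHom.comp_apply, MvPolynomial.eval₂Hom_X']
      by_cases hl : l ∈ T
      · simp [hl, h hl]
      · simp [hl, kill]
  rw [hk, RingHom.comp_apply, h0, map_zero]
theorem sig_eq_zero_of_dvd (T : Finset κ) (k d : ℕ) (hd : 0 < d) (hdk : d < 2 ^ k) (c c' : OO κ)
    (h : (d : OO κ) * c = 2 ^ k * c') : sig T c = 0 := by
  have h2 : (MvPolynomial.C (2 : ℤ) : OO κ) ∣ c := by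
    rw [MvPolynomial.C_dvd_iff_dvd_coeff]
    intro m
    have h1 := congrArg (MvPolynomial.coeff m) h
    have e1 : (d : OO κ) = MvPolynomial.C (d : ℤ) := by simp
    have e2 : (2 : OO κ) ^ k = MvPolynomial.C ((2 : ℤ) ^ k) := by simp
    rw [e1, e2, MvPolynomial.coeff_C_mul, MvPolynomial.coeff_C_mul] at h1
    by_contra hn
    have hcop : IsCoprime ((2 : ℤ) ^ k) (MvPolynomial.coeff m c) :=
      ((Int.prime_two.coprime_iff_not_dvd).mpr hn).pow_left
    have hdv : (2 : ℤ) ^ k ∣ (d : ℤ) := hcop.dvd_of_dvd_mul_right ⟨_, h1⟩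
    have := Int.le_of_dvd (by exact_mod_cast hd) hdv
    have h3 : (d : ℤ) < 2 ^ k := by exact_mod_cast hdk
    omega
  obtain ⟨c'', rfl⟩ := h2
  rw [map_mul]
  have : sig T (MvPolynomial.C (2 : ℤ)) = 0 := by
    unfold sig
    rw [MvPolynomial.eval₂Hom_C]
    have : ((2 : ℤ) : MvPolynomial κ (ZMod 2)) = MvPolynomial.C ((2 : ℤ) : ZMod 2) :=
      (map_intCast (MvPolynomial.C : ZMod 2 →+* MvPolynomial κ (ZMod 2)) 2).symm
    rw [eq_intCast, this]
    have h0 : ((2 : ℤ) : ZMod 2) = 0 := rfl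
    rw [h0, map_zero]
  rw [this, zero_mul]

end Crest.Agent.R180
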