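import Crest.Agent.R180.PhiA
/-! K-polynomial calculus. -/
set_option autoImplicit false
open scoped BigOperators
namespace Crest.Agent.R180
variable {κ : Type} [Fintype κ] [DecidableEq κ] {ι : Type} [DecidableEq ι]

namespace PhiAux

theorem coeff_one_mul {R : Type} [CommRing R] (p q : PowerSeries R) :
    PowerSeries.coeff 1 (p * q) = PowerSeries.coeff 0 p * PowerSeries.coeff 1 q +
      PowerSeries.coeff 1 p * PowerSeries.coeff 0 q := by
  rw [PowerSeries.coeff_mul, Finset.Nat.antidiagonal_succ]
  simp [Finset.Nat.antidiagonal_zero]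

theorem coeff_zero_mul {R : Type} [CommRing R] (p q : PowerSeries R) :
    PowerSeries.coeff 0 (p * q) = PowerSeries.coeff 0 p * PowerSeries.coeff 0 q := by
  simp [PowerSeries.coeff_zero_eq_constantCoeff]

/-- units with constant term one and prescribed linear term -/
def Jet {R : Type} [CommRing R] (u : (PowerSeries R)ˣ) (a : R) : Prop :=
  PowerSeries.coeff 0 (u : PowerSeries R) = 1 ∧ PowerSeries.coeff 1 (u : PowerSeries R) = a

theorem Jet.one {R : Type} [CommRing R] : Jet (1 : (PowerSeries R)ˣ) (0 : R) := by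
  constructor
  · simp
  · simp [PowerSeries.coeff_one]

theorem Jet.mul {R : Type} [CommRing R] {u v : (PowerSeries R)ˣ} {a b : R} (hu : Jet u a)
    (hv : Jet v b) : Jet (u * v) (a + b) := by
  constructor
  · rw [Units.val_mul, coeff_zero_mul, hu.1, hv.1, one_mul]
  · rw [Units.val_mul, coeff_one_mul, hu.1, hv.1, hu.2, hv.2]; ring

theorem Jet.inv {R : Type} [CommRing R] {u : (PowerSeries R)ˣ} {a : R} (hu : Jet u a) :
    Jet u⁻¹ (-a) := by
  have h0 := coeff_zero_mul (u : PowerSeries R) (u⁻¹ : (PowerSeries R)ˣ)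
  have h1 := coeff_one_mul (u : PowerSeries R) (u⁻¹ : (PowerSeries R)ˣ)
  rw [Units.mul_inv] at h0 h1
  rw [hu.1, one_mul] at h0
  have h0' : PowerSeries.coeff 0 ((u⁻¹ : (PowerSeries R)ˣ) : PowerSeries R) = 1 := by
    rw [← h0]; simp
  rw [hu.1, hu.2, h0', one_mul, mul_one] at h1
  refine ⟨h0', ?_⟩
  have : PowerSeries.coeff 1 (1 : PowerSeries R) = 0 := by simp [PowerSeries.coeff_one]
  rw [this] at h1
  linear_combination -h1

theorem Jet.pow {R : Type} [CommRing R] {u : (PowerSeries R)ˣ} {a : R} (hu : Jet u a) (n : ℕ) :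
    Jet (u ^ n) (n • a) := by
  induction n with
  | zero => simpa using Jet.one
  | succ n ih => rw [pow_succ, succ_nsmul]; exact ih.mul hu

theorem Jet.zpow {R : Type} [CommRing R] {u : (PowerSeries R)ˣ} {a : R} (hu : Jet u a) (n : ℤ) :
    Jet (u ^ n) (n • a) := by
  obtain ⟨m, rfl | rfl⟩ := Int.eq_nat_or_neg n
  · rw [zpow_natCast, natCast_zsmul]; exact hu.pow m
  · rw [zpow_neg, zpow_natCast, neg_zsmul, natCast_zsmul]; exact (hu.pow m).inv

theorem Jet.prod {R : Type} [CommRing R] {α : Type} (s : Finset α) (u : α → (PowerSeries R)ˣ)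
    (a : α → R) (h : ∀ i ∈ s, Jet (u i) (a i)) : Jet (∏ i ∈ s, u i) (∑ i ∈ s, a i) := by
  classical
  induction s using Finset.induction_on with
  | empty => simpa using Jet.one
  | insert i s hi ih =>
    rw [Finset.prod_insert hi, Finset.sum_insert hi]
    exact (h i (Finset.mem_insert_self _ _)).mul
      (ih fun j hj => h j (Finset.mem_insert_of_mem hj))

omit [Fintype κ] [DecidableEq κ] in
theorem jet_un (l : κ) : Jet (un l) (MvPolynomial.X l : OO κ) := by
  constructor
  · simp [un]
  · simp [un, PowerSeries.coeff_one]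

omit [DecidableEq κ] in
theorem jet_phi (g : κ → ℤ) : Jet (∏ l, un l ^ g l) (lin g) :=
  Jet.prod _ _ _ fun l _ => (jet_un l).zpow (g l)

omit [DecidableEq κ] in
theorem supp_fin {K : (κ → ℤ) → ℤ} (hK : (Function.support K).Finite) :
    (Function.support fun g => K g • phi g).Finite := by
  refine hK.subset fun g hg => ?_
  intro h0
  apply hg
  simp [h0]

omit [Fintype κ] [DecidableEq κ] in
theorem shift_fin {K : (κ → ℤ) → ℤ} (hK : (Function.support K).Finite) (γ : κ → ℤ) :
    (Function.support fun g => K (g - γ)).Finite := by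
  refine (hK.image (fun g => g + γ)).subset fun g hg => ?_
  exact ⟨g - γ, hg, by simp⟩

end PhiAux

theorem phi_zero : phi (0 : κ → ℤ) = 1 := by
  simp [phi]
theorem phi_add (g g' : κ → ℤ) : phi (g + g') = phi g * phi g' := by
  unfold phi
  rw [← Units.val_mul, ← Finset.prod_mul_distrib]
  congr 1
  refine Finset.prod_congr rfl fun l _ => ?_
  rw [Pi.add_apply, zpow_add]
theorem coeff_zero_phi (g : κ → ℤ) : PowerSeries.coeff 0 (phi g) = 1 :=
  (PhiAux.jet_phi g).1
theorem coeff_one_phi (g : κ → ℤ) : PowerSeries.coeff 1 (phi g) = lin g :=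
  (PhiAux.jet_phi g).2
theorem PhiK_add {K L : (κ → ℤ) → ℤ} (hK : (Function.support K).Finite)
    (hL : (Function.support L).Finite) : PhiK (K + L) = PhiK K + PhiK L := by
  unfold PhiK
  rw [← finsum_add_distrib (PhiAux.supp_fin hK) (PhiAux.supp_fin hL)]
  refine finsum_congr fun g => ?_
  rw [Pi.add_apply, add_smul]
theorem PhiK_shift {K : (κ → ℤ) → ℤ} (hK : (Function.support K).Finite) (γ : κ → ℤ) :
    PhiK (fun g => K (g - γ)) = phi γ * PhiK K := by
  unfold PhiK
  rw [mul_finsum' _ _ (PhiAux.supp_fin hK)]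
  rw [← finsum_comp_equiv (Equiv.addRight γ)]
  refine finsum_congr fun g => ?_
  simp only [Equiv.coe_addRight, add_sub_cancel_right]
  rw [phi_add, mul_smul_comm, mul_comm]
theorem PhiK_Dl {K : (κ → ℤ) → ℤ} (hK : (Function.support K).Finite) (γ : κ → ℤ) :
    PhiK (Dl γ K) = (1 - phi γ) * PhiK K := by
  have h : Dl γ K + (fun g => K (g - γ)) = K := by
    funext g; simp [Dl]
  have hD : (Function.support (Dl γ K)).Finite := by
    refine (hK.union (PhiAux.shift_fin hK γ)).subset fun g hg => ?_
    by_contra hn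
    simp only [Set.mem_union, Function.mem_support, not_or, not_not] at hn
    apply hg
    simp [Dl, hn.1, hn.2]
  have h2 := PhiK_add hD (PhiAux.shift_fin hK γ)
  rw [h, PhiK_shift hK γ] at h2
  linear_combination -h2
theorem Dl_finite {K : (κ → ℤ) → ℤ} (hK : (Function.support K).Finite) (γ : κ → ℤ) :
    (Function.support (Dl γ K)).Finite := by
  refine (hK.union (PhiAux.shift_fin hK γ)).subset fun g hg => ?_
  by_contra hn
  simp only [Set.mem_union, Function.mem_support, not_or, not_not] at hn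
  apply hg
  simp [Dl, hn.1, hn.2]
theorem DF_finite {K : (κ → ℤ) → ℤ} (hK : (Function.support K).Finite) (s : Finset ι)
    (δ : ι → κ → ℤ) : (Function.support (DF s δ K)).Finite := by
  induction s using Finset.induction_on with
  | empty => rw [DF_empty]; exact hK
  | insert i s hi ih => rw [DF_insert s i hi]; exact Dl_finite ih _
theorem PhiK_DF {K : (κ → ℤ) → ℤ} (hK : (Function.support K).Finite) (s : Finset ι)
    (δ : ι → κ → ℤ) : PhiK (DF s δ K) = (∏ i ∈ s, (1 - phi (δ i))) * PhiK K := by
  induction s using Finset.induction_on with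
  | empty => rw [DF_empty]; simp
  | insert i s hi ih =>
    rw [DF_insert s i hi, PhiK_Dl (DF_finite hK s δ), ih, Finset.prod_insert hi, mul_assoc]
theorem PhiK_single : PhiK (Pi.single (M := fun _ => ℤ) (0 : κ → ℤ) 1) = 1 := by
  unfold PhiK
  rw [finsum_eq_single _ (0 : κ → ℤ)]
  · simp [phi_zero]
  · intro g hg
    simp [Pi.single_eq_of_ne hg]

end Crest.Agent.R180
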