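import Crest.Agent.R180.Defs
/-! K-polynomial calculus. -/
set_option autoImplicit false
open scoped BigOperators
namespace Crest.Agent.R180
variable {κ : Type} [Fintype κ] [DecidableEq κ] {ι : Type} [DecidableEq ι]

-- ===== PhiA =====
theorem DF_empty (δ : ι → κ → ℤ) (K : (κ → ℤ) → ℤ) : DF (∅ : Finset ι) δ K = K := by
  funext g
  simp [DF]
theorem DF_insert (s : Finset ι) (i : ι) (hi : i ∉ s) (δ : ι → κ → ℤ) (K : (κ → ℤ) → ℤ) :
    DF (insert i s) δ K = Dl (δ i) (DF s δ K) := by
  funext g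
  simp only [DF, Dl]
  rw [Finset.sum_powerset_insert hi, sub_eq_add_neg, ← Finset.sum_neg_distrib]
  congr 1
  refine Finset.sum_congr rfl fun t ht => ?_
  have hit : i ∉ t := fun h => hi (Finset.mem_powerset.1 ht h)
  rw [Finset.card_insert_of_notMem hit, Finset.sum_insert hit, pow_succ, sub_sub]
  ring
theorem DF_Dl (s : Finset ι) (δ : ι → κ → ℤ) (γ : κ → ℤ) (K : (κ → ℤ) → ℤ) :
    DF s δ (Dl γ K) = Dl γ (DF s δ K) := by
  funext g
  simp only [DF, Dl]
  rw [← Finset.sum_sub_distrib]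
  refine Finset.sum_congr rfl fun t _ => ?_
  rw [mul_sub, sub_right_comm g γ]
theorem DF_add (s : Finset ι) (δ : ι → κ → ℤ) (K L : (κ → ℤ) → ℤ) :
    DF s δ (K + L) = DF s δ K + DF s δ L := by
  funext g
  simp only [DF, Pi.add_apply, mul_add, Finset.sum_add_distrib]
theorem DF_shift (s : Finset ι) (δ : ι → κ → ℤ) (γ : κ → ℤ) (K : (κ → ℤ) → ℤ) :
    DF s δ (fun g => K (g - γ)) = fun g => DF s δ K (g - γ) := by
  funext g
  simp only [DF]
  refine Finset.sum_congr rfl fun t _ => ?_
  rw [sub_right_comm g γ]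
theorem DF_sum {α : Type} (t : Finset α) (s : Finset ι) (δ : ι → κ → ℤ) (K : α → (κ → ℤ) → ℤ) :
    DF s δ (∑ a ∈ t, K a) = ∑ a ∈ t, DF s δ (K a) := by
  funext g
  simp only [DF, Finset.sum_apply, Finset.mul_sum]
  exact Finset.sum_comm
theorem DF_union (s t : Finset ι) (hst : Disjoint s t) (δ : ι → κ → ℤ) (K : (κ → ℤ) → ℤ) :
    DF (s ∪ t) δ K = DF s δ (DF t δ K) := by
  induction s using Finset.induction_on with
  | empty => rw [Finset.empty_union, DF_empty]
  | insert i s hi ih =>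
    rw [Finset.disjoint_insert_left] at hst
    have hi' : i ∉ s ∪ t := by
      rw [Finset.mem_union]
      exact fun h => h.elim hi hst.1
    rw [Finset.insert_union, DF_insert _ _ hi', DF_insert _ _ hi, ih hst.2]
theorem DF_congr (s : Finset ι) (δ δ' : ι → κ → ℤ) (h : ∀ i ∈ s, δ i = δ' i) (K : (κ → ℤ) → ℤ) :
    DF s δ K = DF s δ' K := by
  funext g
  simp only [DF]
  refine Finset.sum_congr rfl fun t ht => ?_
  rw [Finset.sum_congr rfl fun i hi => h i (Finset.mem_powerset.1 ht hi)]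
theorem Gen.finite {s : Finset ι} {δ : ι → κ → ℤ} {K : (κ → ℤ) → ℤ} (h : Gen s δ K) :
    (Function.support K).Finite := by
  induction h with
  | base K hK _ => exact hK
  | add K L _ _ ihK ihL => exact (ihK.union ihL).subset (Function.support_add K L)
  | diff K i _ _ ih =>
    refine (ih.union (ih.image fun g => g + δ i)).subset fun g hg => ?_
    by_contra hc
    rw [Set.mem_union, not_or] at hc
    apply hg
    have h1 : K g = 0 := by simpa using hc.1
    have h2 : K (g - δ i) = 0 := by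
      by_contra h2
      exact hc.2 ⟨g - δ i, h2, by simp⟩
    simp [Dl, h1, h2]
theorem Gen.mono {s t : Finset ι} (hst : s ⊆ t) {δ : ι → κ → ℤ} {K : (κ → ℤ) → ℤ}
    (h : Gen s δ K) : Gen t δ K := by
  induction h with
  | base K hK h0 => exact Gen.base K hK h0
  | add K L _ _ ihK ihL => exact Gen.add K L ihK ihL
  | diff K i hi _ ih => exact Gen.diff K i (hst hi) ih
theorem Gen.zero (s : Finset ι) (δ : ι → κ → ℤ) : Gen s δ (0 : (κ → ℤ) → ℤ) := by
  exact Gen.base 0 (by simp) (fun g => le_rfl)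
theorem Gen.shift {s : Finset ι} {δ : ι → κ → ℤ} {K : (κ → ℤ) → ℤ} (h : Gen s δ K) (γ : κ → ℤ) :
    Gen s δ (fun g => K (g - γ)) := by
  induction h with
  | base K hK h0 =>
    refine Gen.base _ ((hK.image fun g => g + γ).subset fun g hg => ⟨g - γ, hg, by simp⟩)
      (fun g => h0 _)
  | add K L _ _ ihK ihL => exact Gen.add _ _ ihK ihL
  | diff K i hi _ ih =>
    have e : (fun g => Dl (δ i) K (g - γ)) = Dl (δ i) (fun g => K (g - γ)) := by
      funext g
      simp only [Dl]
      rw [sub_right_comm g γ]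
    rw [e]
    exact Gen.diff _ i hi ih

end Crest.Agent.R180
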