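import Crest.Agent.R180.TwA
/-! The special point `a₀ = ∑ 2^l X_l`. -/
set_option autoImplicit false
open scoped BigOperators
namespace Crest.Agent.R180
variable {r : ℕ}

/-- the split parameters -/
def u1 (r : ℕ) : Kap r → ℚ := fun _ => 1

/-- the coordinates of the isotropic subgroup `A` -/
def Tset (r s : ℕ) : Finset (Kap r) := Finset.univ.filter fun l => (l.1 : ℕ) < s ∧ l.2 = false

/-- the nonzero elements of `K^⊥` -/
def Fset (r s : ℕ) : Finset (Lam r) :=
  Finset.univ.filter fun φ => φ ≠ 0 ∧ ∀ l : Kap r, (l.1 : ℕ) < s → φ l = 0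

noncomputable def a0 (r s : ℕ) : Tw (u1 r) :=
  ∑ l ∈ Tset r s, (2 : ℚ) ^ (l.1 : ℕ) • PP (u1 r) (Pi.single l 1)

namespace PtAX

theorem mem_Tset {s : ℕ} {l : Kap r} : l ∈ Tset r s ↔ (l.1 : ℕ) < s ∧ l.2 = false := by
  simp [Tset]

theorem gam_single {l : Kap r} (hl : l.2 = false) (ψ : Lam r) :
    gam (u1 r) (Pi.single l 1) ψ = 1 := by
  unfold gam
  have h1 : (∏ k : Fin r, if (Pi.single l 1 : Lam r) (k, true) = 1 ∧ ψ (k, false) = 1
      then (-1 : ℚ) else 1) = 1 := by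
    refine Finset.prod_eq_one fun k _ => ?_
    have hne : ((k, true) : Kap r) ≠ l := by
      intro h
      rw [← h] at hl
      simp at hl
    rw [Pi.single_eq_of_ne hne]
    have h01 : (0 : ZMod 2) ≠ 1 := by decide
    simp [h01]
  have h2 : (∏ k : Kap r, if (Pi.single l 1 : Lam r) k = 1 ∧ ψ k = 1 then u1 r k else 1) = 1 := by
    refine Finset.prod_eq_one fun k _ => ?_
    simp [u1]
  rw [h1, h2, one_mul]

/-- the sign character -/
def sg (a : ZMod 2) : ℚ := if a = 1 then -1 else 1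

theorem sg_sub_one (a : ZMod 2) : sg (a - 1) = - sg a := by
  have h1 : (0 : ZMod 2) - 1 = 1 := by decide
  have h01 : (0 : ZMod 2) ≠ 1 := by decide
  rcases TwA0X.zm2 a with rfl | rfl
  · simp only [sg, h1, h01, if_true, if_false]
  · simp only [sg, sub_self, h01, if_true, if_false, neg_neg]

/-- the common eigenvectors -/
noncomputable def ev (S : Finset (Kap r)) : Tw (u1 r) := fun ξ => ∏ k ∈ S, sg (ξ k)

theorem ev_apply (S : Finset (Kap r)) (ξ : Lam r) : ev S ξ = ∏ k ∈ S, sg (ξ k) := rfl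

theorem ev_zero (S : Finset (Kap r)) : ev S 0 = 1 := by
  rw [ev_apply]
  refine Finset.prod_eq_one fun k _ => ?_
  have h01 : (0 : ZMod 2) ≠ 1 := by decide
  simp [sg, h01]

theorem X_mul_ev {l : Kap r} (hl : l.2 = false) (S : Finset (Kap r)) :
    PP (u1 r) (Pi.single l 1) * ev S = (if l ∈ S then (-1 : ℚ) else 1) • ev S := by
  refine TwA0X.ext' _ fun ξ => ?_
  rw [Tw.PP_mul_apply, gam_single hl, one_mul, Tw.smul_apply, ev_apply, ev_apply]
  by_cases h : l ∈ S
  · rw [if_pos h, ← Finset.mul_prod_erase S _ h, ← Finset.mul_prod_erase S _ h]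
    have e1 : (ξ - Pi.single l 1 : Lam r) l = ξ l - 1 := by simp
    have e2 : ∏ k ∈ S.erase l, sg ((ξ - Pi.single l 1 : Lam r) k) = ∏ k ∈ S.erase l, sg (ξ k) := by
      refine Finset.prod_congr rfl fun k hk => ?_
      have hne : k ≠ l := Finset.ne_of_mem_erase hk
      simp [Pi.single_eq_of_ne hne]
    rw [e1, e2, sg_sub_one]
    ring
  · rw [if_neg h, one_mul]
    refine Finset.prod_congr rfl fun k hk => ?_
    have hne : k ≠ l := fun e => h (e ▸ hk)
    simp [Pi.single_eq_of_ne hne]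

/-- eigenvalue -/
def lam (s : ℕ) (A : Finset ℕ) : ℚ := ∑ i ∈ Finset.range s, (2 : ℚ) ^ i * (if i ∈ A then -1 else 1)

theorem sum_Tset {s : ℕ} (hs : s ≤ r) (F : ℕ → ℚ) :
    ∑ l ∈ Tset r s, F (l.1 : ℕ) = ∑ i ∈ Finset.range s, F i := by
  refine Finset.sum_bij (fun l _ => (l.1 : ℕ)) ?_ ?_ ?_ ?_
  · intro l hl
    exact Finset.mem_range.mpr (mem_Tset.mp hl).1
  · intro a ha b hb h
    have h1 : a.1 = b.1 := Fin.ext h
    have h2 : a.2 = b.2 := by rw [(mem_Tset.mp ha).2, (mem_Tset.mp hb).2]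
    exact Prod.ext h1 h2
  · intro i hi
    have hi' := Finset.mem_range.mp hi
    exact ⟨(⟨i, lt_of_lt_of_le hi' hs⟩, false), mem_Tset.mpr ⟨hi', rfl⟩, rfl⟩
  · intro l _
    rfl

theorem a0_mul_ev {s : ℕ} (hs : s ≤ r) (A : Finset ℕ) :
    a0 r s * ev (Finset.univ.filter fun l : Kap r => (l.1 : ℕ) ∈ A) =
      lam s A • ev (Finset.univ.filter fun l : Kap r => (l.1 : ℕ) ∈ A) := by
  unfold a0 lam
  rw [Finset.sum_mul, ← sum_Tset hs (fun i => (2 : ℚ) ^ i * (if i ∈ A then -1 else 1)),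
    Finset.sum_smul]
  refine Finset.sum_congr rfl fun l hl => ?_
  rw [smul_mul_assoc, X_mul_ev (mem_Tset.mp hl).2, smul_smul]
  simp

theorem pow_mul_eig {B : Type} [Ring B] [Algebra ℚ B] {a e : B} {c : ℚ} (h : a * e = c • e)
    (k : ℕ) : a ^ k * e = c ^ k • e := by
  induction k with
  | zero => simp
  | succ k ih => rw [pow_succ, mul_assoc, h, mul_smul_comm, ih, smul_smul, pow_succ, mul_comm]

theorem lam_eq {s : ℕ} {A : Finset ℕ} (hA : A ⊆ Finset.range s) :
    lam s A = ∑ i ∈ Finset.range s, (2 : ℚ) ^ i - 2 * ((∑ i ∈ A, 2 ^ i : ℕ) : ℚ) := by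
  have h1 : ∑ i ∈ A, (2 : ℚ) ^ i = ∑ i ∈ Finset.range s, if i ∈ A then (2 : ℚ) ^ i else 0 := by
    rw [← Finset.sum_filter]
    congr 1
    ext i
    simp only [Finset.mem_filter]
    exact ⟨fun h => ⟨hA h, h⟩, fun h => h.2⟩
  unfold lam
  push_cast
  rw [h1, Finset.mul_sum, ← Finset.sum_sub_distrib]
  refine Finset.sum_congr rfl fun i _ => ?_
  split_ifs <;> ring

theorem lam_inj {s : ℕ} {A B : Finset ℕ} (hA : A ⊆ Finset.range s) (hB : B ⊆ Finset.range s)
    (h : lam s A = lam s B) : A = B := by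
  rw [lam_eq hA, lam_eq hB] at h
  have h1 : ((∑ i ∈ A, 2 ^ i : ℕ) : ℚ) = ((∑ i ∈ B, 2 ^ i : ℕ) : ℚ) := by linarith
  exact Finset.geomSum_injective (n := 2) le_rfl (Nat.cast_injective h1)

end PtAX

theorem Tset_mono {s s' : ℕ} (h : s ≤ s') : Tset r s ⊆ Tset r s' := by
  intro l hl
  rw [PtAX.mem_Tset] at hl ⊢
  exact ⟨lt_of_lt_of_le hl.1 h, hl.2⟩
theorem card_Fset {s : ℕ} (hs : s ≤ r) : (Fset r s).card ≤ 4 ^ (r - s) := by
  rw [← card_Lam (r := r - s), ← Finset.card_univ]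
  refine Finset.card_le_card_of_injOn
    (fun φ : Lam r => (fun k : Kap (r - s) =>
      φ (⟨s + (k.1 : ℕ), by have := k.1.2; omega⟩, k.2) : Lam (r - s)))
    (fun _ _ => Finset.mem_coe.mpr (Finset.mem_univ _)) ?_
  intro φ hφ ψ hψ h
  have hφ' : ∀ l : Kap r, (l.1 : ℕ) < s → φ l = 0 := by
    have := Finset.mem_coe.mp hφ
    simp only [Fset, Finset.mem_filter] at this
    exact this.2.2
  have hψ' : ∀ l : Kap r, (l.1 : ℕ) < s → ψ l = 0 := by
    have := Finset.mem_coe.mp hψ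
    simp only [Fset, Finset.mem_filter] at this
    exact this.2.2
  funext l
  by_cases hl : (l.1 : ℕ) < s
  · rw [hφ' l hl, hψ' l hl]
  · have h1 : (l.1 : ℕ) - s < r - s := by have := l.1.2; omega
    have h2 := congrFun h (⟨(l.1 : ℕ) - s, h1⟩, l.2)
    have h3 : ((⟨s + ((l.1 : ℕ) - s), by have := l.1.2; omega⟩ : Fin r), l.2) = l := by
      refine Prod.ext (Fin.ext ?_) rfl
      simp only
      omega
    simp only at h2
    rw [h3] at h2
    exact h2
theorem Fset_odd {s : ℕ} {φ : Lam r} (h : φ ∈ Fset r s) : ∃ l, l ∉ Tset r s ∧ φ l = 1 := by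
  simp only [Fset, Finset.mem_filter] at h
  obtain ⟨-, h0, h1⟩ := h
  obtain ⟨l, hl⟩ := Function.ne_iff.mp h0
  refine ⟨l, fun hT => hl (h1 l (PtAX.mem_Tset.mp hT).1), ?_⟩
  rcases TwA0X.zm2 (φ l) with e | e
  · exact absurd e hl
  · exact e
theorem a0_supp {s : ℕ} {χ : Lam r} (h : a0 r s χ ≠ 0) : ∀ l, l ∉ Tset r s → χ l = 0 := by
  intro l hl
  unfold a0 at h
  rw [Tw.sum_apply] at h
  obtain ⟨k, hk, hne⟩ := Finset.exists_ne_zero_of_sum_ne_zero h
  rw [Tw.smul_apply, PP_apply] at hne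
  have hχ : χ = Pi.single k 1 := by
    by_contra hc
    rw [if_neg hc, mul_zero] at hne
    exact hne rfl
  have hlk : l ≠ k := fun e => hl (e ▸ hk)
  rw [hχ, Pi.single_eq_of_ne hlk]
/-- the powers of `a₀` are independent (eigenvalues `∑ ± 2^l` are distinct) -/
theorem a0_pow_indep {s : ℕ} (hs : s ≤ r) :
    LinearIndependent ℚ (fun k : Fin (2 ^ s) => a0 r s ^ (k : ℕ)) := by
  rw [Fintype.linearIndependent_iff]
  intro g hg
  have hc : (Finset.range s).powerset.card = 2 ^ s := by simp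
  let e := (Finset.equivFinOfCardEq hc).symm
  have hsub : ∀ j, (e j).1 ⊆ Finset.range s := fun j => Finset.mem_powerset.mp (e j).2
  have hinj : Function.Injective fun j : Fin (2 ^ s) => PtAX.lam s (e j).1 := by
    intro i j hij
    exact e.injective (Subtype.ext (PtAX.lam_inj (hsub i) (hsub j) hij))
  have hz : g = 0 := by
    refine Matrix.eq_zero_of_forall_index_sum_pow_mul_eq_zero hinj fun j => ?_
    have h1 := congrArg
      (fun b : Tw (u1 r) => (b * PtAX.ev (Finset.univ.filter fun l : Kap r => (l.1 : ℕ) ∈ (e j).1)) 0) hg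
    simp only [Finset.sum_mul, smul_mul_assoc, zero_mul,
      PtAX.pow_mul_eig (PtAX.a0_mul_ev hs (e j).1)] at h1
    rw [Tw.sum_apply, Tw.zero_apply] at h1
    rw [← h1]
    refine Finset.sum_congr rfl fun i _ => ?_
    rw [Tw.smul_apply, Tw.smul_apply, PtAX.ev_zero]
    ring
  intro i
  rw [hz]
  rfl

end Crest.Agent.R180
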