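import Crest.Agent.R180.PtA
/-! `theta_inj` from the spanning property. -/
set_option autoImplicit false
open scoped BigOperators
namespace Crest.Agent.R180
namespace PtX
variable {r : ℕ}

theorem gam_u1_ne (χ ψ : Lam r) : gam (u1 r) χ ψ ≠ 0 := by
  unfold gam
  refine mul_ne_zero (Finset.prod_ne_zero_iff.2 fun l _ => ?_)
    (Finset.prod_ne_zero_iff.2 fun l _ => ?_)
  · split_ifs <;> norm_num
  · split_ifs <;> simp [u1]

theorem gam_single_right (i : Fin r) (ψ : Lam r) (h : ψ (i, true) = 1) :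
    gam (u1 r) ψ (Pi.single (i, false) 1) = -1 := by
  unfold gam
  have h2 : (∏ l : Kap r, if ψ l = 1 ∧ (Pi.single (i, false) 1 : Lam r) l = 1
      then u1 r l else 1) = 1 := by
    refine Finset.prod_eq_one fun l _ => ?_
    split_ifs <;> simp [u1]
  rw [h2, mul_one, Finset.prod_eq_single i]
  · rw [if_pos ⟨h, by simp⟩]
  · intro k _ hk
    rw [if_neg]
    rintro ⟨-, h3⟩
    rw [Pi.single_eq_of_ne (by simp [hk])] at h3
    exact absurd h3 (by decide)
  · intro hn; exact absurd (Finset.mem_univ i) hn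

theorem zero_sub_self (ψ : Lam r) : 0 - ψ = ψ := by
  funext l
  have : ∀ a : ZMod 2, 0 - a = a := by decide
  exact this _

theorem theta_inj_of {s : ℕ}
    (hspan : ∀ χ : Lam r, (∀ l, l ∉ Tset r s → χ l = 0) →
      PP (u1 r) χ ∈ Submodule.span ℚ (Set.range fun k : Fin (2 ^ s) => a0 r s ^ (k : ℕ)))
    (ρ : Tw (u1 r)) (h1 : a0 r s * ρ = ρ * a0 r s)
    (h2 : ∀ k : Fin (2 ^ s), tau (u1 r) (ρ * a0 r s ^ (k : ℕ)) = 0)
    (h3 : ∀ k : Fin (2 ^ s), ∀ φ ∈ Fset r s,
      tau (u1 r) (ρ * a0 r s ^ (k : ℕ) * PP (u1 r) φ) = 0) : ρ = 0 := by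
  classical
  have hcomm : ∀ b ∈ Submodule.span ℚ (Set.range fun k : Fin (2 ^ s) => a0 r s ^ (k : ℕ)),
      b * ρ = ρ * b := by
    intro b hb
    induction hb using Submodule.span_induction with
    | mem x hx =>
      obtain ⟨k, rfl⟩ := hx
      exact (Commute.pow_left h1 k).eq
    | zero => simp
    | add x y _ _ hx hy => rw [add_mul, mul_add, hx, hy]
    | smul c x _ hx => rw [smul_mul_assoc, mul_smul_comm, hx]
  refine TwA0X.ext' _ fun ψ => ?_
  rw [Tw.zero_apply]
  by_cases hψ : ∃ i : Fin r, (i : ℕ) < s ∧ ψ (i, true) = 1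
  · obtain ⟨i, hi, hψ⟩ := hψ
    have hm := hspan (Pi.single (i, false) 1) (by
      intro l hl
      refine Pi.single_eq_of_ne ?_ _
      rintro rfl
      exact hl (PtAX.mem_Tset.2 ⟨hi, rfl⟩))
    have hc := congrFun (hcomm _ hm) (ψ + Pi.single (i, false) 1)
    rw [Tw.PP_mul_apply, Tw.mul_PP_apply, add_sub_cancel_right, PtAX.gam_single rfl,
      gam_single_right i ψ hψ] at hc
    linarith
  · push Not at hψ
    set χ : Lam r := fun l => if l ∈ Tset r s then ψ l else 0 with hχ
    set φ : Lam r := fun l => if l ∈ Tset r s then 0 else ψ l with hφ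
    have hsum : χ + φ = ψ := by
      funext l
      simp only [hχ, hφ, Pi.add_apply]
      split_ifs <;> simp
    have hφ0 : ∀ l : Kap r, (l.1 : ℕ) < s → φ l = 0 := by
      rintro ⟨i, b⟩ hl
      simp only [hφ]
      split_ifs with hT
      · rfl
      · cases b
        · exact absurd (PtAX.mem_Tset.2 ⟨hl, rfl⟩) hT
        · rcases TwA0X.zm2 (ψ (i, true)) with e | e
          · exact e
          · exact absurd e (hψ i hl)
    have hk : ∀ k : Fin (2 ^ s), tau (u1 r) (ρ * a0 r s ^ (k : ℕ) * PP (u1 r) φ) = 0 := by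
      intro k
      by_cases h0 : φ = 0
      · rw [h0, ← Tw.one_def, mul_one]
        exact h2 k
      · exact h3 k φ (Finset.mem_filter.2 ⟨Finset.mem_univ _, h0, hφ0⟩)
    have hall : ∀ b ∈ Submodule.span ℚ (Set.range fun k : Fin (2 ^ s) => a0 r s ^ (k : ℕ)),
        tau (u1 r) (ρ * b * PP (u1 r) φ) = 0 := by
      intro b hb
      induction hb using Submodule.span_induction with
      | mem x hx =>
        obtain ⟨k, rfl⟩ := hx
        exact hk k
      | zero => simp
      | add x y _ _ hx hy => rw [mul_add, add_mul, map_add, hx, hy, add_zero]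
      | smul c x _ hx => rw [mul_smul_comm, smul_mul_assoc, map_smul, hx, smul_zero]
    have hm := hall _ (hspan χ (by
      intro l hl
      simp only [hχ, if_neg hl]))
    rw [mul_assoc, PP_mul, hsum, mul_smul_comm, map_smul, smul_eq_mul] at hm
    have h4 : tau (u1 r) (ρ * PP (u1 r) ψ) = gam (u1 r) ψ ψ * ρ ψ := by
      show (ρ * PP (u1 r) ψ) 0 = _
      rw [Tw.mul_PP_apply, zero_sub_self]
    rw [h4] at hm
    exact (mul_eq_zero.1 ((mul_eq_zero.1 hm).resolve_left (gam_u1_ne _ _))).resolve_left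
      (gam_u1_ne _ _)

end PtX
end Crest.Agent.R180
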