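import Crest.Agent.R180.Dep
/-! One step of the chain. -/
set_option autoImplicit false
open scoped BigOperators
namespace Crest.Agent.R180
variable {r : ℕ} {ι : Type} [Fintype ι] [DecidableEq ι] {δ : ι → Kap r → ℤ}

/-- the generic element with coordinates `av` -/
noncomputable def gen (uu : Kap r → ι) (av : Lam r → ι) : Tw (uS uu) :=
  fun χ => MvPolynomial.X (av χ)

theorem dep_step (hδ : PosW δ) {uu : Kap r → ι} (hu : UDeg δ uu) (av : Lam r → ι)
    (hinj : Function.Injective av) (hdisj : ∀ χ l, av χ ≠ uu l) (g : Kap r → ℤ)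
    (hg : ∀ l, Even (g l)) (hav : ∀ χ, δ (av χ) = g - lift χ) {s : ℕ} (hs : s ≤ r)
    (p : Ideal (SS ι)) (hI : (grS hδ).Hom p) (hp : p.IsPrime) (o : ℕ)
    (hgood : Good hδ (sig (Tset r s)) p o) :
    ∃ (q : Ideal (SS ι)) (o' : ℕ), p ≤ q ∧ (grS hδ).Hom q ∧ q.IsPrime ∧
      o' ≤ o + 2 ^ s * 4 ^ (r - s) ∧ Good hδ (sig (Tset r s)) q o' ∧
      ∀ sel, minor (gen uu av) (2 ^ s) sel ∈ q := by
  classical
  have hgen : THom δ uu g (gen uu av) := by
    intro χ
    rw [← hav χ]
    exact MvPolynomial.isWeightedHomogeneous_X ℚ δ (av χ)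
  choose n hn using fun a : Fin (2 ^ s) × Lam r => eqn_hom hu hgen (2 ^ s) (a.1 : ℕ) a.2
  obtain ⟨q, o', hpq, hFq, hq, hqp, ho', hgq⟩ := cut_many hδ (sig (Tset r s))
    ((Finset.univ : Finset (Fin (2 ^ s))) ×ˢ Fset r s)
    (fun a => eqn (gen uu av) (2 ^ s) (a.1 : ℕ) a.2) (fun a => n a • g + lift a.2)
    (fun a _ => hn a)
    (by
      intro a ha
      obtain ⟨l, hl, hl1⟩ := Fset_odd (Finset.mem_product.1 ha).2
      refine sig_lin_ne_zero _ _ l hl ?_
      have h1 : lift a.2 l = 1 := by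
        unfold lift
        rw [hl1]
        rfl
      rw [Pi.add_apply, h1, Pi.smul_apply, nsmul_eq_mul]
      exact ((hg l).mul_left _).add_one) p hI hp o hgood
  refine ⟨q, o', hpq, hq, hqp, ?_, hgq, ?_⟩
  · refine ho'.trans ?_
    rw [Finset.card_product, Finset.card_univ, Fintype.card_fin]
    exact Nat.add_le_add_left (Nat.mul_le_mul_left _ (card_Fset hs)) _
  -- the special point
  let pt : ι → ℚ := fun v =>
    if ∃ l, v = uu l then 1 else Function.extend av (fun χ => a0 r s χ) (fun _ => 0) v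
  have hpu : ∀ l, pt (uu l) = 1 := fun l => if_pos ⟨l, rfl⟩
  have hpa : ∀ χ, pt (av χ) = a0 r s χ := by
    intro χ
    have hne : ¬ ∃ l, av χ = uu l := fun ⟨l, hl⟩ => hdisj χ l hl
    simp only [pt]
    rw [if_neg hne, hinj.extend_apply]
  have hpt : ∀ i, sig (Tset r s) (lin (δ i)) ≠ 0 → pt i = 0 := by
    intro i hi
    by_contra h0
    apply hi
    by_cases h1 : ∃ l, i = uu l
    · obtain ⟨l, rfl⟩ := h1
      refine sig_lin_eq_zero _ _ fun k _ => ?_
      rw [hu l, Pi.single_apply]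
      split_ifs
      · exact even_two
      · exact Even.zero
    · by_cases h2 : ∃ χ, av χ = i
      · obtain ⟨χ, rfl⟩ := h2
        rw [hpa] at h0
        refine sig_lin_eq_zero _ _ fun k hk => ?_
        have h3 : lift χ k = 0 := by
          unfold lift
          rw [a0_supp h0 k hk]
          rfl
        rw [hav χ, Pi.sub_apply, h3, sub_zero]
        exact hg k
      · exfalso
        apply h0
        simp only [pt]
        rw [if_neg h1, Function.extend_apply' _ _ _ h2]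
  have hker := good_le_ker hδ (sig (Tset r s)) q hq hqp o' hgq pt hpt
  haveI := hqp
  let ev : (SS ι ⧸ q) →ₐ[ℚ] ℚ := Ideal.Quotient.liftₐ q (MvPolynomial.aeval pt) hker
  have hev : ∀ F : SS ι, ev (Ideal.Quotient.mk q F) = MvPolynomial.aeval pt F := fun F => rfl
  let u : Kap r → SS ι ⧸ q := fun l => Ideal.Quotient.mk q (uS uu l)
  have hmk : ∀ l, Ideal.Quotient.mk q (uS uu l) = u l := fun _ => rfl
  have hu1 : ∀ l, (ev : (SS ι ⧸ q) →+* ℚ) (u l) = u1 r l := by
    intro l
    show ev (Ideal.Quotient.mk q (uS uu l)) = 1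
    rw [hev, uS, MvPolynomial.aeval_X, hpu]
  have ha : Tw.map (ev : (SS ι ⧸ q) →+* ℚ) u (u1 r) hu1
      (Tw.map (Ideal.Quotient.mk q) (uS uu) u hmk (gen uu av)) = a0 r s := by
    funext χ
    rw [Tw.map_apply, Tw.map_apply]
    show ev (Ideal.Quotient.mk q (MvPolynomial.X (av χ))) = _
    rw [hev, MvPolynomial.aeval_X, hpa]
  obtain ⟨hR, hd⟩ := RR_eq_zero ev u hu1 hs _ ha (by
    intro k φ hφ
    rw [← eqn_map, Ideal.Quotient.eq_zero_iff_mem]
    exact hFq (k, φ) (Finset.mem_product.2 ⟨Finset.mem_univ _, hφ⟩))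
  intro sel
  rw [← Ideal.Quotient.eq_zero_iff_mem, minor_map (Ideal.Quotient.mk q) (uS uu) u hmk]
  exact minor_eq_zero _ _ hR hd sel

end Crest.Agent.R180
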