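import Crest.Agent.R180.TwA0
/-! The twisted group algebra. -/
set_option autoImplicit false
open scoped BigOperators
namespace Crest.Agent.R180
variable {r : ℕ} {R : Type} [CommRing R]

/-- the sign by which `P χ` and `P ψ` commute -/
def omg (χ ψ : Lam r) : ℤ :=
  ∏ l : Fin r, (if χ (l, true) = 1 ∧ ψ (l, false) = 1 then (-1 : ℤ) else 1) *
    (if ψ (l, true) = 1 ∧ χ (l, false) = 1 then (-1 : ℤ) else 1)

theorem card_Lam : Fintype.card (Lam r) = 4 ^ r := by
  have h : Fintype.card (Lam r) = 2 ^ (r * 2) := by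
    simp [Lam, Kap, ZMod.card]
  rw [h, mul_comm, pow_mul]
  norm_num
theorem tau_one (u : Kap r → R) : tau u 1 = 1 := by
  show (1 : Tw u) 0 = 1
  rw [Tw.one_def, PP_apply, if_pos rfl]

theorem Tw.mul_PP_apply' (u : Kap r → R) (a : Tw u) (ψ ξ : Lam r) :
    (a * PP u ψ) ξ = gam u (ξ - ψ) ψ * a (ξ - ψ) := by
  rw [Tw.mul_apply, Finset.sum_eq_single (ξ - ψ)]
  · rw [PP_apply, sub_sub_cancel, if_pos rfl, mul_one]
  · intro χ _ hχ
    rw [PP_apply, if_neg, mul_zero]
    intro h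
    apply hχ
    rw [← h, sub_sub_cancel]
  · intro h
    exact absurd (Finset.mem_univ _) h

theorem Tw.PP_mul_apply' (u : Kap r → R) (a : Tw u) (ψ ξ : Lam r) :
    (PP u ψ * a) ξ = gam u ψ (ξ - ψ) * a (ξ - ψ) := by
  rw [Tw.mul_apply, Finset.sum_eq_single ψ]
  · rw [PP_apply, if_pos rfl, mul_one]
  · intro χ _ hχ
    rw [PP_apply, if_neg hχ, mul_zero, zero_mul]
  · intro h
    exact absurd (Finset.mem_univ _) h

theorem PP_mul (u : Kap r → R) (χ ψ : Lam r) : PP u χ * PP u ψ = gam u χ ψ • PP u (χ + ψ) := by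
  funext ξ
  rw [Tw.PP_mul_apply', Tw.smul_apply, PP_apply, PP_apply]
  by_cases h : ξ = χ + ψ
  · have h' : ξ - χ = ψ := by rw [h, add_sub_cancel_left]
    rw [if_pos h, if_pos h', h']
  · have h' : ¬ (ξ - χ = ψ) := by
      intro h'
      apply h
      rw [← h', add_sub_cancel]
    rw [if_neg h, if_neg h', mul_zero, mul_zero]
theorem omg_eq (χ ψ : Lam r) : omg χ ψ = 1 ∨ omg χ ψ = -1 := by
  unfold omg
  refine Finset.prod_induction _ (fun x : ℤ => x = 1 ∨ x = -1) ?_ (Or.inl rfl) ?_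
  · rintro a b (rfl | rfl) (rfl | rfl) <;> simp
  · intro l _
    split_ifs <;> simp
theorem gam_comm (u : Kap r → R) (χ ψ : Lam r) : gam u χ ψ = (omg χ ψ : R) * gam u ψ χ := by
  unfold gam omg
  rw [← mul_assoc]
  congr 1
  · rw [Int.cast_prod, ← Finset.prod_mul_distrib]
    refine Finset.prod_congr rfl fun l _ => ?_
    split_ifs <;> simp
  · refine Finset.prod_congr rfl fun l _ => ?_
    simp only [and_comm]
theorem PP_comm (u : Kap r → R) (χ ψ : Lam r) :
    PP u χ * PP u ψ = (omg χ ψ : R) • (PP u ψ * PP u χ) := by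
  rw [PP_mul, PP_mul, smul_smul, ← gam_comm, add_comm]
theorem PP_single_sq (u : Kap r → R) (l : Kap r) :
    PP u (Pi.single l 1) * PP u (Pi.single l 1) = u l • (1 : Tw u) := by
  have h0 : (Pi.single l 1 + Pi.single l 1 : Lam r) = 0 := by
    funext k
    rw [Pi.add_apply, CharTwo.add_self_eq_zero, Pi.zero_apply]
  have hs : ∀ k : Kap r, (Pi.single l 1 : Lam r) k = 1 ↔ k = l := by
    intro k
    by_cases hk : k = l
    · subst hk
      simp
    · simp [hk]
  have hg : gam u (Pi.single l 1) (Pi.single l 1) = u l := by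
    unfold gam
    simp only [hs, and_self]
    rw [Finset.prod_ite_eq' Finset.univ l u, if_pos (Finset.mem_univ _), Finset.prod_eq_one,
      one_mul]
    intro k _
    rw [if_neg]
    rintro ⟨h1, h2⟩
    rw [← h2] at h1
    simp at h1
  rw [PP_mul, h0, hg, Tw.one_def]

theorem Tw.sum_apply (u : Kap r → R) {ι : Type*} (s : Finset ι) (a : ι → Tw u) (ξ : Lam r) :
    (∑ i ∈ s, a i) ξ = ∑ i ∈ s, a i ξ :=
  Finset.sum_apply (M := fun _ : Lam r => R) ξ s a

theorem Tw.eq_sum (u : Kap r → R) (a : Tw u) : a = ∑ χ, a χ • PP u χ := by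
  funext ξ
  rw [Tw.sum_apply, Finset.sum_eq_single ξ]
  · rw [Tw.smul_apply, PP_apply, if_pos rfl, mul_one]
  · intro χ _ hχ
    rw [Tw.smul_apply, PP_apply, if_neg (Ne.symm hχ), mul_zero]
  · intro h
    exact absurd (Finset.mem_univ _) h
theorem Tw.algebraMap_apply (u : Kap r → R) (c : R) (ξ : Lam r) :
    algebraMap R (Tw u) c ξ = if ξ = 0 then c else 0 := by
  rw [Algebra.algebraMap_eq_smul_one, Tw.smul_apply, Tw.one_def, PP_apply]
  split_ifs <;> simp
theorem Tw.mul_PP_apply (u : Kap r → R) (a : Tw u) (ψ ξ : Lam r) :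
    (a * PP u ψ) ξ = gam u (ξ - ψ) ψ * a (ξ - ψ) :=
  Tw.mul_PP_apply' u a ψ ξ
theorem Tw.PP_mul_apply (u : Kap r → R) (a : Tw u) (ψ ξ : Lam r) :
    (PP u ψ * a) ξ = gam u ψ (ξ - ψ) * a (ξ - ψ) :=
  Tw.PP_mul_apply' u a ψ ξ
theorem lift_add (χ ψ : Lam r) (l : Kap r) :
    lift χ l + lift ψ l = lift (χ + ψ) l + 2 * (if χ l = 1 ∧ ψ l = 1 then 1 else 0) := by
  unfold lift
  rw [Pi.add_apply]
  generalize χ l = a
  generalize ψ l = b
  revert a b
  decide

theorem gam_map {R' : Type} [CommRing R'] (f : R →+* R') (u : Kap r → R) (u' : Kap r → R')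
    (h : ∀ l, f (u l) = u' l) (χ ψ : Lam r) : f (gam u χ ψ) = gam u' χ ψ := by
  unfold gam
  rw [map_mul, map_prod, map_prod]
  congr 1
  · refine Finset.prod_congr rfl fun l _ => ?_
    split_ifs <;> simp
  · refine Finset.prod_congr rfl fun l _ => ?_
    split_ifs <;> simp [h]

/-- change of coefficients -/
def Tw.map {R' : Type} [CommRing R'] (f : R →+* R') (u : Kap r → R) (u' : Kap r → R')
    (h : ∀ l, f (u l) = u' l) : Tw u →+* Tw u' where
  toFun a := fun χ => f (a χ)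
  map_one' := by
    funext ξ
    show f ((1 : Tw u) ξ) = (1 : Tw u') ξ
    rw [Tw.one_def, Tw.one_def, PP_apply, PP_apply]
    split_ifs <;> simp
  map_mul' := by
    intro a b
    funext ξ
    show f ((a * b) ξ) = ∑ χ : Lam r, gam u' χ (ξ - χ) * f (a χ) * f (b (ξ - χ))
    rw [Tw.mul_apply, map_sum]
    refine Finset.sum_congr rfl fun χ _ => ?_
    rw [map_mul, map_mul, gam_map f u u' h]
  map_zero' := by
    funext ξ
    exact map_zero f
  map_add' := by
    intro a b
    funext ξ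
    exact map_add f _ _

theorem Tw.map_apply {R' : Type} [CommRing R'] (f : R →+* R') (u : Kap r → R) (u' : Kap r → R')
    (h : ∀ l, f (u l) = u' l) (a : Tw u) (χ : Lam r) : Tw.map f u u' h a χ = f (a χ) := rfl
theorem Tw.map_smul {R' : Type} [CommRing R'] (f : R →+* R') (u : Kap r → R) (u' : Kap r → R')
    (h : ∀ l, f (u l) = u' l) (c : R) (a : Tw u) :
    Tw.map f u u' h (c • a) = f c • Tw.map f u u' h a := by
  funext ξ
  rw [Tw.map_apply, Tw.smul_apply, Tw.smul_apply, Tw.map_apply, map_mul]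
theorem Tw.map_PP {R' : Type} [CommRing R'] (f : R →+* R') (u : Kap r → R) (u' : Kap r → R')
    (h : ∀ l, f (u l) = u' l) (χ : Lam r) : Tw.map f u u' h (PP u χ) = PP u' χ := by
  funext ξ
  rw [Tw.map_apply, PP_apply, PP_apply]
  split_ifs <;> simp

end Crest.Agent.R180
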