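import Crest.Agent.R180.Defs
/-! The twisted group algebra. -/
set_option autoImplicit false
open scoped BigOperators
namespace Crest.Agent.R180
variable {r : ℕ} {R : Type} [CommRing R]

theorem Tw.mul_apply (u : Kap r → R) (a b : Tw u) (ξ : Lam r) :
    (a * b) ξ = ∑ χ : Lam r, gam u χ (ξ - χ) * a χ * b (ξ - χ) := rfl
theorem Tw.add_apply (u : Kap r → R) (a b : Tw u) (ξ : Lam r) : (a + b) ξ = a ξ + b ξ := rfl
theorem Tw.zero_apply (u : Kap r → R) (ξ : Lam r) : (0 : Tw u) ξ = 0 := rfl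
theorem Tw.neg_apply (u : Kap r → R) (a : Tw u) (ξ : Lam r) : (-a) ξ = - a ξ := rfl
theorem Tw.sub_apply (u : Kap r → R) (a b : Tw u) (ξ : Lam r) : (a - b) ξ = a ξ - b ξ := rfl
theorem Tw.smul_apply (u : Kap r → R) (c : R) (a : Tw u) (ξ : Lam r) : (c • a) ξ = c * a ξ := rfl
theorem Tw.one_def (u : Kap r → R) : (1 : Tw u) = PP u 0 := rfl
theorem PP_apply (u : Kap r → R) (χ ξ : Lam r) : PP u χ ξ = if ξ = χ then 1 else 0 := by
  unfold PP
  exact Pi.single_apply (M := R) χ 1 ξ

theorem TwA0X.ext' (u : Kap r → R) {a b : Tw u} (h : ∀ ξ, a ξ = b ξ) : a = b := funext h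

namespace TwA0X

theorem zm2 (a : ZMod 2) : a = 0 ∨ a = 1 := by
  revert a; decide

theorem sgn_cocycle (a a' b b' c : ZMod 2) :
    (if a = 1 ∧ b' = 1 then (-1 : R) else 1) * (if a + b = 1 ∧ c = 1 then (-1 : R) else 1) =
      (if b = 1 ∧ c = 1 then (-1 : R) else 1) * (if a = 1 ∧ b' + c = 1 then (-1 : R) else 1) := by
  have h11 : (1 : ZMod 2) + 1 = 0 := by decide
  have h01 : (0 : ZMod 2) ≠ 1 := by decide
  rcases zm2 a with rfl | rfl <;> rcases zm2 b with rfl | rfl <;> rcases zm2 b' with rfl | rfl <;>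
    rcases zm2 c with rfl | rfl <;> simp [h11, h01]

theorem car_cocycle (v : R) (a b c : ZMod 2) :
    (if a = 1 ∧ b = 1 then v else 1) * (if a + b = 1 ∧ c = 1 then v else 1) =
      (if b = 1 ∧ c = 1 then v else 1) * (if a = 1 ∧ b + c = 1 then v else 1) := by
  have h11 : (1 : ZMod 2) + 1 = 0 := by decide
  have h01 : (0 : ZMod 2) ≠ 1 := by decide
  rcases zm2 a with rfl | rfl <;> rcases zm2 b with rfl | rfl <;>
    rcases zm2 c with rfl | rfl <;> simp [h11, h01]

end TwA0X

theorem gam_zero_left (u : Kap r → R) (χ : Lam r) : gam u 0 χ = 1 := by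
  have h01 : (0 : ZMod 2) ≠ 1 := by decide
  simp [gam, h01]
theorem gam_zero_right (u : Kap r → R) (χ : Lam r) : gam u χ 0 = 1 := by
  have h01 : (0 : ZMod 2) ≠ 1 := by decide
  simp [gam, h01]
theorem gam_cocycle (u : Kap r → R) (χ ψ ξ : Lam r) :
    gam u χ ψ * gam u (χ + ψ) ξ = gam u ψ ξ * gam u χ (ψ + ξ) := by
  unfold gam
  rw [mul_mul_mul_comm, ← Finset.prod_mul_distrib, ← Finset.prod_mul_distrib,
    mul_mul_mul_comm, ← Finset.prod_mul_distrib, ← Finset.prod_mul_distrib]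
  congr 1
  · refine Finset.prod_congr rfl fun l _ => ?_
    exact TwA0X.sgn_cocycle (χ (l, true)) 0 (ψ (l, true)) (ψ (l, false)) (ξ (l, false))
  · refine Finset.prod_congr rfl fun l _ => ?_
    exact TwA0X.car_cocycle (u l) (χ l) (ψ l) (ξ l)
theorem Tw.mul_assoc' (u : Kap r → R) (a b c : Tw u) : a * b * c = a * (b * c) := by
  refine TwA0X.ext' u fun ξ => ?_
  simp only [Tw.mul_apply, Finset.mul_sum, Finset.sum_mul]
  rw [Finset.sum_comm]
  refine Finset.sum_congr rfl fun χ _ => ?_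
  rw [← Equiv.sum_comp (Equiv.addLeft χ)]
  refine Finset.sum_congr rfl fun ψ _ => ?_
  simp only [Equiv.coe_addLeft]
  have e1 : χ + ψ - χ = ψ := by abel
  have e2 : ξ - χ - ψ = ξ - (χ + ψ) := by abel
  have e3 : ξ - χ = ψ + (ξ - (χ + ψ)) := by abel
  have h := gam_cocycle u χ ψ (ξ - (χ + ψ))
  rw [← e3] at h
  rw [e1, e2]
  linear_combination (a χ * b ψ * c (ξ - (χ + ψ))) * h
theorem Tw.one_mul' (u : Kap r → R) (a : Tw u) : 1 * a = a := by
  refine TwA0X.ext' u fun ξ => ?_
  rw [Tw.mul_apply, Tw.one_def, Finset.sum_eq_single (0 : Lam r)]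
  · simp [PP_apply, gam_zero_left]
  · intro χ _ h
    simp [PP_apply, h]
  · simp
theorem Tw.mul_one' (u : Kap r → R) (a : Tw u) : a * 1 = a := by
  refine TwA0X.ext' u fun ξ => ?_
  rw [Tw.mul_apply, Tw.one_def, Finset.sum_eq_single ξ]
  · simp [PP_apply, gam_zero_right]
  · intro χ _ h
    have : ξ - χ ≠ 0 := sub_ne_zero.mpr h.symm
    simp [PP_apply, this]
  · simp
theorem Tw.left_distrib' (u : Kap r → R) (a b c : Tw u) : a * (b + c) = a * b + a * c := by
  refine TwA0X.ext' u fun ξ => ?_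
  simp only [Tw.mul_apply, Tw.add_apply, mul_add, Finset.sum_add_distrib]
theorem Tw.right_distrib' (u : Kap r → R) (a b c : Tw u) : (a + b) * c = a * c + b * c := by
  refine TwA0X.ext' u fun ξ => ?_
  simp only [Tw.mul_apply, Tw.add_apply, mul_add, add_mul, Finset.sum_add_distrib]
theorem Tw.zero_mul' (u : Kap r → R) (a : Tw u) : 0 * a = 0 := by
  refine TwA0X.ext' u fun ξ => ?_
  simp only [Tw.mul_apply, Tw.zero_apply, mul_zero, zero_mul, Finset.sum_const_zero]
theorem Tw.mul_zero' (u : Kap r → R) (a : Tw u) : a * 0 = 0 := by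
  refine TwA0X.ext' u fun ξ => ?_
  simp only [Tw.mul_apply, Tw.zero_apply, mul_zero, Finset.sum_const_zero]
theorem Tw.smul_mul' (u : Kap r → R) (c : R) (a b : Tw u) : (c • a) * b = c • (a * b) := by
  refine TwA0X.ext' u fun ξ => ?_
  simp only [Tw.mul_apply, Tw.smul_apply, Finset.mul_sum]
  exact Finset.sum_congr rfl fun χ _ => by ring
theorem Tw.mul_smul' (u : Kap r → R) (c : R) (a b : Tw u) : a * (c • b) = c • (a * b) := by
  refine TwA0X.ext' u fun ξ => ?_
  simp only [Tw.mul_apply, Tw.smul_apply, Finset.mul_sum]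
  exact Finset.sum_congr rfl fun χ _ => by ring

instance (u : Kap r → R) : Ring (Tw u) :=
  { (inferInstance : AddCommGroup (Tw u)) with
    mul := (· * ·)
    one := 1
    left_distrib := Tw.left_distrib' u
    right_distrib := Tw.right_distrib' u
    zero_mul := Tw.zero_mul' u
    mul_zero := Tw.mul_zero' u
    mul_assoc := Tw.mul_assoc' u
    one_mul := Tw.one_mul' u
    mul_one := Tw.mul_one' u }

instance (u : Kap r → R) : Algebra R (Tw u) :=
  Algebra.ofModule (Tw.smul_mul' u) (Tw.mul_smul' u)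

instance (u : Kap r → R) {A B : Type} [Semiring A] [Semiring B] [Module A R] [Module B R] [SMul A B]
    [IsScalarTower A B R] : IsScalarTower A B (Tw u) :=
  inferInstanceAs (IsScalarTower A B (Lam r → R))
instance (u : Kap r → R) : Module.Finite R (Tw u) := inferInstanceAs (Module.Finite R (Lam r → R))
instance (u : Kap r → R) : Module.Free R (Tw u) := inferInstanceAs (Module.Free R (Lam r → R))

/-- the normalised trace -/
def tau (u : Kap r → R) : Tw u →ₗ[R] R where
  toFun a := a 0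
  map_add' _ _ := rfl
  map_smul' _ _ := rfl

end Crest.Agent.R180
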