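import Crest.Agent.R180.TwA
import Crest.Agent.R180.IdA
/-! The grading of the generic twisted algebra. -/
set_option autoImplicit false
set_option linter.unusedSectionVars false
open scoped BigOperators
namespace Crest.Agent.R180
variable {r : ℕ} {ι : Type} [Fintype ι] [DecidableEq ι] {δ : ι → Kap r → ℤ}

/-- the generic parameters -/
noncomputable def uS (uu : Kap r → ι) : Kap r → SS ι := fun l => MvPolynomial.X (uu l)

/-- the parameter variables have degree `2 e_l` -/
def UDeg (δ : ι → Kap r → ℤ) (uu : Kap r → ι) : Prop := ∀ l, δ (uu l) = Pi.single l 2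

def THom (δ : ι → Kap r → ℤ) (uu : Kap r → ι) (g : Kap r → ℤ) (a : Tw (uS uu)) : Prop :=
  ∀ χ, MvPolynomial.IsWeightedHomogeneous δ (a χ) (g - lift χ)

/-- `p · V` -/
def pV (uu : Kap r → ι) (p : Ideal (SS ι)) : Submodule (SS ι) (Tw (uS uu)) where
  carrier := {a | ∀ χ, a χ ∈ p}
  add_mem' ha hb χ := p.add_mem (ha χ) (hb χ)
  zero_mem' _ := p.zero_mem
  smul_mem' c _ ha χ := p.mul_mem_left c (ha χ)

variable {uu : Kap r → ι}

namespace TwGX
theorem congr {F : SS ι} {g g' : Kap r → ℤ} (h : MvPolynomial.IsWeightedHomogeneous δ F g)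
    (e : g = g') : MvPolynomial.IsWeightedHomogeneous δ F g' := e ▸ h
theorem neg {F : SS ι} {g : Kap r → ℤ} (h : MvPolynomial.IsWeightedHomogeneous δ F g) :
    MvPolynomial.IsWeightedHomogeneous δ (-F) g :=
  (MvPolynomial.weightedHomogeneousSubmodule ℚ δ g).neg_mem h
theorem sum {α : Type} (t : Finset α) {F : α → SS ι} {g : Kap r → ℤ}
    (h : ∀ i ∈ t, MvPolynomial.IsWeightedHomogeneous δ (F i) g) :
    MvPolynomial.IsWeightedHomogeneous δ (∑ i ∈ t, F i) g :=
  (MvPolynomial.weightedHomogeneousSubmodule ℚ δ g).sum_mem h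
theorem lift_zero : lift (0 : Lam r) = 0 := by
  funext l
  simp [lift]
end TwGX

theorem gam_hom (hu : UDeg δ uu) (χ ψ : Lam r) :
    MvPolynomial.IsWeightedHomogeneous δ (gam (uS uu) χ ψ) (lift χ + lift ψ - lift (χ + ψ)) := by
  classical
  have h1 : MvPolynomial.IsWeightedHomogeneous δ
      (∏ l : Fin r, if χ (l, true) = 1 ∧ ψ (l, false) = 1 then (-1 : SS ι) else 1)
      (∑ _l : Fin r, (0 : Kap r → ℤ)) := by
    refine MvPolynomial.IsWeightedHomogeneous.prod _ _ _ fun l _ => ?_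
    split_ifs
    · exact TwGX.neg (MvPolynomial.isWeightedHomogeneous_one ℚ δ)
    · exact MvPolynomial.isWeightedHomogeneous_one ℚ δ
  have h2 : MvPolynomial.IsWeightedHomogeneous δ
      (∏ l : Kap r, if χ l = 1 ∧ ψ l = 1 then uS uu l else 1)
      (∑ l : Kap r, if χ l = 1 ∧ ψ l = 1 then (Pi.single l 2 : Kap r → ℤ) else 0) := by
    refine MvPolynomial.IsWeightedHomogeneous.prod _ _ _ fun l _ => ?_
    split_ifs
    · rw [← hu l]
      exact MvPolynomial.isWeightedHomogeneous_X ℚ δ (uu l)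
    · exact MvPolynomial.isWeightedHomogeneous_one ℚ δ
  refine TwGX.congr (h1.mul h2) ?_
  funext l
  have h3 := lift_add χ ψ l
  have h4 : (∑ l' : Kap r, if χ l' = 1 ∧ ψ l' = 1 then (Pi.single l' 2 : Kap r → ℤ) else 0) l =
      2 * (if χ l = 1 ∧ ψ l = 1 then 1 else 0) := by
    rw [Finset.sum_apply, Finset.sum_eq_single l]
    · split_ifs <;> simp
    · intro b _ hb
      split_ifs
      · exact Pi.single_eq_of_ne (Ne.symm hb) _
      · rfl
    · intro h; exact absurd (Finset.mem_univ l) h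
  simp only [Finset.sum_const_zero, Pi.sub_apply, Pi.add_apply, Pi.zero_apply, zero_add]
  rw [h4]
  linarith
theorem THom.mul (hu : UDeg δ uu) {g g' : Kap r → ℤ} {a b : Tw (uS uu)} (ha : THom δ uu g a)
    (hb : THom δ uu g' b) : THom δ uu (g + g') (a * b) := by
  intro ξ
  rw [Tw.mul_apply]
  refine TwGX.sum _ fun χ _ => ?_
  refine TwGX.congr (((gam_hom hu χ (ξ - χ)).mul (ha χ)).mul (hb (ξ - χ))) ?_
  rw [add_sub_cancel]
  abel
theorem THom.PP (χ : Lam r) : THom δ uu (lift χ) (PP (uS uu) χ) := by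
  intro ξ
  rw [PP_apply]
  split_ifs with h
  · subst h
    rw [sub_self]
    exact MvPolynomial.isWeightedHomogeneous_one ℚ δ
  · exact MvPolynomial.isWeightedHomogeneous_zero ℚ δ _
theorem THom.one : THom δ uu 0 1 := by
  have h := THom.PP (δ := δ) (uu := uu) 0
  rw [TwGX.lift_zero] at h
  exact h
theorem THom.zero (g : Kap r → ℤ) : THom δ uu g 0 := by
  intro χ
  exact MvPolynomial.isWeightedHomogeneous_zero ℚ δ _
theorem THom.add {g : Kap r → ℤ} {a b : Tw (uS uu)} (ha : THom δ uu g a) (hb : THom δ uu g b) :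
    THom δ uu g (a + b) := by
  intro χ
  exact (ha χ).add (hb χ)
theorem THom.neg {g : Kap r → ℤ} {a : Tw (uS uu)} (ha : THom δ uu g a) : THom δ uu g (-a) := by
  intro χ
  exact TwGX.neg (ha χ)
theorem THom.sub {g : Kap r → ℤ} {a b : Tw (uS uu)} (ha : THom δ uu g a) (hb : THom δ uu g b) :
    THom δ uu g (a - b) := by
  rw [sub_eq_add_neg]
  exact ha.add hb.neg
theorem THom.sum {α : Type} (t : Finset α) {g : Kap r → ℤ} {a : α → Tw (uS uu)}
    (ha : ∀ i ∈ t, THom δ uu g (a i)) : THom δ uu g (∑ i ∈ t, a i) := by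
  classical
  induction t using Finset.induction_on with
  | empty => rw [Finset.sum_empty]; exact THom.zero g
  | insert i t hi ih =>
    rw [Finset.sum_insert hi]
    exact (ha i (Finset.mem_insert_self _ _)).add
      (ih fun j hj => ha j (Finset.mem_insert_of_mem hj))
theorem THom.smul {g γ : Kap r → ℤ} {a : Tw (uS uu)} {F : SS ι}
    (hF : MvPolynomial.IsWeightedHomogeneous δ F γ) (ha : THom δ uu g a) :
    THom δ uu (g + γ) (F • a) := by
  intro χ
  rw [Tw.smul_apply]
  refine TwGX.congr (hF.mul (ha χ)) ?_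
  abel
theorem THom.pow (hu : UDeg δ uu) {g : Kap r → ℤ} {a : Tw (uS uu)} (ha : THom δ uu g a) (k : ℕ) :
    THom δ uu (k • g) (a ^ k) := by
  induction k with
  | zero => rw [zero_smul, pow_zero]; exact THom.one
  | succ k ih => rw [succ_nsmul, pow_succ]; exact ih.mul hu ha
theorem THom.tau {g : Kap r → ℤ} {a : Tw (uS uu)} (ha : THom δ uu g a) :
    MvPolynomial.IsWeightedHomogeneous δ (tau (uS uu) a) g := by
  have h := ha 0
  rw [TwGX.lift_zero, sub_zero] at h
  exact h
theorem det_hom {n : Type} [Fintype n] [DecidableEq n] (M : Matrix n n (SS ι)) (ρ c : n → Kap r → ℤ)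
    (h : ∀ i j, MvPolynomial.IsWeightedHomogeneous δ (M i j) (ρ i + c j)) :
    MvPolynomial.IsWeightedHomogeneous δ M.det (∑ i, ρ i + ∑ j, c j) := by
  rw [Matrix.det_apply']
  refine TwGX.sum _ fun σ _ => ?_
  have h1 : MvPolynomial.IsWeightedHomogeneous δ (∏ i, M (σ i) i) (∑ i, (ρ (σ i) + c i)) :=
    MvPolynomial.IsWeightedHomogeneous.prod _ _ _ fun i _ => h (σ i) i
  have h2 : MvPolynomial.IsWeightedHomogeneous δ (((Equiv.Perm.sign σ : ℤˣ) : ℤ) : SS ι) 0 := by
    rcases Int.units_eq_one_or (Equiv.Perm.sign σ) with h | h <;> rw [h]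
    · simpa using MvPolynomial.isWeightedHomogeneous_one ℚ δ
    · simpa using TwGX.neg (MvPolynomial.isWeightedHomogeneous_one ℚ δ)
  refine TwGX.congr (h2.mul h1) ?_
  rw [zero_add, Finset.sum_add_distrib, Equiv.sum_comp σ ρ]
theorem pV_mul_left (p : Ideal (SS ι)) (a b : Tw (uS uu)) (hb : b ∈ pV uu p) : a * b ∈ pV uu p := by
  intro ξ
  rw [Tw.mul_apply]
  exact p.sum_mem fun χ _ => p.mul_mem_left _ (hb _)
theorem pV_mul_right (p : Ideal (SS ι)) (a b : Tw (uS uu)) (ha : a ∈ pV uu p) :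
    a * b ∈ pV uu p := by
  intro ξ
  rw [Tw.mul_apply]
  exact p.sum_mem fun χ _ => p.mul_mem_right _ (p.mul_mem_left _ (ha _))

end Crest.Agent.R180
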