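import Crest.Agent.R180.TwG
/-! The twisted algebra as a graded module. -/
set_option autoImplicit false
open scoped BigOperators
namespace Crest.Agent.R180
variable {r : ℕ} {ι : Type} [Fintype ι] [DecidableEq ι] {δ : ι → Kap r → ℤ}

noncomputable def tPart (δ : ι → Kap r → ℤ) (uu : Kap r → ι) (g : Kap r → ℤ) :
    Submodule ℚ (Tw (uS uu)) where
  carrier := {a | THom δ uu g a}
  add_mem' ha hb := THom.add ha hb
  zero_mem' := THom.zero g
  smul_mem' := by
    intro c a ha χ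
    exact (MvPolynomial.weightedHomogeneousSubmodule ℚ δ (g - lift χ)).smul_mem c (ha χ)

noncomputable def tComp (δ : ι → Kap r → ℤ) (uu : Kap r → ι) (g : Kap r → ℤ) :
    Tw (uS uu) →ₗ[ℚ] Tw (uS uu) where
  toFun a := fun χ => MvPolynomial.weightedHomogeneousComponent δ (g - lift χ) (a χ)
  map_add' := by
    intro a b
    funext χ
    exact map_add (MvPolynomial.weightedHomogeneousComponent δ (g - lift χ)) (a χ) (b χ)
  map_smul' := by
    intro c a
    funext χ
    exact map_smul (MvPolynomial.weightedHomogeneousComponent δ (g - lift χ)) c (a χ)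

namespace TwHX

theorem tComp_apply (uu : Kap r → ι) (g : Kap r → ℤ) (a : Tw (uS uu)) (χ : Lam r) :
    tComp δ uu g a χ = MvPolynomial.weightedHomogeneousComponent δ (g - lift χ) (a χ) := rfl

theorem fin_supp (uu : Kap r → ι) (v : Tw (uS uu)) :
    (Function.support fun g => tComp δ uu g v).Finite := by
  refine (Set.finite_iUnion fun χ : Lam r =>
    ((MvPolynomial.weightedHomogeneousComponent_finsupp (w := δ) (v χ)).image
      (fun g => g + lift χ))).subset ?_
  intro g hg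
  have hg' : tComp δ uu g v ≠ 0 := hg
  obtain ⟨χ, hχ⟩ : ∃ χ, tComp δ uu g v χ ≠ 0 := by
    by_contra hcon
    push Not at hcon
    exact hg' (funext hcon)
  exact Set.mem_iUnion.2 ⟨χ, g - lift χ, hχ, sub_add_cancel _ _⟩

theorem sum_comp (uu : Kap r → ι) (v : Tw (uS uu)) : ∑ᶠ g, tComp δ uu g v = v := by
  classical
  funext χ
  rw [finsum_eq_sum _ (fin_supp (δ := δ) uu v), Tw.sum_apply]
  have h1 : ∑ g ∈ (fin_supp (δ := δ) uu v).toFinset, tComp δ uu g v χ =
      ∑ᶠ g, tComp δ uu g v χ := by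
    refine (finsum_eq_sum_of_support_subset _ ?_).symm
    intro g hg
    have hg' : tComp δ uu g v χ ≠ 0 := hg
    refine Finset.mem_coe.2 ((Set.Finite.mem_toFinset _).2 ?_)
    intro h0
    apply hg'
    have h0' : tComp δ uu g v = 0 := h0
    rw [h0']
    rfl
  rw [h1]
  have h2 := finsum_comp_equiv (Equiv.subRight (lift χ))
    (f := fun g => MvPolynomial.weightedHomogeneousComponent δ g (v χ))
  exact h2.trans (MvPolynomial.sum_weightedHomogeneousComponent δ (v χ))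

/-- a coordinatewise submodule is a product -/
noncomputable def piEquiv (uu : Kap r → ι) (U : Lam r → Submodule ℚ (SS ι))
    (W : Submodule ℚ (Tw (uS uu))) (h : ∀ a, a ∈ W ↔ ∀ χ, a χ ∈ U χ) :
    W ≃ₗ[ℚ] (∀ χ, U χ) where
  toFun a := fun χ => ⟨a.1 χ, (h a.1).1 a.2 χ⟩
  map_add' _ _ := rfl
  map_smul' _ _ := rfl
  invFun f := ⟨fun χ => (f χ).1, (h _).2 fun χ => (f χ).2⟩
  left_inv _ := rfl
  right_inv _ := rfl

theorem fd_pi (uu : Kap r → ι) (U : Lam r → Submodule ℚ (SS ι))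
    (W : Submodule ℚ (Tw (uS uu))) (h : ∀ a, a ∈ W ↔ ∀ χ, a χ ∈ U χ)
    (hU : ∀ χ, FiniteDimensional ℚ (U χ)) : FiniteDimensional ℚ W :=
  LinearEquiv.finiteDimensional (piEquiv uu U W h).symm

theorem finrank_pi (uu : Kap r → ι) (U : Lam r → Submodule ℚ (SS ι))
    (W : Submodule ℚ (Tw (uS uu))) (h : ∀ a, a ∈ W ↔ ∀ χ, a χ ∈ U χ)
    (hU : ∀ χ, FiniteDimensional ℚ (U χ)) :
    Module.finrank ℚ W = ∑ χ, Module.finrank ℚ (U χ) := by
  rw [(piEquiv uu U W h).finrank_eq, Module.finrank_pi_fintype]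

end TwHX

noncomputable def grT (hδ : PosW δ) (uu : Kap r → ι) : Gr δ (Tw (uS uu)) where
  part := tPart δ uu
  comp := tComp δ uu
  comp_mem := by
    intro g v χ
    exact MvPolynomial.weightedHomogeneousComponent_isWeightedHomogeneous _ _
  comp_of_mem := by
    intro g v hv
    funext χ
    exact (grS hδ).comp_of_mem (g - lift χ) (v χ) (hv χ)
  comp_of_ne := by
    intro g g' v hv hne
    funext χ
    exact (grS hδ).comp_of_ne (g - lift χ) (g' - lift χ) (v χ) (hv χ)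
      (fun h => hne (sub_left_injective h))
  fin_supp := TwHX.fin_supp uu
  sum_comp := TwHX.sum_comp uu
  fd := by
    intro g
    exact TwHX.fd_pi uu (fun χ => MvPolynomial.weightedHomogeneousSubmodule ℚ δ (g - lift χ)) _
      (fun _ => Iff.rfl) (fun χ => fd_whom hδ _)
  smul_mem := by
    intro F γ g v hF hv
    exact THom.smul hF hv

instance (uu : Kap r → ι) : IsNoetherian (SS ι) (Tw (uS uu)) := inferInstance

theorem pV_hom (hδ : PosW δ) (uu : Kap r → ι) (p : Ideal (SS ι)) (hp : (grS hδ).Hom p) :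
    (grT hδ uu).Hom (pV uu p) := by
  intro v hv g χ
  exact hp (v χ) (hv χ) (g - lift χ)

namespace TwHX

theorem finrank_fam (hδ : PosW δ) (uu : Kap r → ι) (p : Ideal (SS ι))
    (N : Submodule (SS ι) (Tw (uS uu))) (hN : ∀ a, a ∈ N ↔ ∀ χ, a χ ∈ p) (g : Kap r → ℤ) :
    Module.finrank ℚ ((grT hδ uu).fam N g) =
      ∑ χ, Module.finrank ℚ ((grS hδ).fam p (g - lift χ)) := by
  refine finrank_pi uu (fun χ => (grS hδ).fam p (g - lift χ)) _ ?_ ?_
  · intro a
    constructor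
    · intro ha χ
      obtain ⟨h1, h2⟩ := Submodule.mem_inf.1 ha
      exact Submodule.mem_inf.2 ⟨(hN a).1 h1 χ, h2 χ⟩
    · intro ha
      exact Submodule.mem_inf.2 ⟨(hN a).2 fun χ => (Submodule.mem_inf.1 (ha χ)).1,
        fun χ => (Submodule.mem_inf.1 (ha χ)).2⟩
  · intro χ
    have := (grS hδ).fd (g - lift χ)
    exact Submodule.finiteDimensional_of_le
      (S₂ := (grS hδ).part (g - lift χ)) inf_le_right

theorem eq_sum (hδ : PosW δ) (uu : Kap r → ι) (a : Tw (uS uu)) :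
    a = ∑ g ∈ ((grT hδ uu).fin_supp a).toFinset, (grT hδ uu).comp g a := by
  rw [← finsum_eq_sum _ ((grT hδ uu).fin_supp a)]
  exact ((grT hδ uu).sum_comp a).symm

theorem exists_part (hδ : PosW δ) (uu : Kap r → ι) (N : Submodule (SS ι) (Tw (uS uu)))
    (a : Tw (uS uu)) (ha : a ∉ N) :
    ∃ A : Finset (Kap r → ℤ), A.Nonempty ∧ (∀ g ∈ A, (grT hδ uu).comp g a ∉ N) ∧
      ∀ g, g ∉ A → (grT hδ uu).comp g a ∈ N := by
  classical
  refine ⟨((grT hδ uu).fin_supp a).toFinset.filter (fun g => (grT hδ uu).comp g a ∉ N), ?_, ?_, ?_⟩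
  · by_contra hne
    apply ha
    rw [eq_sum hδ uu a]
    refine N.sum_mem fun g hg => ?_
    by_contra h
    exact hne ⟨g, Finset.mem_filter.2 ⟨hg, h⟩⟩
  · intro g hg
    exact (Finset.mem_filter.1 hg).2
  · intro g hg
    by_contra h
    apply hg
    refine Finset.mem_filter.2 ⟨(Set.Finite.mem_toFinset _).2 ?_, h⟩
    intro h0
    apply h
    have h0' : (grT hδ uu).comp g a = 0 := h0
    rw [h0']
    exact N.zero_mem

end TwHX

theorem h_pV (hδ : PosW δ) (uu : Kap r → ι) (p : Ideal (SS ι)) :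
    (grT hδ uu).h (pV uu p) ⊤ = ∑ χ : Lam r, fun g => (grS hδ).h p ⊤ (g - lift χ) := by
  funext g
  rw [Finset.sum_apply]
  simp only [Gr.h, hf]
  rw [TwHX.finrank_fam hδ uu p (pV uu p) (fun _ => Iff.rfl) g,
    TwHX.finrank_fam hδ uu ⊤ ⊤ (fun _ => by simp) g, Finset.sum_sub_distrib]
  push_cast
  rfl

theorem comp_mul_hom (hδ : PosW δ) {uu : Kap r → ι} (hu : UDeg δ uu) (a b : Tw (uS uu))
    (g g' : Kap r → ℤ) (hb : THom δ uu g' b) :
    (grT hδ uu).comp (g + g') (a * b) = (grT hδ uu).comp g a * b := by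
  classical
  have h1 : (grT hδ uu).comp (g + g') (a * b) =
      ∑ g₁ ∈ ((grT hδ uu).fin_supp a).toFinset,
        (grT hδ uu).comp (g + g') ((grT hδ uu).comp g₁ a * b) := by
    conv_lhs => rw [TwHX.eq_sum hδ uu a]
    rw [Finset.sum_mul, map_sum]
  have hm : ∀ g₁, (grT hδ uu).comp g₁ a * b ∈ (grT hδ uu).part (g₁ + g') := fun g₁ =>
    THom.mul hu ((grT hδ uu).comp_mem g₁ a) hb
  rw [h1, Finset.sum_eq_single g]
  · exact (grT hδ uu).comp_of_mem _ _ (hm g)
  · intro g₁ _ hg₁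
    refine (grT hδ uu).comp_of_ne (g₁ + g') (g + g') _ (hm g₁) ?_
    intro h
    exact hg₁ (add_right_cancel h).symm
  · intro hg
    have : (grT hδ uu).comp g a = 0 := by
      by_contra h
      exact hg ((Set.Finite.mem_toFinset _).2 h)
    rw [this, zero_mul, map_zero]

/-- zero divisors modulo a homogeneous ideal can be taken homogeneous (use `UniqueSums`) -/
theorem exists_hom_zd (hδ : PosW δ) {uu : Kap r → ι} (hu : UDeg δ uu) (p : Ideal (SS ι))
    (hp : (grS hδ).Hom p) (a b : Tw (uS uu)) (ha : a ∉ pV uu p) (hb : b ∉ pV uu p)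
    (hab : a * b ∈ pV uu p) :
    ∃ (a' b' : Tw (uS uu)) (g g' : Kap r → ℤ), THom δ uu g a' ∧ THom δ uu g' b' ∧
      a' ∉ pV uu p ∧ b' ∉ pV uu p ∧ a' * b' ∈ pV uu p := by
  classical
  obtain ⟨A, hA, hA1, hA2⟩ := TwHX.exists_part hδ uu (pV uu p) a ha
  obtain ⟨B, hB, hB1, hB2⟩ := TwHX.exists_part hδ uu (pV uu p) b hb
  obtain ⟨g0, hg0, g0', hg0', hu0⟩ := UniqueSums.uniqueAdd_of_nonempty hA hB
  refine ⟨(grT hδ uu).comp g0 a, (grT hδ uu).comp g0' b, g0, g0', (grT hδ uu).comp_mem g0 a,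
    (grT hδ uu).comp_mem g0' b, hA1 g0 hg0, hB1 g0' hg0', ?_⟩
  have hS : g0' ∈ ((grT hδ uu).fin_supp b).toFinset := by
    refine (Set.Finite.mem_toFinset _).2 ?_
    intro h0
    apply hB1 g0' hg0'
    have h0' : (grT hδ uu).comp g0' b = 0 := h0
    rw [h0']
    exact (pV uu p).zero_mem
  have h1 : (grT hδ uu).comp (g0 + g0') (a * b) =
      ∑ g' ∈ ((grT hδ uu).fin_supp b).toFinset,
        (grT hδ uu).comp (g0 + g0' - g') a * (grT hδ uu).comp g' b := by
    conv_lhs => rw [TwHX.eq_sum hδ uu b]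
    rw [Finset.mul_sum, map_sum]
    refine Finset.sum_congr rfl fun g' _ => ?_
    have := comp_mul_hom hδ hu a ((grT hδ uu).comp g' b) (g0 + g0' - g') g'
      ((grT hδ uu).comp_mem g' b)
    rwa [sub_add_cancel] at this
  have h2 : (grT hδ uu).comp (g0 + g0') (a * b) ∈ pV uu p := pV_hom hδ uu p hp _ hab _
  rw [h1, ← Finset.add_sum_erase _ _ hS, add_sub_cancel_right] at h2
  have h3 : ∑ g' ∈ (((grT hδ uu).fin_supp b).toFinset).erase g0',
      (grT hδ uu).comp (g0 + g0' - g') a * (grT hδ uu).comp g' b ∈ pV uu p := by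
    refine (pV uu p).sum_mem fun g' hg' => ?_
    have hne : g' ≠ g0' := (Finset.mem_erase.1 hg').1
    by_cases hgB : g' ∈ B
    · by_cases hgA : g0 + g0' - g' ∈ A
      · exact absurd (hu0 hgA hgB (sub_add_cancel _ _)).2 hne
      · exact pV_mul_right p _ _ (hA2 _ hgA)
    · exact pV_mul_left p _ _ (hB2 _ hgB)
  have h4 := (pV uu p).sub_mem h2 h3
  rwa [add_sub_cancel_right] at h4

end Crest.Agent.R180
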