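import Crest.Agent.R180.Defs
/-! The ultraproduct. -/
set_option autoImplicit false
open scoped BigOperators
namespace Crest.Agent.R180

namespace Ult
noncomputable section

/-- the ultrafilter -/
def UU : Filter ℕ := (Filter.hyperfilter ℕ : Filter ℕ)

instance : UU.NeBot := by unfold UU; infer_instance

theorem UU_ge (n : ℕ) : ∀ᶠ r in UU, n ≤ r := by
  have h : UU ≤ Filter.atTop := by
    unfold UU
    rw [← Nat.cofinite_eq_atTop]
    exact Filter.hyperfilter_le_cofinite
  exact h (Filter.eventually_ge_atTop n)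

theorem UU_not {p : ℕ → Prop} (h : ¬ ∀ᶠ r in UU, p r) : ∀ᶠ r in UU, ¬ p r := by
  unfold UU at h ⊢
  exact Ultrafilter.eventually_not.2 h

/-- eventual equality -/
def con (R : ℕ → Type) [∀ r, Ring (R r)] : RingCon (∀ r, R r) where
  r a b := ∀ᶠ r in UU, a r = b r
  iseqv := ⟨fun _ => Filter.Eventually.of_forall fun _ => rfl,
    fun h => h.mono fun _ h => h.symm,
    fun h1 h2 => (h1.and h2).mono fun _ h => h.1.trans h.2⟩
  add' := fun h1 h2 => (h1.and h2).mono fun r h => by
    simp only [Pi.add_apply, h.1, h.2]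
  mul' := fun h1 h2 => (h1.and h2).mono fun r h => by
    simp only [Pi.mul_apply, h.1, h.2]

/-- the ultraproduct -/
def UP (R : ℕ → Type) [∀ r, Ring (R r)] : Type := (con R).Quotient

instance instRingUP (R : ℕ → Type) [∀ r, Ring (R r)] : Ring (UP R) :=
  inferInstanceAs (Ring (con R).Quotient)

/-- the projection -/
def mk (R : ℕ → Type) [∀ r, Ring (R r)] : (∀ r, R r) →+* UP R := (con R).mk'

theorem mk_surj (R : ℕ → Type) [∀ r, Ring (R r)] : Function.Surjective (mk R) :=
  (con R).mk'_surjective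

theorem mk_eq {R : ℕ → Type} [∀ r, Ring (R r)] {a b : ∀ r, R r} :
    mk R a = mk R b ↔ ∀ᶠ r in UU, a r = b r := (con R).eq

theorem mk_eq_zero {R : ℕ → Type} [∀ r, Ring (R r)] {a : ∀ r, R r} :
    mk R a = 0 ↔ ∀ᶠ r in UU, a r = 0 := by
  rw [← map_zero (mk R), mk_eq]; rfl

theorem nontriv (R : ℕ → Type) [∀ r, DivisionRing (R r)] : Nontrivial (UP R) := by
  refine ⟨⟨1, 0, fun h => ?_⟩⟩
  rw [← map_one (mk R), mk_eq_zero] at h
  obtain ⟨r, hr⟩ := h.exists
  exact one_ne_zero hr

theorem unit_or (R : ℕ → Type) [∀ r, DivisionRing (R r)] (a : UP R) : IsUnit a ∨ a = 0 := by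
  obtain ⟨a, rfl⟩ := mk_surj R a
  by_cases h : mk R a = 0
  · exact Or.inr h
  · left
    rw [mk_eq_zero] at h
    have h' := UU_not h
    refine ⟨⟨mk R a, mk R (fun r => (a r)⁻¹), ?_, ?_⟩, rfl⟩
    · rw [← map_mul, ← map_one (mk R), mk_eq]
      exact h'.mono fun r hr => mul_inv_cancel₀ hr
    · rw [← map_mul, ← map_one (mk R), mk_eq]
      exact h'.mono fun r hr => inv_mul_cancel₀ hr

/-- division ring structure -/
abbrev divUP (R : ℕ → Type) [∀ r, DivisionRing (R r)] : DivisionRing (UP R) :=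
  haveI := nontriv R
  DivisionRing.ofIsUnitOrEqZero (unit_or R)

/-- field structure -/
abbrev fieldUP (R : ℕ → Type) [∀ r, Field (R r)] : Field (UP R) :=
  { divUP R with
    mul_comm := fun a b => by
      obtain ⟨a, rfl⟩ := mk_surj R a
      obtain ⟨b, rfl⟩ := mk_surj R b
      change mk R a * mk R b = mk R b * mk R a
      rw [← map_mul, ← map_mul, mul_comm] }

theorem charZero_UP (R : ℕ → Type) [∀ r, Ring (R r)] [∀ r, CharZero (R r)] :
    CharZero (UP R) := by
  refine ⟨fun m n h => ?_⟩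
  rw [← map_natCast (mk R), ← map_natCast (mk R), mk_eq] at h
  obtain ⟨r, hr⟩ := h.exists
  simpa using hr

variable (M : ℕ → Model)

/-- the limit field -/
abbrev EE : Type := UP (fun r => (M r).E)
/-- the limit algebra -/
abbrev DD : Type := UP (fun r => (M r).D)

instance : Field (EE M) := fieldUP _
instance : DivisionRing (DD M) := divUP _
instance : CharZero (EE M) := charZero_UP _

/-- projection for the fields -/
def mE : (∀ r, (M r).E) →+* EE M := mk _
/-- projection for the algebras -/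
def mD : (∀ r, (M r).D) →+* DD M := mk _

theorem mE_surj : Function.Surjective (mE M) := mk_surj _
theorem mD_surj : Function.Surjective (mD M) := mk_surj _
theorem mE_eq {a b : ∀ r, (M r).E} : mE M a = mE M b ↔ ∀ᶠ r in UU, a r = b r := mk_eq
theorem mD_eq {a b : ∀ r, (M r).D} : mD M a = mD M b ↔ ∀ᶠ r in UU, a r = b r := mk_eq
theorem mE_eq_zero {a : ∀ r, (M r).E} : mE M a = 0 ↔ ∀ᶠ r in UU, a r = 0 := mk_eq_zero
theorem mD_eq_zero {a : ∀ r, (M r).D} : mD M a = 0 ↔ ∀ᶠ r in UU, a r = 0 := mk_eq_zero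

/-- pointwise structure map -/
def piMap : (∀ r, (M r).E) →+* (∀ r, (M r).D) :=
  Pi.ringHom fun r => (algebraMap (M r).E (M r).D).comp (Pi.evalRingHom _ r)

theorem piMap_apply (c : ∀ r, (M r).E) (r : ℕ) :
    piMap M c r = algebraMap (M r).E (M r).D (c r) := rfl

/-- the structure map -/
def am : EE M →+* DD M :=
  (con (fun r => (M r).E)).lift ((mD M).comp (piMap M)) (by
    intro a b h
    rw [RingCon.ker_apply]
    change mD M (piMap M a) = mD M (piMap M b)
    rw [mD_eq]
    have h' : ∀ᶠ r in UU, a r = b r := h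
    exact h'.mono fun r hr => by rw [piMap_apply, piMap_apply, hr])

theorem am_mE (c : ∀ r, (M r).E) : am M (mE M c) = mD M (piMap M c) := rfl

instance : Algebra (EE M) (DD M) :=
  (am M).toAlgebra' (by
    intro c a
    obtain ⟨c, rfl⟩ := mE_surj M c
    obtain ⟨a, rfl⟩ := mD_surj M a
    rw [am_mE, ← map_mul, ← map_mul]
    congr 1
    funext r
    simp only [Pi.mul_apply, piMap_apply]
    exact Algebra.commutes _ _)

theorem algebraMap_mE (c : ∀ r, (M r).E) :
    algebraMap (EE M) (DD M) (mE M c) = mD M (piMap M c) := rfl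

theorem smul_mk (c : ∀ r, (M r).E) (a : ∀ r, (M r).D) :
    mE M c • mD M a = mD M (fun r => c r • a r) := by
  rw [Algebra.smul_def, algebraMap_mE, ← map_mul]
  congr 1
  funext r
  simp only [Pi.mul_apply, piMap_apply, Algebra.smul_def]

/-- the trace as a function -/
def tf (a : DD M) : EE M :=
  Quotient.liftOn' (s₁ := (con (fun r => (M r).D)).toSetoid) a
    (fun a => mE M (fun r => (M r).τ (a r))) (by
      intro a b h
      have h' : ∀ᶠ r in UU, a r = b r := h
      rw [mE_eq]
      exact h'.mono fun r hr => by rw [hr])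

theorem tf_mD (a : ∀ r, (M r).D) : tf M (mD M a) = mE M (fun r => (M r).τ (a r)) := rfl

/-- the trace -/
def tau : DD M →ₗ[EE M] EE M where
  toFun := tf M
  map_add' a b := by
    obtain ⟨a, rfl⟩ := mD_surj M a
    obtain ⟨b, rfl⟩ := mD_surj M b
    rw [← map_add, tf_mD, tf_mD, tf_mD, ← map_add]
    congr 1
    funext r
    simp only [Pi.add_apply, map_add]
  map_smul' c a := by
    obtain ⟨c, rfl⟩ := mE_surj M c
    obtain ⟨a, rfl⟩ := mD_surj M a
    rw [smul_mk, tf_mD, tf_mD, RingHom.id_apply, smul_eq_mul, ← map_mul]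
    congr 1
    funext r
    simp only [Pi.mul_apply, map_smul, smul_eq_mul]

theorem tau_mD (a : ∀ r, (M r).D) : tau M (mD M a) = mE M (fun r => (M r).τ (a r)) := rfl

/-- the limit model -/
def lim : Model where
  E := EE M
  D := DD M
  τ := tau M
  τ_one := by
    rw [← map_one (mD M), tau_mD, ← map_one (mE M)]
    congr 1
    funext r
    exact (M r).τ_one
  x := mD M (fun r => (M r).x)
  y := mD M (fun r => (M r).y)

theorem ev_eq (t : Term) :
    t.ev (tau M) (mD M (fun r => (M r).x)) (mD M (fun r => (M r).y)) =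
      mD M (fun r => t.ev (M r).τ (M r).x (M r).y) := by
  induction t with
  | X => rfl
  | Y => rfl
  | one => exact (map_one (mD M)).symm
  | neg t ih => simp only [Term.ev, ih]; rw [← map_neg]; rfl
  | add t s ih1 ih2 => simp only [Term.ev, ih1, ih2]; rw [← map_add]; rfl
  | mul t s ih1 ih2 => simp only [Term.ev, ih1, ih2]; rw [← map_mul]; rfl
  | tr t ih => simp only [Term.ev, ih]; rw [tau_mD, algebraMap_mE]; rfl

theorem alg_of (a : ∀ r, (M r).D) (n : ℕ)
    (h : ∀ᶠ r in UU, ∃ p : Polynomial (M r).E, p ≠ 0 ∧ p.natDegree ≤ n ∧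
      Polynomial.aeval (a r) p = 0) : IsAlgebraic (EE M) (mD M a) := by
  classical
  have hex : ∀ r, ∃ p : Polynomial (M r).E, (∃ p : Polynomial (M r).E, p ≠ 0 ∧ p.natDegree ≤ n ∧
      Polynomial.aeval (a r) p = 0) → (p ≠ 0 ∧ p.natDegree ≤ n ∧ Polynomial.aeval (a r) p = 0) := by
    intro r
    by_cases h : ∃ p : Polynomial (M r).E, p ≠ 0 ∧ p.natDegree ≤ n ∧
      Polynomial.aeval (a r) p = 0
    · obtain ⟨p, hp⟩ := h
      exact ⟨p, fun _ => hp⟩
    · exact ⟨0, fun h' => (h h').elim⟩
  choose p hp using hex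
  have hp' : ∀ᶠ r in UU, p r ≠ 0 ∧ (p r).natDegree ≤ n ∧ Polynomial.aeval (a r) (p r) = 0 :=
    h.mono fun r hr => hp r hr
  let c : ℕ → EE M := fun k => mE M (fun r => (p r).coeff k)
  refine ⟨∑ k ∈ Finset.range (n + 1), Polynomial.monomial k (c k), ?_, ?_⟩
  · intro h0
    have hc : ∀ k ∈ Finset.range (n + 1), ∀ᶠ r in UU, (p r).coeff k = 0 := by
      intro k hk
      have := congrArg (fun q => Polynomial.coeff q k) h0
      simp only [Polynomial.finset_sum_coeff, Polynomial.coeff_monomial, Finset.sum_ite_eq',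
        hk, if_true, Polynomial.coeff_zero] at this
      exact (mE_eq_zero M).1 this
    have hall := (Filter.eventually_all_finset _).2 hc
    obtain ⟨r, hr1, hr2⟩ := (hall.and hp').exists
    apply hr2.1
    ext k
    by_cases hk : k ≤ n
    · simpa using hr1 k (Finset.mem_range.2 (Nat.lt_succ_of_le hk))
    · simpa using Polynomial.coeff_eq_zero_of_natDegree_lt (lt_of_le_of_lt hr2.2.1 (not_le.1 hk))
  · rw [map_sum]
    have : ∀ k, Polynomial.aeval (mD M a) (Polynomial.monomial k (c k)) =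
        mD M (fun r => (p r).coeff k • a r ^ k) := by
      intro k
      rw [Polynomial.aeval_monomial, ← Algebra.smul_def, ← map_pow, smul_mk]
      rfl
    simp only [this]
    rw [← map_sum, mD_eq_zero]
    refine hp'.mono fun r hr => ?_
    rw [Finset.sum_apply, ← hr.2.2,
      Polynomial.aeval_eq_sum_range' (Nat.lt_succ_of_le hr.2.1)]

theorem small_ev (m : ℕ) (h : Small (mD M (fun r => (M r).x)) (mD M (fun r => (M r).y)) m) :
    ∀ᶠ r in UU, Small (M r).x (M r).y m := by
  obtain ⟨w, c, h1, h2, h3, h4, h5⟩ := h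
  choose w' hw using fun i => mD_surj M (w i)
  choose c' hc using fun a i => mD_surj M (c a i)
  have hw' : w = fun i => mD M (w' i) := funext fun i => (hw i).symm
  have hc' : c = fun a i => mD M (c' a i) := funext fun a => funext fun i => (hc a i).symm
  subst hw' hc'
  simp only [← map_mul, ← map_sum, mD_eq] at h1 h2 h4 h5
  simp only [← map_mul, ← map_sum] at h3
  rw [← map_one (mD M), mD_eq] at h3
  have e1 := Filter.eventually_all.2 fun a => Filter.eventually_all.2 fun i =>
    Filter.eventually_all.2 fun b => Filter.eventually_all.2 fun j => h1 a i b j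
  have e2 := Filter.eventually_all.2 fun a => Filter.eventually_all.2 fun i =>
    (h2 a i).1.and (h2 a i).2
  have e4 := Filter.eventually_all.2 h4
  have e5 := Filter.eventually_all.2 h5
  filter_upwards [e1, e2, h3, e4, e5] with r r1 r2 r3 r4 r5
  refine ⟨fun i => w' i r, fun a i => c' a i r, r1, r2, ?_, fun i => ?_, fun i => ?_⟩
  · simpa [Finset.sum_apply] using r3
  · simpa [Finset.sum_apply] using r4 i
  · simpa [Finset.sum_apply] using r5 i

end
end Ult

theorem ultra (f : ℕ → Term) (hf : Function.Surjective f) (M : ℕ → Model)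
    (hM : ∀ r, (M r).Level f r) :
    ∃ N : Model, (∀ t : Term, IsAlgebraic N.E (t.ev N.τ N.x N.y)) ∧ ∀ m, ¬ Small N.x N.y m := by
  refine ⟨Ult.lim M, fun t => ?_, fun m hm => ?_⟩
  · obtain ⟨i, rfl⟩ := hf t
    have h := Ult.alg_of M (fun r => (f i).ev (M r).τ (M r).x (M r).y) (2 ^ (i + 2))
      ((Ult.UU_ge (i + 2)).mono fun r hr => (hM r).1 i hr)
    rw [← Ult.ev_eq] at h
    exact h
  · obtain ⟨r, h1, h2⟩ := ((Ult.small_ev M m hm).and (Ult.UU_ge (16 * m))).exists
    have h3 := (hM r).2 m h1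
    have h4 : r < 4 ^ r := Nat.lt_pow_self (by norm_num)
    omega

end Crest.Agent.R180
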